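import Vale.Agent.P335.Avg

/-! P335, general graphs: the abstract inequality for two disjoint pairs -/

namespace VP335

open Finset

noncomputable section

open Classical

/-- on `D`, averaging the symmetrisation over the fine classes is averaging over the part of the
coarse class inside `D` -/
theorem avg_sym_eq {Ω β β' : Type*} [Fintype Ω] (kE : Ω → β) (kE' : Ω → β') (D : Ω → Prop)
    (J : Ω → Ω) (hJJ : ∀ x, J (J x) = x) (hJD : ∀ x, D x → D (J x))
    (hJE : ∀ x, kE (J x) = kE x)
    (hJE' : ∀ x y, kE' x = kE' y → kE' (J x) = kE' (J y))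
    (hE : ∀ x y, kE' x = kE' y → kE x = kE y)
    (hDE : ∀ x y, kE' x = kE' y → D x → D y)
    (hDD : ∀ x y, D x → D y → kE x = kE y → kE' x = kE' y ∨ kE' x = kE' (J y))
    (F : Ω → ℝ) (x : Ω) (hx : D x) :
    avg kE' (fun y => (F y + F (J y)) / 2) x = avg (fun y => (kE y, D y)) F x := by
  have m1 : ∀ y, y ∈ fib kE' x → J y ∈ fib kE' (J x) := by
    intro y hy
    rw [mem_fib] at hy ⊢
    exact hJE' _ _ hy
  have m2 : ∀ y, y ∈ fib kE' (J x) → J y ∈ fib kE' x := by
    intro y hy
    rw [mem_fib] at hy ⊢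
    have := hJE' _ _ hy
    rwa [hJJ] at this
  have hsum : ∑ y ∈ fib kE' x, F (J y) = ∑ y ∈ fib kE' (J x), F y :=
    sum_nbij' J J m1 m2 (fun y _ => hJJ y) (fun y _ => hJJ y) (fun _ _ => rfl)
  have hcard : (fib kE' x).card = (fib kE' (J x)).card :=
    card_nbij' J J m1 m2 (fun y _ => hJJ y) (fun y _ => hJJ y)
  have hmem : ∀ y, y ∈ fib (fun y => (kE y, D y)) x ↔ (kE y = kE x ∧ D y) := by
    intro y
    rw [mem_fib, Prod.mk.injEq]
    constructor
    · rintro ⟨h1, h2⟩
      exact ⟨h1, h2.mpr hx⟩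
    · rintro ⟨h1, h2⟩
      exact ⟨h1, propext ⟨fun _ => hx, fun _ => h2⟩⟩
  have hun : fib (fun y => (kE y, D y)) x = fib kE' x ∪ fib kE' (J x) := by
    ext y
    rw [hmem, mem_union, mem_fib, mem_fib]
    constructor
    · rintro ⟨h1, h2⟩
      rcases hDD x y hx h2 h1.symm with h3 | h3
      · exact Or.inl h3.symm
      · right
        have := hJE' _ _ h3
        rw [hJJ] at this
        exact this.symm
    · rintro (h | h)
      · exact ⟨hE _ _ h, hDE _ _ h.symm hx⟩
      · exact ⟨(hE _ _ h).trans (hJE x), hDE _ _ h.symm (hJD x hx)⟩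
  have hpos := fib_card_ne kE' x
  have hL : avg kE' (fun y => (F y + F (J y)) / 2) x =
      (∑ y ∈ fib kE' x, F y + ∑ y ∈ fib kE' (J x), F y) / (2 * ((fib kE' x).card : ℝ)) := by
    unfold avg
    rw [← sum_div, sum_add_distrib, hsum]
    field_simp
  rw [hL]
  by_cases hc : kE' (J x) = kE' x
  · have hC : fib kE' (J x) = fib kE' x := fib_congr hc
    unfold avg
    rw [hun, hC, union_self]
    field_simp
    ring
  · have hdis : Disjoint (fib kE' x) (fib kE' (J x)) := by
      rw [disjoint_left]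
      intro y h1 h2
      rw [mem_fib] at h1 h2
      exact hc (h2.symm.trans h1)
    unfold avg
    rw [hun, sum_union hdis, card_union_of_disjoint hdis, ← hcard]
    push_cast
    rw [two_mul]

theorem abs2_ip_add_left {Ω : Type*} [Fintype Ω] (A B C : Ω → ℝ) :
    ip (fun x => A x + B x) C = ip A C + ip B C := by
  simp only [ip, add_mul, sum_add_distrib]

theorem abs2_ip_add_right {Ω : Type*} [Fintype Ω] (A B C : Ω → ℝ) :
    ip A (fun x => B x + C x) = ip A B + ip A C := by
  simp only [ip, mul_add, sum_add_distrib]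

theorem abs2_ip_sub_left {Ω : Type*} [Fintype Ω] (A B C : Ω → ℝ) :
    ip (fun x => A x - B x) C = ip A C - ip B C := by
  simp only [ip, sub_mul, sum_sub_distrib]

theorem abs2_ip_sub_right {Ω : Type*} [Fintype Ω] (A B C : Ω → ℝ) :
    ip A (fun x => B x - C x) = ip A B - ip A C := by
  simp only [ip, mul_sub, sum_sub_distrib]

theorem abs2_avg_sub {Ω β : Type*} [Fintype Ω] (k : Ω → β) (F G : Ω → ℝ) :
    avg k (fun y => F y - G y) = fun x => avg k F x - avg k G x := by
  funext x; exact avg_sub k F G x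

/-- positivity of `⟨G - P G, Q G⟩` for a nonnegative `Q` commuting with `P` -/
theorem abs2_pos {Ω β : Type*} [Fintype Ω] (k : Ω → β) (Q : (Ω → ℝ) → (Ω → ℝ))
    (hQs : ∀ A B : Ω → ℝ, Q (fun x => A x - B x) = fun x => Q A x - Q B x)
    (hQc : ∀ A : Ω → ℝ, avg k (Q A) = Q (avg k A))
    (hQp : ∀ A : Ω → ℝ, 0 ≤ ip (Q A) A) (G : Ω → ℝ) :
    0 ≤ ip (fun x => G x - avg k G x) (Q G) := by
  have h1 : ip (fun x => G x - avg k G x) (Q G)
      = ip (Q (fun x => G x - avg k G x)) (fun x => G x - avg k G x) := by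
    rw [ip_comm, ← ip_sub_avg k (Q G) G, hQs, hQc]
  rw [h1]
  exact hQp _

theorem abs2_pos_one_sub {Ω β : Type*} [Fintype Ω] (k : Ω → β) (A : Ω → ℝ) :
    0 ≤ ip (fun x => A x - avg k A x) A := by
  rw [ip_comm, ← ip_sub_avg k A A]
  exact ip_self_nonneg _

theorem abs2_pos_sub {Ω β γ : Type*} [Fintype Ω] (k : Ω → β) (k' : Ω → γ)
    (h : ∀ x y, k' x = k' y → k x = k y) (A : Ω → ℝ) :
    0 ≤ ip (fun x => avg k' A x - avg k A x) A := by
  have h1 : ip (fun x => avg k' A x - avg k A x) A
      = ip (fun x => avg k' A x - avg k A x) (fun x => avg k' A x - avg k A x) := by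
    rw [abs2_ip_sub_left, abs2_ip_sub_left, abs2_ip_sub_right, abs2_ip_sub_right,
      ip_avg k' A (avg k' A), avg_idem, ip_avg k A (avg k A), avg_idem,
      ip_avg k' A (avg k A), avg_avg_coarser h, ip_avg k A (avg k' A), avg_avg_finer h,
      ip_avg k' A A, ip_avg k A A]
    ring
  rw [h1]
  exact ip_self_nonneg _

theorem abs2_contract {Ω β : Type*} [Fintype Ω] (k : Ω → β) (D : Ω → Prop)
    (hD : ∀ x y, k x = k y → D x → D y) (A : Ω → ℝ) :
    ∑ x, (if D x then (avg k A x) ^ 2 else 0) ≤ ∑ x, (if D x then (A x) ^ 2 else 0) := by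
  obtain ⟨AD, hAD⟩ : ∃ AD : Ω → ℝ, AD = fun x => if D x then A x else 0 := ⟨_, rfl⟩
  have h1 : ∀ x, avg k AD x = if D x then avg k A x else 0 := by
    intro x
    by_cases hx : D x
    · rw [if_pos hx]
      refine avg_congr (fun y hy => ?_)
      rw [hAD]
      change (if D y then A y else 0) = A y
      rw [if_pos (hD x y hy.symm hx)]
    · rw [if_neg hx]
      have h2 : avg k AD x = AD x := by
        refine avg_of_const (fun y hy => ?_)
        rw [hAD]
        change (if D y then A y else 0) = if D x then A x else 0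
        rw [if_neg hx, if_neg (fun h => hx (hD y x hy h))]
      rw [h2, hAD]
      change (if D x then A x else 0) = 0
      rw [if_neg hx]
  have h3 : ∑ x, (if D x then (avg k A x) ^ 2 else 0) = ip (avg k AD) (avg k AD) := by
    unfold ip
    refine sum_congr rfl (fun x _ => ?_)
    rw [h1]
    by_cases hx : D x
    · rw [if_pos hx, if_pos hx]; ring
    · rw [if_neg hx, if_neg hx]; ring
  have h4 : ∑ x, (if D x then (A x) ^ 2 else 0) = ip AD AD := by
    unfold ip
    refine sum_congr rfl (fun x _ => ?_)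
    rw [hAD]
    change _ = (if D x then A x else 0) * (if D x then A x else 0)
    by_cases hx : D x
    · rw [if_pos hx, if_pos hx]; ring
    · rw [if_neg hx, if_neg hx]; ring
  rw [h3, h4, ip_avg, avg_idem]
  have h5 := abs2_pos_one_sub k AD
  rw [abs2_ip_sub_left, ip_avg] at h5
  linarith

theorem abs_ineq {Ω β γ β' γ' : Type*} [Fintype Ω] (kE : Ω → β) (kH : Ω → γ) (kE' : Ω → β')
    (kH' : Ω → γ') (D : Ω → Prop) (J : Ω → Ω) (hJJ : ∀ x, J (J x) = x)
    (hJD : ∀ x, D x → D (J x)) (hJn : ∀ x, ¬ D x → J x = x)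
    (hJE : ∀ x, kE (J x) = kE x) (hJH : ∀ x, kH (J x) = kH x)
    (hJE' : ∀ x y, kE' x = kE' y → kE' (J x) = kE' (J y))
    (hJH' : ∀ x y, kH' x = kH' y → kH' (J x) = kH' (J y))
    (hE : ∀ x y, kE' x = kE' y → kE x = kE y) (hH : ∀ x y, kH' x = kH' y → kH x = kH y)
    (hDE : ∀ x y, kE' x = kE' y → D x → D y) (hDH : ∀ x y, kH' x = kH' y → D x → D y)
    (c1 : ∀ F : Ω → ℝ, avg kE' (avg kH' F) = avg kH' (avg kE' F))
    (c2 : ∀ F : Ω → ℝ, avg kE (avg kH' F) = avg kH' (avg kE F))
    (c3 : ∀ F : Ω → ℝ, avg kH (avg kE' F) = avg kE' (avg kH F))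
    (hoff : ∀ x, ¬ D x → (∀ y, kE y = kE x → kE' y = kE' x) ∨ (∀ y, kH y = kH x → kH' y = kH' x))
    (hDDE : ∀ x y, D x → D y → kE x = kE y → kE' x = kE' y ∨ kE' x = kE' (J y))
    (hDDH : ∀ x y, D x → D y → kH x = kH y → kH' x = kH' y ∨ kH' x = kH' (J y))
    (F : Ω → ℝ) :
    ∑ x, ((F x - F (J x)) / 2) ^ 2
        - (1 / 2) * ∑ x, (if D x then (avg (fun y => (kE y, D y)) F x - avg kE F x) ^ 2 else 0)
        - (1 / 2) * ∑ x, (if D x then (avg (fun y => (kH y, D y)) F x - avg kH F x) ^ 2 else 0) ≤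
      ip (fun x => F x - avg kE F x) (fun x => F x - avg kH F x) := by
  -- the involution as an equivalence
  let σ : Ω ≃ Ω := ⟨J, J, hJJ, hJJ⟩
  have hsum : ∀ K : Ω → ℝ, ∑ x, K (J x) = ∑ x, K x := fun K => Equiv.sum_comp σ K
  have hEJ : avg kE (fun y => F (J y)) = avg kE F := by
    funext x
    have h1 : avg kE (fun y => F (σ y)) x = avg kE F (σ x) := by
      refine avg_equiv σ (fun a b => ?_) F x
      change kE a = kE b ↔ kE (J a) = kE (J b)
      rw [hJE, hJE]
    change avg kE (fun y => F (σ y)) x = avg kE F x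
    rw [h1]
    exact avg_const F (hJE x)
  have hHJ : avg kH (fun y => F (J y)) = avg kH F := by
    funext x
    have h1 : avg kH (fun y => F (σ y)) x = avg kH F (σ x) := by
      refine avg_equiv σ (fun a b => ?_) F x
      change kH a = kH b ↔ kH (J a) = kH (J b)
      rw [hJH, hJH]
    change avg kH (fun y => F (σ y)) x = avg kH F x
    rw [h1]
    exact avg_const F (hJH x)
  obtain ⟨G, hGdef⟩ : ∃ G : Ω → ℝ, G = fun y => (F y + F (J y)) / 2 := ⟨_, rfl⟩
  obtain ⟨Dl, hDl⟩ : ∃ Dl : Ω → ℝ, Dl = fun y => (F y - F (J y)) / 2 := ⟨_, rfl⟩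
  have hEG : avg kE G = avg kE F := by
    funext x
    have h1 : G = fun y => (1 / 2 : ℝ) * (F y + F (J y)) := by
      rw [hGdef]; funext y; ring
    rw [h1, avg_smul, avg_add, congrFun hEJ x]
    ring
  have hHG : avg kH G = avg kH F := by
    funext x
    have h1 : G = fun y => (1 / 2 : ℝ) * (F y + F (J y)) := by
      rw [hGdef]; funext y; ring
    rw [h1, avg_smul, avg_add, congrFun hHJ x]
    ring
  -- Dl is orthogonal to J-invariant functions
  have horth : ∀ K : Ω → ℝ, (∀ x, K (J x) = K x) → ip Dl K = 0 := by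
    intro K hK
    have h1 := hsum (fun x => F x * K x)
    have h2 : ip Dl K = (∑ x, F x * K x - ∑ x, F (J x) * K (J x)) / 2 := by
      rw [← sum_sub_distrib, sum_div]
      unfold ip
      refine sum_congr rfl (fun x _ => ?_)
      rw [hK, hDl]
      ring
    rw [h2]
    have h3 : ∑ x, F (J x) * K (J x) = ∑ x, F x * K x := h1
    rw [h3]
    ring
  have hGJ : ∀ x, G (J x) = G x := by
    intro x
    rw [hGdef]
    simp only [hJJ]
    ring
  have hEJx : ∀ x, avg kE F (J x) = avg kE F x := fun x => avg_const F (hJE x)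
  have hHJx : ∀ x, avg kH F (J x) = avg kH F x := fun x => avg_const F (hJH x)
  have hFs : ∀ x, F x = G x + Dl x := by
    intro x
    rw [hGdef, hDl]
    ring
  have step1 : ip (fun x => F x - avg kE F x) (fun x => F x - avg kH F x)
      = ∑ x, ((F x - F (J x)) / 2) ^ 2
        + ip (fun x => G x - avg kE G x) (fun x => G x - avg kH G x) := by
    rw [hEG, hHG]
    have o1 := horth (fun x => G x - avg kH F x) (fun x => by
      change G (J x) - avg kH F (J x) = G x - avg kH F x
      rw [hGJ, hHJx])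
    have o2 := horth (fun x => G x - avg kE F x) (fun x => by
      change G (J x) - avg kE F (J x) = G x - avg kE F x
      rw [hGJ, hEJx])
    have e1 : ip (fun x => F x - avg kE F x) (fun x => F x - avg kH F x)
        = ip (fun x => G x - avg kE F x) (fun x => G x - avg kH F x)
          + ip Dl (fun x => G x - avg kH F x) + ip Dl (fun x => G x - avg kE F x)
          + ip Dl Dl := by
      unfold ip
      rw [← sum_add_distrib, ← sum_add_distrib, ← sum_add_distrib]
      refine sum_congr rfl (fun x _ => ?_)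
      have := hFs x
      change (F x - avg kE F x) * (F x - avg kH F x)
        = (G x - avg kE F x) * (G x - avg kH F x) + Dl x * (G x - avg kH F x)
          + Dl x * (G x - avg kE F x) + Dl x * Dl x
      generalize avg kE F x = p
      generalize avg kH F x = q
      rw [this]
      ring
    have e2 : ip Dl Dl = ∑ x, ((F x - F (J x)) / 2) ^ 2 := by
      rw [hDl]
      unfold ip
      refine sum_congr rfl (fun x _ => ?_)
      ring
    rw [e1, o1, o2, e2]
    ring
  -- STEP 2
  obtain ⟨A, hA⟩ : ∃ A : Ω → ℝ, A = fun x => avg kE' G x - avg kE G x := ⟨_, rfl⟩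
  obtain ⟨B, hB⟩ : ∃ B : Ω → ℝ, B = fun x => avg kH' G x - avg kH G x := ⟨_, rfl⟩
  have step2 : ip A B ≤ ip (fun x => G x - avg kE G x) (fun x => G x - avg kH G x) := by
    have p1 : 0 ≤ ip (fun x => G x - avg kE' G x) (fun x => G x - avg kH' G x) := by
      refine abs2_pos kE' (fun K => fun x => K x - avg kH' K x) ?_ ?_ ?_ G
      · intro K L
        funext x
        simp only [abs2_avg_sub]
        ring
      · intro K
        rw [abs2_avg_sub, c1]
      · intro K
        exact abs2_pos_one_sub kH' K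
    have p2 : 0 ≤ ip (fun x => G x - avg kE' G x) (fun x => avg kH' G x - avg kH G x) := by
      refine abs2_pos kE' (fun K => fun x => avg kH' K x - avg kH K x) ?_ ?_ ?_ G
      · intro K L
        funext x
        simp only [abs2_avg_sub]
        ring
      · intro K
        rw [abs2_avg_sub, c1, c3]
      · intro K
        exact abs2_pos_sub kH kH' hH K
    have p3 : 0 ≤ ip (fun x => G x - avg kH' G x) (fun x => avg kE' G x - avg kE G x) := by
      refine abs2_pos kH' (fun K => fun x => avg kE' K x - avg kE K x) ?_ ?_ ?_ G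
      · intro K L
        funext x
        simp only [abs2_avg_sub]
        ring
      · intro K
        rw [abs2_avg_sub, c1, c2]
      · intro K
        exact abs2_pos_sub kE kE' hE K
    have e : ip (fun x => G x - avg kE G x) (fun x => G x - avg kH G x)
        = ip (fun x => G x - avg kE' G x) (fun x => G x - avg kH' G x)
          + ip (fun x => G x - avg kE' G x) (fun x => avg kH' G x - avg kH G x)
          + ip (fun x => G x - avg kH' G x) (fun x => avg kE' G x - avg kE G x)
          + ip A B := by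
      rw [hA, hB]
      unfold ip
      rw [← sum_add_distrib, ← sum_add_distrib, ← sum_add_distrib]
      refine sum_congr rfl (fun x _ => ?_)
      ring
    linarith
  -- STEP 2b
  have hEA : avg kE' A = A := by
    rw [hA, abs2_avg_sub, avg_idem, avg_avg_coarser hE]
  have hHB : avg kH' B = B := by
    rw [hB, abs2_avg_sub, avg_idem, avg_avg_coarser hH]
  have step2b : ip A B = ip (avg kH' A) (avg kE' B) := by
    rw [ip_avg kH' A, ← c1, hHB, ← ip_avg kE' A B, hEA]
  obtain ⟨G', hG'⟩ : ∃ G' : Ω → ℝ, G' = avg kE' (avg kH' G) := ⟨_, rfl⟩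
  have hG'2 : G' = avg kH' (avg kE' G) := by rw [hG', c1]
  have hHA : avg kH' A = fun x => G' x - avg kE G' x := by
    have h1 : avg kE G' = avg kH' (avg kE G) := by
      rw [hG', avg_avg_finer hE, c2]
    rw [h1, hA, abs2_avg_sub, ← hG'2]
  have hEB : avg kE' B = fun x => G' x - avg kH G' x := by
    have h1 : avg kH G' = avg kE' (avg kH G) := by
      rw [hG'2, avg_avg_finer hH, c3]
    rw [h1, hB, abs2_avg_sub, ← hG']
  -- STEP 3
  have hG'E : ∀ x y, kE' x = kE' y → G' x = G' y := by
    intro x y h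
    rw [hG']
    exact avg_const _ h
  have hG'H : ∀ x y, kH' x = kH' y → G' x = G' y := by
    intro x y h
    rw [hG'2]
    exact avg_const _ h
  have step3 : -((1 / 2) * ∑ x, (if D x then (avg kH' A x) ^ 2 else 0))
      - (1 / 2) * ∑ x, (if D x then (avg kE' B x) ^ 2 else 0) ≤ ip (avg kH' A) (avg kE' B) := by
    unfold ip
    rw [mul_sum, mul_sum, ← sum_neg_distrib, ← sum_sub_distrib]
    refine sum_le_sum (fun x _ => ?_)
    by_cases hx : D x
    · rw [if_pos hx, if_pos hx]
      nlinarith [sq_nonneg (avg kH' A x + avg kE' B x)]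
    · rw [if_neg hx, if_neg hx]
      rcases hoff x hx with h | h
      · have h1 : avg kE G' x = G' x := avg_of_const (fun y hy => hG'E y x (h y hy))
        have h2 : avg kH' A x = 0 := by
          rw [congrFun hHA x]
          change G' x - avg kE G' x = 0
          rw [h1, sub_self]
        rw [h2]
        simp
      · have h1 : avg kH G' x = G' x := avg_of_const (fun y hy => hG'H y x (h y hy))
        have h2 : avg kE' B x = 0 := by
          rw [congrFun hEB x]
          change G' x - avg kH G' x = 0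
          rw [h1, sub_self]
        rw [h2]
        simp
  -- STEP 4
  have step4 : ∑ x, (if D x then (avg kH' A x) ^ 2 else 0)
      ≤ ∑ x, (if D x then (A x) ^ 2 else 0) := abs2_contract kH' D hDH A
  have step4' : ∑ x, (if D x then (avg kE' B x) ^ 2 else 0)
      ≤ ∑ x, (if D x then (B x) ^ 2 else 0) := abs2_contract kE' D hDE B
  have hAx : ∑ x, (if D x then (A x) ^ 2 else 0)
      = ∑ x, (if D x then (avg (fun y => (kE y, D y)) F x - avg kE F x) ^ 2 else 0) := by
    refine sum_congr rfl (fun x _ => ?_)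
    by_cases hx : D x
    · rw [if_pos hx, if_pos hx, hA]
      have h1 := avg_sym_eq kE kE' D J hJJ hJD hJE hJE' hE hDE hDDE F x hx
      rw [← hGdef] at h1
      change (avg kE' G x - avg kE G x) ^ 2 = _
      rw [h1, hEG]
    · rw [if_neg hx, if_neg hx]
  have hBx : ∑ x, (if D x then (B x) ^ 2 else 0)
      = ∑ x, (if D x then (avg (fun y => (kH y, D y)) F x - avg kH F x) ^ 2 else 0) := by
    refine sum_congr rfl (fun x _ => ?_)
    by_cases hx : D x
    · rw [if_pos hx, if_pos hx, hB]
      have h1 := avg_sym_eq kH kH' D J hJJ hJD hJH hJH' hH hDH hDDH F x hx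
      rw [← hGdef] at h1
      change (avg kH' G x - avg kH G x) ^ 2 = _
      rw [h1, hHG]
    · rw [if_neg hx, if_neg hx]
  rw [← hAx, ← hBx, step1]
  linarith

end

end VP335
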