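import Vale.Agent.P335.Transfer
import Vale.Agent.P335.Defs

/-!
# P335 (Kannan, Tetali and Vempala), general simple graphs: base definitions
-/

namespace VP335

open Finset

noncomputable section

open Classical

variable {n : ℕ} {d : Fin n → ℕ}

/-- all the edges of `X` which do not meet `a` -/
def gkey (a : Finset (Fin n)) (X : Rlz n d) : Fin n → Fin n → Prop :=
  fun p q => p ∉ a ∧ q ∉ a ∧ X.1.Adj p q

/-- resample all the edges meeting `a` given the other edges (and the degrees) -/
def gE (a : Finset (Fin n)) (F : Rlz n d → ℝ) : Rlz n d → ℝ :=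
  avg (gkey a) F

/-- the generator of the pair heat bath on graphs -/
def gL (F : Rlz n d → ℝ) : Rlz n d → ℝ :=
  fun X => ∑ a ∈ powersetCard 2 (univ : Finset (Fin n)), (F X - gE a F X)

/-- the pairs `(p, q)` between `e` and `f`, in either order -/
def btw (e f : Finset (Fin n)) (p q : Fin n) : Prop := (p ∈ e ∧ q ∈ f) ∨ (p ∈ f ∧ q ∈ e)

/-- diagonal block: every vertex of `e` has exactly one neighbour in `f` and every vertex of
`f` has exactly one neighbour in `e` -/
def Dg (e f : Finset (Fin n)) (X : Rlz n d) : Prop :=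
  (∀ p ∈ e, (f.filter (fun q => X.1.Adj p q)).card = 1) ∧
    (∀ q ∈ f, (e.filter (fun p => X.1.Adj p q)).card = 1)

/-- complement the block between `e` and `f` if it is diagonal (otherwise do nothing) -/
def gflip (e f : Finset (Fin n)) (X : Rlz n d) : Rlz n d :=
  if h : Dg e f X ∧ ∃ Y : Rlz n d,
      ∀ p q, Y.1.Adj p q ↔ (if btw e f p q then ¬ X.1.Adj p q else X.1.Adj p q)
  then h.2.choose else X

/-- number of edges between `e` and `f` -/
def gt (e f : Finset (Fin n)) (X : Rlz n d) : ℕ :=
  ((e ×ˢ f).filter (fun z => X.1.Adj z.1 z.2)).card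

/-- the edges between `e` and `f` when there are exactly two of them, otherwise nothing -/
def bkey (e f : Finset (Fin n)) (X : Rlz n d) : Fin n → Fin n → Prop :=
  fun p q => gt e f X = 2 ∧ btw e f p q ∧ X.1.Adj p q

/-- average over the graphs with the same edges outside `e` and the same truth value of `Dg e f` -/
def gD (e f : Finset (Fin n)) (F : Rlz n d → ℝ) : Rlz n d → ℝ :=
  avg (fun Y => (gkey e Y, Dg e f Y)) F

/-- the vertices other than `u, v` adjacent to exactly one of `u, v` -/
def gS (u v : Fin n) (X : Rlz n d) : Finset (Fin n) :=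
  univ.filter (fun c => c ≠ u ∧ c ≠ v ∧ (X.1.Adj u c ↔ ¬ X.1.Adj v c))

/-- the vertices other than `u, v` adjacent to `u` and not to `v` -/
def gU (u v : Fin n) (X : Rlz n d) : Finset (Fin n) :=
  univ.filter (fun c => c ≠ u ∧ c ≠ v ∧ X.1.Adj u c ∧ ¬ X.1.Adj v c)

/-- the mean over a finite set -/
def smean {α : Type*} (s : Finset α) (φ : α → ℝ) : ℝ := (∑ x ∈ s, φ x) / (s.card : ℝ)

theorem gkey_eq_iff (a : Finset (Fin n)) (X Y : Rlz n d) :
    gkey a X = gkey a Y ↔ ∀ p q, p ∉ a → q ∉ a → (X.1.Adj p q ↔ Y.1.Adj p q) := by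
  constructor
  · intro h p q hp hq
    have := congrFun (congrFun h p) q
    simpa [gkey, hp, hq] using this
  · intro h
    funext p q
    apply propext
    unfold gkey
    constructor
    · rintro ⟨h1, h2, h3⟩
      exact ⟨h1, h2, (h p q h1 h2).mp h3⟩
    · rintro ⟨h1, h2, h3⟩
      exact ⟨h1, h2, (h p q h1 h2).mpr h3⟩

theorem gkey_mono {a t : Finset (Fin n)} (h : a ⊆ t) {X Y : Rlz n d} (hk : gkey a X = gkey a Y) :
    gkey t X = gkey t Y := by
  rw [gkey_eq_iff] at hk ⊢
  exact fun p q hp hq => hk p q (fun h' => hp (h h')) (fun h' => hq (h h'))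

theorem btw_symm (e f : Finset (Fin n)) (p q : Fin n) : btw e f p q ↔ btw f e p q := by
  unfold btw; tauto

theorem btw_symm' (e f : Finset (Fin n)) (p q : Fin n) : btw e f p q ↔ btw e f q p := by
  unfold btw; tauto

theorem Rlz_ext {X Y : Rlz n d} (h : ∀ p q, X.1.Adj p q ↔ Y.1.Adj p q) : X = Y := by
  apply Subtype.ext
  ext p q
  exact h p q

/-- degrees outside a set: if `X` and `Y` agree on the edges not meeting `a`, then a vertex
outside `a` has the same number of neighbours in `a` -/
theorem gkey_count {a : Finset (Fin n)} {X Y : Rlz n d} (h : gkey a X = gkey a Y)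
    {p : Fin n} (hp : p ∉ a) :
    (a.filter (fun q => X.1.Adj p q)).card = (a.filter (fun q => Y.1.Adj p q)).card := by
  rw [gkey_eq_iff] at h
  have hX := X.2 p
  have hY := Y.2 p
  have hs : ∀ Z : Rlz n d, (univ.filter (fun q => Z.1.Adj p q)).card =
      (a.filter (fun q => Z.1.Adj p q)).card + (aᶜ.filter (fun q => Z.1.Adj p q)).card := by
    intro Z
    rw [← card_union_of_disjoint]
    · congr 1
      ext q
      simp only [mem_filter, mem_univ, true_and, mem_union, mem_compl]
      tauto
    · rw [disjoint_left]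
      intro q hq hq'
      simp only [mem_filter, mem_compl] at hq hq'
      exact hq'.1 hq.1
  have h2 : aᶜ.filter (fun q => X.1.Adj p q) = aᶜ.filter (fun q => Y.1.Adj p q) := by
    refine filter_congr (fun q hq => ?_)
    exact h p q hp (mem_compl.mp hq)
  rw [hs X] at hX
  rw [hs Y] at hY
  rw [h2] at hX
  omega

theorem Dg_symm (e f : Finset (Fin n)) (X : Rlz n d) : Dg e f X ↔ Dg f e X := by
  unfold Dg
  simp only [SimpleGraph.adj_comm]
  constructor
  · rintro ⟨h1, h2⟩
    exact ⟨fun p hp => by simpa [SimpleGraph.adj_comm] using h2 p hp,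
      fun p hp => by simpa [SimpleGraph.adj_comm] using h1 p hp⟩
  · rintro ⟨h1, h2⟩
    exact ⟨fun p hp => by simpa [SimpleGraph.adj_comm] using h2 p hp,
      fun p hp => by simpa [SimpleGraph.adj_comm] using h1 p hp⟩

end

end VP335
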