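import Vale.Agent.P335.G.Base

/-! P335, general graphs: edges of the Johnson graph -/

namespace VP335

open Finset

noncomputable section

open Classical

lemma JohnsonEdges_card {ι : Type*} (σ f : Finset ι) :
    (symmDiff σ f).card + 2 * (σ ∩ f).card = σ.card + f.card := by
  have h1 : symmDiff σ f = (σ \ f) ∪ (f \ σ) := rfl
  have h2 : Disjoint (σ \ f) (f \ σ) := disjoint_sdiff_sdiff
  rw [h1, card_union_of_disjoint h2]
  have e1 := card_sdiff_add_card_inter σ f
  have e2 := card_sdiff_add_card_inter f σ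
  rw [inter_comm f σ] at e2
  omega

lemma JohnsonEdges_inter {ι : Type*} (σ f : Finset ι) : σ \ symmDiff σ f = σ ∩ f := by
  ext z
  simp only [mem_sdiff, mem_symmDiff, mem_inter]
  tauto

lemma JohnsonEdges_inter' {ι : Type*} (σ f : Finset ι) : σ ∩ symmDiff σ f = σ \ f := by
  ext z
  simp only [mem_sdiff, mem_symmDiff, mem_inter]
  tauto

lemma JohnsonEdges_sub {ι : Type*} {O σ f : Finset ι} (h1 : σ ⊆ O) (h2 : f ⊆ O) :
    symmDiff σ f ⊆ O := by
  intro z hz
  rw [mem_symmDiff] at hz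
  rcases hz with h | h
  · exact h1 h.1
  · exact h2 h.1

/-- ordered Johnson edges as (pair, set separating it) -/
theorem johnson_edges {ι : Type*} [Fintype ι] (O : Finset ι) (a : ℕ) (φ : Finset ι → ℝ) :
    ∑ f ∈ powersetCard 2 O, ∑ σ ∈ (powersetCard a O).filter (fun σ => (σ ∩ f).card = 1),
        (φ σ - φ (symmDiff σ f)) ^ 2 =
      ∑ σ ∈ powersetCard a O, ∑ τ ∈ powersetCard a O,
        (if (σ \ τ).card = 1 then (φ σ - φ τ) ^ 2 else 0) := by
  simp only [sum_filter]
  rw [sum_comm]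
  refine sum_congr rfl fun σ hσ => ?_
  obtain ⟨h1, h2⟩ := mem_powersetCard.mp hσ
  rw [← sum_filter, ← sum_filter]
  refine sum_nbij' (fun f => symmDiff σ f) (fun τ => symmDiff σ τ) ?_ ?_ ?_ ?_ ?_
  · intro f hf
    rw [mem_filter, mem_powersetCard] at hf
    obtain ⟨⟨f1, f2⟩, f3⟩ := hf
    rw [mem_filter, mem_powersetCard]
    refine ⟨⟨JohnsonEdges_sub h1 f1, ?_⟩, ?_⟩
    · have := JohnsonEdges_card σ f
      omega
    · rw [JohnsonEdges_inter]
      exact f3
  · intro τ hτ
    rw [mem_filter, mem_powersetCard] at hτ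
    obtain ⟨⟨f1, f2⟩, f3⟩ := hτ
    rw [mem_filter, mem_powersetCard]
    refine ⟨⟨JohnsonEdges_sub h1 f1, ?_⟩, ?_⟩
    · have := JohnsonEdges_card σ τ
      have e1 := card_sdiff_add_card_inter σ τ
      omega
    · rw [JohnsonEdges_inter']
      exact f3
  · intro f _
    exact symmDiff_symmDiff_cancel_left _ _
  · intro f _
    exact symmDiff_symmDiff_cancel_left _ _
  · intro f _
    rfl

end

end VP335
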