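import Vale.Agent.P335.G.Base

/-! P335, general graphs: the sharp spectral gap of the Johnson graph -/

namespace VP335

open Finset

noncomputable section

open Classical

/-- the down operator -/
def JohnsonSharp_D {ι : Type*} (O : Finset ι) (G : Finset ι → ℝ) (τ : Finset ι) : ℝ :=
  ∑ x ∈ O \ τ, G (insert x τ)

/-- the up operator -/
def JohnsonSharp_U {ι : Type*} (H : Finset ι → ℝ) (σ : Finset ι) : ℝ :=
  ∑ x ∈ σ, H (σ.erase x)

/-- the sum over neighbours -/
def JohnsonSharp_S {ι : Type*} (O : Finset ι) (H : Finset ι → ℝ) (σ : Finset ι) : ℝ :=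
  ∑ y ∈ σ, ∑ x ∈ O \ σ, H (insert x (σ.erase y))

lemma JohnsonSharp_dc {ι : Type*} (O : Finset ι) (a : ℕ) (K : Finset ι → ι → ℝ) :
    ∑ σ ∈ powersetCard (a + 1) O, ∑ x ∈ σ, K (σ.erase x) x =
      ∑ τ ∈ powersetCard a O, ∑ x ∈ O \ τ, K τ x := by
  rw [Finset.sum_sigma', Finset.sum_sigma']
  refine Finset.sum_nbij' (fun p => ⟨p.1.erase p.2, p.2⟩) (fun p => ⟨insert p.2 p.1, p.2⟩)
    ?_ ?_ ?_ ?_ ?_
  · rintro ⟨σ, x⟩ h
    simp only [mem_sigma, mem_powersetCard, mem_sdiff] at h ⊢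
    obtain ⟨⟨h1, h2⟩, h3⟩ := h
    refine ⟨⟨(erase_subset _ _).trans h1, ?_⟩, h1 h3, notMem_erase _ _⟩
    rw [card_erase_of_mem h3, h2]; rfl
  · rintro ⟨τ, x⟩ h
    simp only [mem_sigma, mem_powersetCard, mem_sdiff] at h ⊢
    obtain ⟨⟨h1, h2⟩, h3, h4⟩ := h
    refine ⟨⟨insert_subset h3 h1, ?_⟩, mem_insert_self _ _⟩
    rw [card_insert_of_notMem h4, h2]
  · rintro ⟨σ, x⟩ h
    simp only [mem_sigma, mem_powersetCard] at h
    simp only [insert_erase h.2]
  · rintro ⟨τ, x⟩ h
    simp only [mem_sigma, mem_powersetCard, mem_sdiff] at h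
    simp only [erase_insert h.2.2]
  · rintro ⟨σ, x⟩ h
    rfl

/-- adjointness -/
lemma JohnsonSharp_adj {ι : Type*} (O : Finset ι) (a : ℕ) (G H : Finset ι → ℝ) :
    ∑ σ ∈ powersetCard (a + 1) O, JohnsonSharp_U H σ * G σ =
      ∑ τ ∈ powersetCard a O, H τ * JohnsonSharp_D O G τ := by
  have h := JohnsonSharp_dc O a (fun τ x => H τ * G (insert x τ))
  have e1 : ∑ σ ∈ powersetCard (a + 1) O, JohnsonSharp_U H σ * G σ =
      ∑ σ ∈ powersetCard (a + 1) O, ∑ x ∈ σ, H (σ.erase x) * G (insert x (σ.erase x)) := by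
    refine sum_congr rfl fun σ _ => ?_
    unfold JohnsonSharp_U
    rw [sum_mul]
    refine sum_congr rfl fun x hx => ?_
    rw [insert_erase hx]
  rw [e1, h]
  refine sum_congr rfl fun τ _ => ?_
  unfold JohnsonSharp_D
  rw [mul_sum]

lemma JohnsonSharp_DU {ι : Type*} (O : Finset ι) (a : ℕ) (H : Finset ι → ℝ) {τ : Finset ι}
    (hτ : τ ∈ powersetCard a O) :
    JohnsonSharp_D O (JohnsonSharp_U H) τ =
      ((O.card : ℝ) - a) * H τ + JohnsonSharp_S O H τ := by
  obtain ⟨h1, h2⟩ := mem_powersetCard.mp hτ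
  have hc : ((O \ τ).card : ℝ) = (O.card : ℝ) - a := by
    rw [card_sdiff_of_subset h1, Nat.cast_sub (card_le_card h1), h2]
  unfold JohnsonSharp_D JohnsonSharp_U JohnsonSharp_S
  rw [sum_comm (s := τ)]
  have e : ∀ x ∈ O \ τ, ∑ y ∈ insert x τ, H ((insert x τ).erase y) =
      H τ + ∑ y ∈ τ, H (insert x (τ.erase y)) := by
    intro x hx
    have hx' : x ∉ τ := (mem_sdiff.mp hx).2
    rw [sum_insert hx', erase_insert hx']
    congr 1
    refine sum_congr rfl fun y hy => ?_
    have hxy : x ≠ y := fun h => hx' (h ▸ hy)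
    rw [erase_insert_of_ne hxy]
  rw [sum_congr rfl e, sum_add_distrib, sum_const, nsmul_eq_mul, hc]

lemma JohnsonSharp_UD {ι : Type*} (O : Finset ι) (a : ℕ) (H : Finset ι → ℝ) {τ : Finset ι}
    (hτ : τ ∈ powersetCard a O) :
    JohnsonSharp_U (JohnsonSharp_D O H) τ = (a : ℝ) * H τ + JohnsonSharp_S O H τ := by
  obtain ⟨h1, h2⟩ := mem_powersetCard.mp hτ
  unfold JohnsonSharp_D JohnsonSharp_U JohnsonSharp_S
  have e : ∀ y ∈ τ, ∑ x ∈ O \ τ.erase y, H (insert x (τ.erase y)) =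
      H τ + ∑ x ∈ O \ τ, H (insert x (τ.erase y)) := by
    intro y hy
    have e1 : O \ τ.erase y = insert y (O \ τ) := by
      ext z
      simp only [mem_sdiff, mem_erase, mem_insert]
      constructor
      · rintro ⟨hz, h⟩
        by_cases hzy : z = y
        · exact Or.inl hzy
        · exact Or.inr ⟨hz, fun h' => h ⟨hzy, h'⟩⟩
      · rintro (rfl | ⟨hz, h⟩)
        · exact ⟨h1 hy, fun h => h.1 rfl⟩
        · exact ⟨hz, fun h' => h h'.2⟩
    rw [e1, sum_insert (fun h => (mem_sdiff.mp h).2 hy), insert_erase hy]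
  rw [sum_congr rfl e, sum_add_distrib, sum_const, nsmul_eq_mul, h2]

lemma JohnsonSharp_bound {ι : Type*} (O : Finset ι) (a : ℕ) (ha : a + 1 ≤ O.card) :
    ∀ G : Finset ι → ℝ, ∑ σ ∈ powersetCard (a + 1) O, G σ = 0 →
      ∑ τ ∈ powersetCard a O, JohnsonSharp_D O G τ ^ 2 ≤
        (a : ℝ) * ((O.card : ℝ) - (a + 1)) * ∑ σ ∈ powersetCard (a + 1) O, G σ ^ 2 := by
  induction a with
  | zero =>
    intro G hG
    have h := JohnsonSharp_adj O 0 G (fun _ => 1)
    have e1 : ∑ σ ∈ powersetCard (0 + 1) O, JohnsonSharp_U (fun _ => 1) σ * G σ =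
        ∑ σ ∈ powersetCard (0 + 1) O, G σ := by
      refine sum_congr rfl fun σ hσ => ?_
      unfold JohnsonSharp_U
      rw [sum_const, nsmul_eq_mul, (mem_powersetCard.mp hσ).2]
      simp
    rw [e1, hG] at h
    simp only [one_mul, powersetCard_zero, sum_singleton] at h
    simp only [powersetCard_zero, sum_singleton]
    rw [← h]
    simp
  | succ a ih =>
    intro G hG
    have hN : ((a : ℝ) + 1) + 1 ≤ O.card := by exact_mod_cast ha
    set H : Finset ι → ℝ := JohnsonSharp_D O G with hH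
    have hH0 : ∑ τ ∈ powersetCard (a + 1) O, H τ = 0 := by
      have h := JohnsonSharp_adj O (a + 1) G (fun _ => 1)
      have e1 : ∑ σ ∈ powersetCard (a + 1 + 1) O, JohnsonSharp_U (fun _ => 1) σ * G σ =
          ((a : ℝ) + 1 + 1) * ∑ σ ∈ powersetCard (a + 1 + 1) O, G σ := by
        rw [mul_sum]
        refine sum_congr rfl fun σ hσ => ?_
        unfold JohnsonSharp_U
        rw [sum_const, nsmul_eq_mul, (mem_powersetCard.mp hσ).2]
        push_cast
        ring
      rw [e1, hG] at h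
      simp only [one_mul, mul_zero] at h
      exact h.symm
    have h1 : ∑ τ ∈ powersetCard (a + 1) O, H τ ^ 2 =
        ∑ σ ∈ powersetCard (a + 1 + 1) O, JohnsonSharp_U H σ * G σ := by
      rw [JohnsonSharp_adj]
      exact sum_congr rfl fun τ _ => sq _
    have h2 : ∑ σ ∈ powersetCard (a + 1 + 1) O, JohnsonSharp_U H σ ^ 2 =
        ((O.card : ℝ) - 2 * ((a : ℝ) + 1)) * ∑ τ ∈ powersetCard (a + 1) O, H τ ^ 2 +
          ∑ τ ∈ powersetCard a O, JohnsonSharp_D O H τ ^ 2 := by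
      have e1 : ∑ σ ∈ powersetCard (a + 1 + 1) O, JohnsonSharp_U H σ ^ 2 =
          ∑ τ ∈ powersetCard (a + 1) O, H τ * JohnsonSharp_D O (JohnsonSharp_U H) τ := by
        rw [← JohnsonSharp_adj]
        exact sum_congr rfl fun τ _ => sq _
      have e2 : ∑ τ ∈ powersetCard a O, JohnsonSharp_D O H τ ^ 2 =
          ∑ σ ∈ powersetCard (a + 1) O, JohnsonSharp_U (JohnsonSharp_D O H) σ * H σ := by
        rw [JohnsonSharp_adj]
        exact sum_congr rfl fun τ _ => sq _
      rw [e1, e2, mul_sum, ← sum_add_distrib]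
      refine sum_congr rfl fun τ hτ => ?_
      rw [JohnsonSharp_DU O (a + 1) H hτ, JohnsonSharp_UD O (a + 1) H hτ]
      push_cast
      ring
    have h3 := ih (by omega) H hH0
    have h4 : (∑ σ ∈ powersetCard (a + 1 + 1) O, JohnsonSharp_U H σ * G σ) ^ 2 ≤
        (∑ σ ∈ powersetCard (a + 1 + 1) O, JohnsonSharp_U H σ ^ 2) *
          ∑ σ ∈ powersetCard (a + 1 + 1) O, G σ ^ 2 := sum_mul_sq_le_sq_mul_sq _ _ _
    rw [← h1, h2] at h4
    set A := ∑ τ ∈ powersetCard (a + 1) O, H τ ^ 2 with hA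
    set B := ∑ σ ∈ powersetCard (a + 1 + 1) O, G σ ^ 2 with hB
    have hA0 : 0 ≤ A := sum_nonneg fun _ _ => sq_nonneg _
    have hB0 : 0 ≤ B := sum_nonneg fun _ _ => sq_nonneg _
    have h5 : A ^ 2 ≤ (((a : ℝ) + 1) * ((O.card : ℝ) - ((a : ℝ) + 1 + 1)) * B) * A := by
      refine h4.trans ?_
      have : (((O.card : ℝ) - 2 * ((a : ℝ) + 1)) * A +
          ∑ τ ∈ powersetCard a O, JohnsonSharp_D O H τ ^ 2) ≤
          ((a : ℝ) + 1) * ((O.card : ℝ) - ((a : ℝ) + 1 + 1)) * A := by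
        linarith
      calc _ ≤ (((a : ℝ) + 1) * ((O.card : ℝ) - ((a : ℝ) + 1 + 1)) * A) * B :=
            mul_le_mul_of_nonneg_right this hB0
        _ = _ := by ring
    push_cast
    rcases hA0.eq_or_lt with h | h
    · rw [← h]
      have : 0 ≤ (O.card : ℝ) - ((a : ℝ) + 1 + 1) := by linarith
      positivity
    · rw [sq] at h5
      exact le_of_mul_le_mul_right h5 h

lemma JohnsonSharp_nb {ι : Type*} (O : Finset ι) (a : ℕ) (F : Finset ι → ℝ) {σ : Finset ι}
    (hσ : σ ∈ powersetCard a O) :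
    ∑ τ ∈ powersetCard a O, (if (σ \ τ).card = 1 then F τ else 0) = JohnsonSharp_S O F σ := by
  obtain ⟨h1, h2⟩ := mem_powersetCard.mp hσ
  unfold JohnsonSharp_S
  rw [← sum_filter, ← sum_product']
  symm
  refine sum_bij (fun p _ => insert p.2 (σ.erase p.1)) ?_ ?_ ?_ ?_
  · rintro ⟨y, x⟩ h
    simp only [mem_product, mem_sdiff] at h
    obtain ⟨hy, hx, hxσ⟩ := h
    have hx' : x ∉ σ.erase y := fun h => hxσ (mem_of_mem_erase h)
    rw [mem_filter, mem_powersetCard]
    refine ⟨⟨insert_subset hx ((erase_subset _ _).trans h1), ?_⟩, ?_⟩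
    · rw [card_insert_of_notMem hx', card_erase_of_mem hy, h2]
      have : 0 < a := by rw [← h2]; exact card_pos.mpr ⟨y, hy⟩
      omega
    · rw [card_eq_one]
      refine ⟨y, ?_⟩
      ext z
      simp only [mem_sdiff, mem_insert, mem_erase, mem_singleton]
      constructor
      · rintro ⟨hz, h⟩
        by_contra hzy
        exact h (Or.inr ⟨hzy, hz⟩)
      · rintro rfl
        refine ⟨hy, ?_⟩
        rintro (h | h)
        · have h' : z = x := h
          rw [h'] at hy
          exact hxσ hy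
        · exact h.1 rfl
  · rintro ⟨y, x⟩ h ⟨y', x'⟩ h' he
    simp only [mem_product, mem_sdiff] at h h'
    obtain ⟨hy, hx, hxσ⟩ := h
    obtain ⟨hy', hx', hxσ'⟩ := h'
    have ex : x = x' := by
      have : x ∈ insert x' (σ.erase y') := by rw [← he]; exact mem_insert_self _ _
      rcases mem_insert.mp this with h | h
      · exact h
      · exact absurd (mem_of_mem_erase h) hxσ
    have ey : y = y' := by
      by_contra hne
      have : y ∈ insert x' (σ.erase y') := mem_insert_of_mem (mem_erase.mpr ⟨hne, hy⟩)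
      rw [← he] at this
      rcases mem_insert.mp this with h | h
      · have h'' : y = x := h
        rw [h''] at hy
        exact hxσ hy
      · exact (notMem_erase y σ) h
    rw [ex, ey]
  · intro τ hτ
    rw [mem_filter, mem_powersetCard] at hτ
    obtain ⟨⟨t1, t2⟩, t3⟩ := hτ
    have t4 : (τ \ σ).card = 1 := by
      have e1 := card_sdiff_add_card_inter σ τ
      have e2 := card_sdiff_add_card_inter τ σ
      rw [inter_comm τ σ] at e2
      omega
    obtain ⟨y, hy⟩ := card_eq_one.mp t3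
    obtain ⟨x, hx⟩ := card_eq_one.mp t4
    have hyσ : y ∈ σ \ τ := by rw [hy]; exact mem_singleton_self _
    have hxτ : x ∈ τ \ σ := by rw [hx]; exact mem_singleton_self _
    rw [mem_sdiff] at hyσ hxτ
    refine ⟨(y, x), ?_, ?_⟩
    · simp only [mem_product, mem_sdiff]
      exact ⟨hyσ.1, t1 hxτ.1, hxτ.2⟩
    · ext z
      simp only [mem_insert, mem_erase]
      constructor
      · rintro (rfl | ⟨hz1, hz2⟩)
        · exact hxτ.1
        · by_contra hz
          have : z ∈ σ \ τ := mem_sdiff.mpr ⟨hz2, hz⟩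
          rw [hy, mem_singleton] at this
          exact hz1 this
      · intro hz
        by_cases hzσ : z ∈ σ
        · right
          refine ⟨?_, hzσ⟩
          rintro rfl
          exact hyσ.2 hz
        · left
          have : z ∈ τ \ σ := mem_sdiff.mpr ⟨hz, hzσ⟩
          rw [hx, mem_singleton] at this
          exact this
  · rintro ⟨y, x⟩ _
    rfl

theorem johnson_sharp {ι : Type*} [Fintype ι] (O : Finset ι) (a : ℕ) (φ : Finset ι → ℝ) :
    (O.card : ℝ) * ∑ σ ∈ powersetCard a O, (φ σ - smean (powersetCard a O) φ) ^ 2 ≤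
      (1 / 2) * ∑ σ ∈ powersetCard a O, ∑ τ ∈ powersetCard a O,
        (if (σ \ τ).card = 1 then (φ σ - φ τ) ^ 2 else 0) := by
  set m := smean (powersetCard a O) φ with hm
  set G : Finset ι → ℝ := fun σ => φ σ - m with hG
  have hR : ∑ σ ∈ powersetCard a O, ∑ τ ∈ powersetCard a O,
        (if (σ \ τ).card = 1 then (φ σ - φ τ) ^ 2 else 0) =
      ∑ σ ∈ powersetCard a O, ∑ τ ∈ powersetCard a O,
        (if (σ \ τ).card = 1 then (G σ - G τ) ^ 2 else 0) := by
    refine sum_congr rfl fun σ _ => sum_congr rfl fun τ _ => ?_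
    have : φ σ - φ τ = G σ - G τ := by simp only [hG]; ring
    rw [this]
  rw [hR]
  have hRnn : 0 ≤ ∑ σ ∈ powersetCard a O, ∑ τ ∈ powersetCard a O,
        (if (σ \ τ).card = 1 then (G σ - G τ) ^ 2 else 0) :=
    sum_nonneg fun σ _ => sum_nonneg fun τ _ => by split_ifs <;> positivity
  rcases lt_or_ge O.card a with hlt | hle
  · rw [powersetCard_eq_empty.mpr hlt]
    simp
  rcases Nat.eq_zero_or_pos a with rfl | hpos
  · have : ∑ σ ∈ powersetCard 0 O, G σ ^ 2 = 0 := by
      simp only [powersetCard_zero, sum_singleton, hG, hm]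
      unfold smean
      simp
    rw [this]
    linarith
  obtain ⟨b, rfl⟩ : ∃ b, a = b + 1 := ⟨a - 1, by omega⟩
  have hG0 : ∑ σ ∈ powersetCard (b + 1) O, G σ = 0 := by
    simp only [hG, sum_sub_distrib, sum_const, nsmul_eq_mul, hm]
    unfold smean
    have : ((powersetCard (b + 1) O).card : ℝ) ≠ 0 := by
      rw [card_powersetCard]
      exact_mod_cast (Nat.choose_pos hle).ne'
    field_simp
    ring
  have hb := JohnsonSharp_bound O b hle G hG0
  -- the Dirichlet form
  have hsym : ∑ σ ∈ powersetCard (b + 1) O, ∑ τ ∈ powersetCard (b + 1) O,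
        (if (σ \ τ).card = 1 then G τ ^ 2 else 0) =
      ∑ σ ∈ powersetCard (b + 1) O, ∑ τ ∈ powersetCard (b + 1) O,
        (if (σ \ τ).card = 1 then G σ ^ 2 else 0) := by
    rw [sum_comm]
    refine sum_congr rfl fun σ hσ => sum_congr rfl fun τ hτ => ?_
    have : (τ \ σ).card = (σ \ τ).card := by
      have e1 := card_sdiff_add_card_inter σ τ
      have e2 := card_sdiff_add_card_inter τ σ
      rw [inter_comm τ σ] at e2
      have e3 := (mem_powersetCard.mp hσ).2
      have e4 := (mem_powersetCard.mp hτ).2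
      omega
    rw [this]
  have hdiag : ∑ σ ∈ powersetCard (b + 1) O, ∑ τ ∈ powersetCard (b + 1) O,
        (if (σ \ τ).card = 1 then G σ ^ 2 else 0) =
      (((b : ℝ) + 1) * ((O.card : ℝ) - (b + 1))) * ∑ σ ∈ powersetCard (b + 1) O, G σ ^ 2 := by
    rw [mul_sum]
    refine sum_congr rfl fun σ hσ => ?_
    rw [JohnsonSharp_nb O (b + 1) (fun _ => G σ ^ 2) hσ]
    unfold JohnsonSharp_S
    obtain ⟨h1, h2⟩ := mem_powersetCard.mp hσ
    simp only [sum_const, nsmul_eq_mul, h2]
    rw [card_sdiff_of_subset h1, Nat.cast_sub (card_le_card h1), h2]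
    push_cast
    ring
  have hcross : ∑ σ ∈ powersetCard (b + 1) O, ∑ τ ∈ powersetCard (b + 1) O,
        (if (σ \ τ).card = 1 then G σ * G τ else 0) =
      ∑ τ ∈ powersetCard b O, JohnsonSharp_D O G τ ^ 2 -
        ((b : ℝ) + 1) * ∑ σ ∈ powersetCard (b + 1) O, G σ ^ 2 := by
    have e2 : ∑ τ ∈ powersetCard b O, JohnsonSharp_D O G τ ^ 2 =
        ∑ σ ∈ powersetCard (b + 1) O, JohnsonSharp_U (JohnsonSharp_D O G) σ * G σ := by
      rw [JohnsonSharp_adj]
      exact sum_congr rfl fun τ _ => sq _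
    rw [e2, mul_sum, ← sum_sub_distrib]
    refine sum_congr rfl fun σ hσ => ?_
    rw [JohnsonSharp_UD O (b + 1) G hσ, ← JohnsonSharp_nb O (b + 1) G hσ]
    push_cast
    have : ∑ τ ∈ powersetCard (b + 1) O, (if (σ \ τ).card = 1 then G σ * G τ else 0) =
        G σ * ∑ τ ∈ powersetCard (b + 1) O, (if (σ \ τ).card = 1 then G τ else 0) := by
      rw [mul_sum]
      refine sum_congr rfl fun τ _ => ?_
      split_ifs <;> ring
    rw [this]
    ring
  have hexp : ∑ σ ∈ powersetCard (b + 1) O, ∑ τ ∈ powersetCard (b + 1) O,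
        (if (σ \ τ).card = 1 then (G σ - G τ) ^ 2 else 0) =
      ∑ σ ∈ powersetCard (b + 1) O, ∑ τ ∈ powersetCard (b + 1) O,
        (if (σ \ τ).card = 1 then G σ ^ 2 else 0) +
      ∑ σ ∈ powersetCard (b + 1) O, ∑ τ ∈ powersetCard (b + 1) O,
        (if (σ \ τ).card = 1 then G τ ^ 2 else 0) -
      2 * ∑ σ ∈ powersetCard (b + 1) O, ∑ τ ∈ powersetCard (b + 1) O,
        (if (σ \ τ).card = 1 then G σ * G τ else 0) := by
    simp only [mul_sum, ← sum_add_distrib, ← sum_sub_distrib]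
    refine sum_congr rfl fun σ _ => sum_congr rfl fun τ _ => ?_
    split_ifs <;> ring
  rw [hexp, hsym, hdiag, hcross]
  have hGG : ∑ σ ∈ powersetCard (b + 1) O, (φ σ - m) ^ 2 =
      ∑ σ ∈ powersetCard (b + 1) O, G σ ^ 2 := rfl
  rw [hGG]
  nlinarith [hb]

end

end VP335
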