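import Vale.Agent.P335.G.SliceVar
import Vale.Agent.P335.G.JohnsonSharp
import Vale.Agent.P335.G.JohnsonEdges

/-! P335, general graphs: the slice inequality -/

namespace VP335

open Finset

noncomputable section

open Classical

/-- a two-element set separated by `σ` -/
theorem Slice_inter_card {ι : Type*} {σ : Finset ι} {w x : ι} (hw : w ∈ σ) (hx : x ∉ σ) :
    (σ ∩ {w, x}).card = 1 := by
  have : σ ∩ {w, x} = {w} := by
    ext y
    simp only [mem_inter, mem_insert, mem_singleton]
    constructor
    · rintro ⟨h1, h2 | h2⟩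
      · exact h2
      · subst h2
        exact absurd h1 hx
    · rintro rfl
      exact ⟨hw, Or.inl rfl⟩
  rw [this, card_singleton]

theorem Slice_sep_sum {ι : Type*} (O σ : Finset ι) (hσ : σ ⊆ O) (H : Finset ι → ℝ) :
    ∑ f ∈ (powersetCard 2 O).filter (fun f => (σ ∩ f).card = 1), H f =
      ∑ w ∈ σ, ∑ x ∈ O \ σ, H {w, x} := by
  rw [← Finset.sum_product']
  symm
  refine Finset.sum_bij (fun z _ => ({z.1, z.2} : Finset ι)) ?_ ?_ ?_ ?_
  · rintro ⟨w, x⟩ hz
    rw [mem_product, mem_sdiff] at hz
    simp only at hz ⊢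
    have hne : w ≠ x := fun h => hz.2.2 (h ▸ hz.1)
    rw [mem_filter, mem_powersetCard]
    refine ⟨⟨?_, card_pair hne⟩, Slice_inter_card hz.1 hz.2.2⟩
    intro y hy
    rw [mem_insert, mem_singleton] at hy
    rcases hy with rfl | rfl
    · exact hσ hz.1
    · exact hz.2.1
  · rintro ⟨w, x⟩ hz ⟨w', x'⟩ hz' heq
    rw [mem_product, mem_sdiff] at hz hz'
    simp only at hz hz' heq
    have h1 : w ∈ ({w', x'} : Finset ι) := by rw [← heq]; simp
    have h2 : x ∈ ({w', x'} : Finset ι) := by rw [← heq]; simp
    rw [mem_insert, mem_singleton] at h1 h2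
    have hw : w = w' := by
      rcases h1 with h | h
      · exact h
      · exact absurd (h ▸ hz.1) hz'.2.2
    have hx : x = x' := by
      rcases h2 with h | h
      · exact absurd (h ▸ hz'.1) hz.2.2
      · exact h
    rw [hw, hx]
  · intro f hf
    rw [mem_filter, mem_powersetCard] at hf
    obtain ⟨⟨hfO, hf2⟩, hf1⟩ := hf
    obtain ⟨w, hw⟩ := card_eq_one.1 hf1
    have hwf : w ∈ σ ∩ f := by rw [hw]; simp
    rw [mem_inter] at hwf
    have hrest : (f \ σ).card = 1 := by
      have := card_inter_add_card_sdiff f σ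
      rw [inter_comm f σ, hf1, hf2] at this
      omega
    obtain ⟨x, hx⟩ := card_eq_one.1 hrest
    have hxf : x ∈ f \ σ := by rw [hx]; simp
    rw [mem_sdiff] at hxf
    refine ⟨(w, x), ?_, ?_⟩
    · rw [mem_product, mem_sdiff]
      exact ⟨hwf.1, hfO hxf.1, hxf.2⟩
    · simp only
      apply Finset.eq_of_subset_of_card_le
      · intro y hy
        rw [mem_insert, mem_singleton] at hy
        rcases hy with rfl | rfl
        · exact hwf.2
        · exact hxf.1
      · have hwx : w ≠ x := by
          intro h'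
          rw [← h'] at hxf
          exact hxf.2 hwf.1
        rw [hf2, card_pair hwx]
  · intro z _
    rfl

theorem Slice_pair_sum {ι : Type*} (O : Finset ι) (H : Finset ι → ℝ) :
    ∑ w ∈ O, ∑ x ∈ O, (if w ≠ x then H {w, x} else 0) = 2 * ∑ f ∈ powersetCard 2 O, H f := by
  have h1 : ∀ f ∈ powersetCard 2 O, 2 * H f = ∑ w ∈ O, (if w ∈ f then H f else 0) := by
    intro f hf
    rw [mem_powersetCard] at hf
    rw [← Finset.sum_filter]
    have : O.filter (fun w => w ∈ f) = f := by
      ext y
      rw [mem_filter]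
      exact ⟨fun h => h.2, fun h => ⟨hf.1 h, h⟩⟩
    rw [this, Finset.sum_const, hf.2]
    simp
  rw [Finset.mul_sum, Finset.sum_congr rfl h1, Finset.sum_comm (s := powersetCard 2 O)]
  apply Finset.sum_congr rfl
  intro w hw
  rw [← Finset.sum_filter, ← Finset.sum_filter]
  refine Finset.sum_bij (fun x _ => ({w, x} : Finset ι)) ?_ ?_ ?_ ?_
  · intro x hx
    rw [mem_filter] at hx
    rw [mem_filter, mem_powersetCard]
    refine ⟨⟨?_, card_pair hx.2⟩, by simp⟩
    intro y hy
    rw [mem_insert, mem_singleton] at hy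
    rcases hy with rfl | rfl
    · exact hw
    · exact hx.1
  · intro x hx x' hx' heq
    rw [mem_filter] at hx hx'
    have h2 : x ∈ ({w, x'} : Finset ι) := by rw [← heq]; simp
    rw [mem_insert, mem_singleton] at h2
    rcases h2 with h | h
    · exact absurd h.symm hx.2
    · exact h
  · intro f hf
    rw [mem_filter, mem_powersetCard] at hf
    obtain ⟨⟨hfO, hf2⟩, hwf⟩ := hf
    have hrest : (f.erase w).card = 1 := by rw [card_erase_of_mem hwf, hf2]
    obtain ⟨x, hx⟩ := card_eq_one.1 hrest
    have hxf : x ∈ f.erase w := by rw [hx]; simp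
    rw [mem_erase] at hxf
    refine ⟨x, ?_, ?_⟩
    · rw [mem_filter]
      exact ⟨hfO hxf.2, hxf.1.symm⟩
    · rw [← insert_erase hwf, hx]
  · intro x _
    rfl

theorem Slice_amgm (N p q : ℝ) (hN : 0 < N) : p * q ≤ N / 4 * p ^ 2 + (1 / N) * q ^ 2 := by
  have h3 : 0 ≤ (N / 2 * p - q) ^ 2 / N := by positivity
  have h4 : (N / 2 * p - q) ^ 2 / N = N / 4 * p ^ 2 + (1 / N) * q ^ 2 - p * q := by
    field_simp
    ring
  linarith

theorem Slice_cancel (N Y A : ℝ) (hN : 0 < N) :
    (1 / N) * ((N / 2) * Y * (2 * A)) = (1 / 2) * (2 * Y * A) := by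
  field_simp

theorem Slice_D_card {ι : Type*} [Fintype ι] (O : Finset ι) (a b : ℕ) (ha : 1 ≤ a)
    (hab : O.card = a + b) (f : Finset ι) (hf : f ∈ powersetCard 2 O) :
    ((powersetCard a O).filter (fun σ => (σ ∩ f).card = 1)).card =
      2 * (a + b - 2).choose (a - 1) := by
  rw [mem_powersetCard] at hf
  obtain ⟨hfO, hf2⟩ := hf
  obtain ⟨w, x, hne, rfl⟩ := card_eq_two.1 hf2
  have hwO : w ∈ O := hfO (by simp)
  have hxO : x ∈ O := hfO (by simp)
  have hsplit : (powersetCard a O).filter (fun σ => (σ ∩ {w, x}).card = 1) =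
      (powersetCard a O).filter (fun σ => {w} ⊆ σ ∧ Disjoint {x} σ) ∪
        (powersetCard a O).filter (fun σ => {x} ⊆ σ ∧ Disjoint {w} σ) := by
    ext σ
    simp only [mem_union, mem_filter, singleton_subset_iff, disjoint_singleton_left]
    constructor
    · rintro ⟨h1, h2⟩
      by_cases hw : w ∈ σ
      · by_cases hx : x ∈ σ
        · exfalso
          have : σ ∩ {w, x} = {w, x} := by
            apply inter_eq_right.2
            intro y hy
            rw [mem_insert, mem_singleton] at hy
            rcases hy with rfl | rfl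
            · exact hw
            · exact hx
          rw [this, card_pair hne] at h2
          omega
        · exact Or.inl ⟨h1, hw, hx⟩
      · by_cases hx : x ∈ σ
        · exact Or.inr ⟨h1, hx, hw⟩
        · exfalso
          have : σ ∩ {w, x} = ∅ := by
            ext y
            simp only [mem_inter, mem_insert, mem_singleton, notMem_empty, iff_false]
            rintro ⟨hy, rfl | rfl⟩
            · exact hw hy
            · exact hx hy
          rw [this, card_empty] at h2
          omega
    · rintro (⟨h1, h2, h3⟩ | ⟨h1, h2, h3⟩)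
      · exact ⟨h1, Slice_inter_card h2 h3⟩
      · refine ⟨h1, ?_⟩
        rw [pair_comm]
        exact Slice_inter_card h2 h3
  have hdisj : Disjoint ((powersetCard a O).filter (fun σ => {w} ⊆ σ ∧ Disjoint {x} σ))
      ((powersetCard a O).filter (fun σ => {x} ⊆ σ ∧ Disjoint {w} σ)) := by
    rw [disjoint_left]
    intro σ h1 h2
    simp only [mem_filter, singleton_subset_iff, disjoint_singleton_left] at h1 h2
    exact h2.2.2 h1.2.1
  rw [hsplit, card_union_of_disjoint hdisj,
    slice_count O {w} {x} a (by simpa using hwO) (by simpa using hxO) (by simpa using hne)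
      (by simpa using ha),
    slice_count O {x} {w} a (by simpa using hxO) (by simpa using hwO) (by simpa using hne.symm)
      (by simpa using ha)]
  simp only [card_singleton, hab]
  rw [show a + b - 1 - 1 = a + b - 2 by omega]
  ring

theorem slice_ineq {ι : Type*} [Fintype ι] (O : Finset ι) (a : ℕ) (φ : Finset ι → ℝ) :
    ∑ f ∈ powersetCard 2 O, (1 / 2 : ℝ) *
        ∑ _σ ∈ (powersetCard a O).filter (fun σ => (σ ∩ f).card = 1),
          (smean ((powersetCard a O).filter (fun τ => (τ ∩ f).card = 1)) φ -
            smean (powersetCard a O) φ) ^ 2 ≤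
      ∑ f ∈ powersetCard 2 O, (1 / 8 : ℝ) *
        ∑ σ ∈ (powersetCard a O).filter (fun σ => (σ ∩ f).card = 1),
          (φ σ - φ (symmDiff σ f)) ^ 2 := by
  by_cases hcase : 1 ≤ a ∧ a < O.card
  swap
  · -- all the filters are empty
    have hempty : ∀ f ∈ powersetCard 2 O,
        (powersetCard a O).filter (fun σ => (σ ∩ f).card = 1) = ∅ := by
      intro f hf
      rw [mem_powersetCard] at hf
      rw [filter_eq_empty_iff]
      intro σ hσ h1
      rw [mem_powersetCard] at hσ
      apply hcase
      have hσf : (σ ∩ f).card ≤ σ.card := card_le_card inter_subset_left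
      refine ⟨by omega, ?_⟩
      by_contra hlt
      push Not at hlt
      have hσO : σ = O := Finset.eq_of_subset_of_card_le hσ.1 (by omega)
      rw [hσO, inter_eq_right.2 hf.1, hf.2] at h1
      omega
    have h0 : ∑ f ∈ powersetCard 2 O, (1 / 2 : ℝ) *
        ∑ _σ ∈ (powersetCard a O).filter (fun σ => (σ ∩ f).card = 1),
          (smean ((powersetCard a O).filter (fun τ => (τ ∩ f).card = 1)) φ -
            smean (powersetCard a O) φ) ^ 2 = 0 := by
      apply Finset.sum_eq_zero
      intro f hf
      rw [hempty f hf]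
      simp
    rw [h0]
    apply Finset.sum_nonneg
    intro f _
    apply mul_nonneg (by norm_num)
    exact Finset.sum_nonneg (fun σ _ => sq_nonneg _)
  · obtain ⟨ha, haN⟩ := hcase
    obtain ⟨b, hb, hab⟩ : ∃ b, 1 ≤ b ∧ O.card = a + b := ⟨O.card - a, by omega, by omega⟩
    set E := smean (powersetCard a O) φ with hE
    set D : Finset ι → Finset (Finset ι) := fun f =>
      (powersetCard a O).filter (fun σ => (σ ∩ f).card = 1) with hD
    set h : Finset ι → ℝ := fun f => smean (D f) φ - E with hh
    set Y : ℝ := ((a + b - 2).choose (a - 1) : ℝ) with hY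
    have hDcard : ∀ f ∈ powersetCard 2 O, ((D f).card : ℝ) = 2 * Y := by
      intro f hf
      rw [hD]
      simp only
      rw [Slice_D_card O a b ha hab f hf, hY]
      push_cast
      ring
    have hYpos : 0 < Y := by
      rw [hY]
      have : 0 < (a + b - 2).choose (a - 1) := Nat.choose_pos (by omega)
      exact_mod_cast this
    set V := ∑ σ ∈ powersetCard a O, (φ σ - E) ^ 2 with hV
    set Q := ∑ f ∈ powersetCard 2 O, 2 * Y * h f ^ 2 with hQ
    -- the left-hand side
    have hL : ∑ f ∈ powersetCard 2 O, (1 / 2 : ℝ) * ∑ _σ ∈ D f, (smean (D f) φ - E) ^ 2 =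
        (1 / 2) * Q := by
      rw [hQ, Finset.mul_sum]
      apply Finset.sum_congr rfl
      intro f hf
      rw [Finset.sum_const, nsmul_eq_mul, hDcard f hf]
    -- the pair function
    set g : ι → ι → ℝ := fun w x => if w ≠ x then h {w, x} else 0 with hg
    have g0 : ∀ w, g w w = 0 := fun w => by simp [hg]
    have gs : ∀ w x, g w x = g x w := by
      intro w x
      simp only [hg]
      by_cases hwx : w = x
      · simp [hwx]
      · rw [if_pos hwx, if_pos (Ne.symm hwx), pair_comm]
    have hgsq : ∑ w ∈ O, ∑ x ∈ O, g w x ^ 2 = 2 * ∑ f ∈ powersetCard 2 O, h f ^ 2 := by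
      rw [← Slice_pair_sum O (fun f => h f ^ 2)]
      apply Finset.sum_congr rfl
      intro w _
      apply Finset.sum_congr rfl
      intro x _
      simp only [hg]
      split_ifs <;> simp
    have hvar := sepSum_var O a b ha hb hab g g0 gs
    rw [hgsq, ← hY] at hvar
    -- Q as a pairing
    have hpair : Q = ∑ σ ∈ powersetCard a O, (φ σ - E) * sepSum O g σ := by
      have h1 : ∀ f ∈ powersetCard 2 O, 2 * Y * h f ^ 2 = ∑ σ ∈ D f, (φ σ - E) * h f := by
        intro f hf
        rw [← Finset.sum_mul, Finset.sum_sub_distrib, Finset.sum_const, nsmul_eq_mul]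
        have hc := hDcard f hf
        have hmean : ∑ σ ∈ D f, φ σ = smean (D f) φ * ((D f).card : ℝ) := by
          unfold smean
          rw [div_mul_cancel₀]
          rw [hc]
          positivity
        rw [hmean, hc]
        simp only [hh]
        ring
      rw [hQ, Finset.sum_congr rfl h1]
      simp only [hD]
      simp_rw [Finset.sum_filter]
      rw [Finset.sum_comm]
      apply Finset.sum_congr rfl
      intro σ hσ
      rw [mem_powersetCard] at hσ
      rw [← Finset.sum_filter, Slice_sep_sum O σ hσ.1 (fun f => (φ σ - E) * h f)]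
      unfold sepSum
      rw [Finset.mul_sum]
      apply Finset.sum_congr rfl
      intro w hw
      rw [Finset.mul_sum]
      apply Finset.sum_congr rfl
      intro x hx
      rw [mem_sdiff] at hx
      have hwx : w ≠ x := by
        intro h'
        rw [← h'] at hx
        exact hx.2 hw
      simp only [hg]
      rw [if_pos hwx]
    set G := smean (powersetCard a O) (sepSum O g) with hG
    have hzero : ∑ σ ∈ powersetCard a O, (φ σ - E) = 0 := by
      rw [Finset.sum_sub_distrib, Finset.sum_const, nsmul_eq_mul, hE]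
      unfold smean
      rw [mul_div_cancel₀, sub_self]
      rw [card_powersetCard]
      have : 0 < O.card.choose a := Nat.choose_pos haN.le
      positivity
    have hNpos : (0 : ℝ) < (O.card : ℝ) := by
      have : 0 < O.card := by omega
      exact_mod_cast this
    have hcs : Q ≤ (O.card : ℝ) / 4 * V +
        (1 / (O.card : ℝ)) * ∑ σ ∈ powersetCard a O, (sepSum O g σ - G) ^ 2 := by
      have h2 : Q = ∑ σ ∈ powersetCard a O, (φ σ - E) * (sepSum O g σ - G) := by
        rw [hpair]
        simp_rw [mul_sub]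
        rw [Finset.sum_sub_distrib, ← Finset.sum_mul, hzero, zero_mul, sub_zero]
      rw [h2, hV, Finset.mul_sum, Finset.mul_sum, ← Finset.sum_add_distrib]
      apply Finset.sum_le_sum
      intro σ _
      exact Slice_amgm _ _ _ hNpos
    have hvar2 : (1 / (O.card : ℝ)) * ∑ σ ∈ powersetCard a O, (sepSum O g σ - G) ^ 2 ≤
        (1 / 2) * Q := by
      have h5 : (1 / (O.card : ℝ)) * ∑ σ ∈ powersetCard a O, (sepSum O g σ - G) ^ 2 ≤
          (1 / (O.card : ℝ)) * (((O.card : ℝ) / 2) * Y *
            (2 * ∑ f ∈ powersetCard 2 O, h f ^ 2)) :=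
        mul_le_mul_of_nonneg_left hvar (by positivity)
      have h6 : (1 / (O.card : ℝ)) * (((O.card : ℝ) / 2) * Y *
            (2 * ∑ f ∈ powersetCard 2 O, h f ^ 2)) = (1 / 2) * Q := by
        rw [hQ, ← Finset.mul_sum]
        exact Slice_cancel _ _ _ hNpos
      linarith
    have hQV : Q ≤ (O.card : ℝ) / 2 * V := by linarith
    have hjs := johnson_sharp O a φ
    have hje := johnson_edges O a φ
    rw [← hje] at hjs
    change ∑ f ∈ powersetCard 2 O, (1 / 2 : ℝ) * ∑ _σ ∈ D f, (smean (D f) φ - E) ^ 2 ≤ _
    rw [hL, ← Finset.mul_sum]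
    have : (O.card : ℝ) * V ≤ (1 / 2) * ∑ f ∈ powersetCard 2 O,
        ∑ σ ∈ (powersetCard a O).filter (fun σ => (σ ∩ f).card = 1),
        (φ σ - φ (symmDiff σ f)) ^ 2 := hjs
    linarith

end

end VP335
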