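import Vale.Agent.P335.G.SliceGA
import Vale.Agent.P335.G.Slice

/-! P335, general graphs: the slice inequality on the classes of one pair -/

namespace VP335

open Finset

noncomputable section

open Classical

variable {n : ℕ} {d : Fin n → ℕ}

/-- `slice_ineq` for an arbitrary decidability instance -/
theorem SliceGB_inst {ι : Type*} [Fintype ι] [inst : DecidableEq ι] (O : Finset ι) (a : ℕ)
    (φ : Finset ι → ℝ) :
    ∑ f ∈ powersetCard 2 O, (1 / 2 : ℝ) *
        ∑ _σ ∈ (powersetCard a O).filter (fun σ => (σ ∩ f).card = 1),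
          (smean ((powersetCard a O).filter (fun τ => (τ ∩ f).card = 1)) φ -
            smean (powersetCard a O) φ) ^ 2 ≤
      ∑ f ∈ powersetCard 2 O, (1 / 8 : ℝ) *
        ∑ σ ∈ (powersetCard a O).filter (fun σ => (σ ∩ f).card = 1),
          (φ σ - φ (symmDiff σ f)) ^ 2 := by
  have h := slice_ineq O a φ
  have e : inst = fun a b => Classical.propDecidable (a = b) := Subsingleton.elim _ _
  subst e
  exact h

/-- `slice_ineq` on `Fin n` with the standard decidability instances -/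
theorem SliceGB_ineq (O : Finset (Fin n)) (a : ℕ) (φ : Finset (Fin n) → ℝ) :
    ∑ f ∈ powersetCard 2 O, (1 / 2 : ℝ) *
        ∑ _σ ∈ (powersetCard a O).filter (fun σ => (σ ∩ f).card = 1),
          (smean ((powersetCard a O).filter (fun τ => (τ ∩ f).card = 1)) φ -
            smean (powersetCard a O) φ) ^ 2 ≤
      ∑ f ∈ powersetCard 2 O, (1 / 8 : ℝ) *
        ∑ σ ∈ (powersetCard a O).filter (fun σ => (σ ∩ f).card = 1),
          (φ σ - φ (symmDiff σ f)) ^ 2 := by
  exact SliceGB_inst O a φ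

theorem SliceGB_sub {u v : Fin n} (X : Rlz n d) :
    gS u v X ⊆ univ \ ({u, v} : Finset (Fin n)) := by
  intro c hc
  simp only [gS, mem_filter, mem_univ, true_and] at hc
  simp only [mem_sdiff, mem_univ, true_and, mem_insert, mem_singleton, not_or]
  exact ⟨hc.1, hc.2.1⟩

/-- sums over a class in slice coordinates -/
theorem SliceGB_sum {u v : Fin n} (X0 : Rlz n d) (mk : Finset (Fin n) → Rlz n d)
    (h1 : ∀ σ ∈ powersetCard (gU u v X0).card (gS u v X0),
        gkey ({u, v} : Finset (Fin n)) (mk σ) = gkey {u, v} X0 ∧ gU u v (mk σ) = σ)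
    (h2 : ∀ Y : Rlz n d, gkey ({u, v} : Finset (Fin n)) Y = gkey {u, v} X0 →
        gU u v Y ∈ powersetCard (gU u v X0).card (gS u v X0) ∧ mk (gU u v Y) = Y)
    (g : Rlz n d → ℝ) :
    ∑ Y ∈ fib (gkey ({u, v} : Finset (Fin n))) X0, g Y =
      ∑ σ ∈ powersetCard (gU u v X0).card (gS u v X0), g (mk σ) := by
  symm
  refine sum_bij' (fun σ _ => mk σ) (fun Y _ => gU u v Y) ?_ ?_ ?_ ?_ ?_
  · intro σ hσ
    exact mem_fib.mpr (h1 σ hσ).1
  · intro Y hY
    exact (h2 Y (mem_fib.mp hY)).1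
  · intro σ hσ
    exact (h1 σ hσ).2
  · intro Y hY
    exact (h2 Y (mem_fib.mp hY)).2
  · intro σ _
    rfl

/-- the slice inequality on the graph classes of the pair `{u, v}` -/
theorem slice_graph {u v : Fin n} (huv : u ≠ v) (F : Rlz n d → ℝ) :
    ∑ f ∈ powersetCard 2 (univ \ ({u, v} : Finset (Fin n))),
        ∑ X, (if Dg {u, v} f X then (gD {u, v} f F X - gE {u, v} F X) ^ 2 else 0) ≤
      ∑ f ∈ powersetCard 2 (univ \ ({u, v} : Finset (Fin n))),
        ∑ X, ((F X - F (gflip {u, v} f X)) / 2) ^ 2 := by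
  rw [sum_comm, sum_comm (s := powersetCard 2 (univ \ ({u, v} : Finset (Fin n))))
    (f := fun f X => ((F X - F (gflip {u, v} f X)) / 2) ^ 2)]
  refine sum_le_of_fib (gkey ({u, v} : Finset (Fin n))) _ _ (fun X0 => ?_)
  obtain ⟨mk, h1, h2⟩ := pair_param huv X0
  set a := (gU u v X0).card with ha
  set S := gS u v X0 with hS
  set φ : Finset (Fin n) → ℝ := fun σ => F (mk σ) with hφ
  have hsum := SliceGB_sum X0 mk h1 h2
  rw [hsum, hsum]
  rw [sum_comm, sum_comm (s := powersetCard a S)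
    (f := fun σ f => ((F (mk σ) - F (gflip {u, v} f (mk σ))) / 2) ^ 2)]
  have hsub : powersetCard 2 S ⊆ powersetCard 2 (univ \ ({u, v} : Finset (Fin n))) :=
    powersetCard_mono (SliceGB_sub X0)
  -- facts
  have hcard : ((fib (gkey ({u, v} : Finset (Fin n))) X0).card : ℝ) =
      ((powersetCard a S).card : ℝ) := by
    have h := hsum (fun _ => (1 : ℝ))
    simpa using h
  have hE : ∀ σ ∈ powersetCard a S, gE {u, v} F (mk σ) = smean (powersetCard a S) φ := by
    intro σ hσ
    unfold gE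
    rw [avg_const F (h1 σ hσ).1]
    unfold avg smean
    rw [hsum F, hcard]
  have hdis : ∀ f ∈ powersetCard 2 (univ \ ({u, v} : Finset (Fin n))),
      f.card = 2 ∧ Disjoint ({u, v} : Finset (Fin n)) f := by
    intro f hf
    rw [mem_powersetCard] at hf
    refine ⟨hf.2, ?_⟩
    rw [disjoint_left]
    intro c hc hcf
    exact (mem_sdiff.mp (hf.1 hcf)).2 hc
  have hDg : ∀ f ∈ powersetCard 2 (univ \ ({u, v} : Finset (Fin n))),
      ∀ σ ∈ powersetCard a S, (Dg {u, v} f (mk σ) ↔ f ⊆ S ∧ (σ ∩ f).card = 1) := by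
    intro f hf σ hσ
    obtain ⟨hf2, hfd⟩ := hdis f hf
    rw [Dg_iff_slice huv hf2 hfd, gS_congr huv (h1 σ hσ).1, (h1 σ hσ).2]
  have hD : ∀ f ∈ powersetCard 2 S, ∀ σ ∈ (powersetCard a S).filter (fun σ => (σ ∩ f).card = 1),
      gD {u, v} f F (mk σ) =
        smean ((powersetCard a S).filter (fun τ => (τ ∩ f).card = 1)) φ := by
    intro f hf σ hσ
    have hfS := (mem_powersetCard.mp hf).1
    have hσ' := mem_filter.mp hσ
    have hDσ : Dg {u, v} f (mk σ) := (hDg f (hsub hf) σ hσ'.1).mpr ⟨hfS, hσ'.2⟩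
    have hfib : ∀ g : Rlz n d → ℝ,
        ∑ Y ∈ fib (fun Y => (gkey ({u, v} : Finset (Fin n)) Y, Dg {u, v} f Y)) (mk σ), g Y =
          ∑ τ ∈ (powersetCard a S).filter (fun τ => (τ ∩ f).card = 1), g (mk τ) := by
      intro g
      have e1 : fib (fun Y => (gkey ({u, v} : Finset (Fin n)) Y, Dg {u, v} f Y)) (mk σ) =
          (fib (gkey ({u, v} : Finset (Fin n))) X0).filter (fun Y => Dg {u, v} f Y) := by
        ext Y
        rw [mem_fib, mem_filter, mem_fib]
        simp only [Prod.mk.injEq]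
        rw [(h1 σ hσ'.1).1]
        constructor
        · rintro ⟨hk, hd⟩
          exact ⟨hk, by rw [hd]; exact hDσ⟩
        · rintro ⟨hk, hd⟩
          exact ⟨hk, propext ⟨fun _ => hDσ, fun _ => hd⟩⟩
      rw [e1, sum_filter, hsum, sum_filter]
      refine sum_congr rfl (fun τ hτ => ?_)
      have h3 := hDg f (hsub hf) τ hτ
      by_cases h4 : (τ ∩ f).card = 1
      · rw [if_pos h4, if_pos (h3.mpr ⟨hfS, h4⟩)]
      · rw [if_neg h4, if_neg (fun h => h4 (h3.mp h).2)]
    have hc : ((fib (fun Y => (gkey ({u, v} : Finset (Fin n)) Y, Dg {u, v} f Y)) (mk σ)).card : ℝ)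
        = (((powersetCard a S).filter (fun τ => (τ ∩ f).card = 1)).card : ℝ) := by
      have h := hfib (fun _ => (1 : ℝ))
      simpa using h
    unfold gD avg smean
    rw [hfib F, hc]
  have hflip : ∀ f ∈ powersetCard 2 S,
      ∀ σ ∈ (powersetCard a S).filter (fun σ => (σ ∩ f).card = 1),
      F (gflip {u, v} f (mk σ)) = φ (symmDiff σ f) := by
    intro f hf σ hσ
    have hfS := (mem_powersetCard.mp hf).1
    have hσ' := mem_filter.mp hσ
    obtain ⟨hf2, hfd⟩ := hdis f (hsub hf)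
    have hDσ : Dg {u, v} f (mk σ) := (hDg f (hsub hf) σ hσ'.1).mpr ⟨hfS, hσ'.2⟩
    have he2 : ({u, v} : Finset (Fin n)).card = 2 := card_pair huv
    have h3 : gkey ({u, v} : Finset (Fin n)) (gflip {u, v} f (mk σ)) = gkey {u, v} X0 :=
      (gflip_gkey hfd he2 hf2 (mk σ)).trans (h1 σ hσ'.1).1
    have h4 := (h2 _ h3).2
    rw [gflip_slice huv hf2 hfd hDσ, (h1 σ hσ'.1).2] at h4
    rw [hφ]
    show F _ = F (mk (symmDiff σ f))
    rw [h4]
  -- left side
  have hL : ∑ f ∈ powersetCard 2 (univ \ ({u, v} : Finset (Fin n))), ∑ σ ∈ powersetCard a S,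
      (if Dg {u, v} f (mk σ) then (gD {u, v} f F (mk σ) - gE {u, v} F (mk σ)) ^ 2 else 0) =
      2 * ∑ f ∈ powersetCard 2 S, (1 / 2 : ℝ) *
        ∑ _σ ∈ (powersetCard a S).filter (fun σ => (σ ∩ f).card = 1),
          (smean ((powersetCard a S).filter (fun τ => (τ ∩ f).card = 1)) φ -
            smean (powersetCard a S) φ) ^ 2 := by
    rw [← sum_subset hsub]
    · rw [mul_sum]
      refine sum_congr rfl (fun f hf => ?_)
      rw [← mul_assoc]
      norm_num
      rw [← nsmul_eq_mul, ← sum_const, sum_filter]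
      refine sum_congr rfl (fun σ hσ => ?_)
      have h3 := hDg f (hsub hf) σ hσ
      have hfS := (mem_powersetCard.mp hf).1
      by_cases h4 : (σ ∩ f).card = 1
      · rw [if_pos h4, if_pos (h3.mpr ⟨hfS, h4⟩), hE σ hσ, hD f hf σ (mem_filter.mpr ⟨hσ, h4⟩)]
      · rw [if_neg h4, if_neg (fun h => h4 (h3.mp h).2)]
    · intro f hf hfn
      refine sum_eq_zero (fun σ hσ => ?_)
      rw [if_neg]
      intro h
      apply hfn
      rw [mem_powersetCard]
      exact ⟨((hDg f hf σ hσ).mp h).1, (hdis f hf).1⟩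
  -- right side
  have hR : 2 * ∑ f ∈ powersetCard 2 S, (1 / 8 : ℝ) *
        ∑ σ ∈ (powersetCard a S).filter (fun σ => (σ ∩ f).card = 1),
          (φ σ - φ (symmDiff σ f)) ^ 2 ≤
      ∑ f ∈ powersetCard 2 (univ \ ({u, v} : Finset (Fin n))), ∑ σ ∈ powersetCard a S,
        ((F (mk σ) - F (gflip {u, v} f (mk σ))) / 2) ^ 2 := by
    rw [mul_sum]
    refine le_trans ?_ (sum_le_sum_of_subset_of_nonneg hsub
      (fun f _ _ => sum_nonneg (fun σ _ => sq_nonneg _)))
    refine sum_le_sum (fun f hf => ?_)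
    refine le_trans ?_ (sum_le_sum_of_subset_of_nonneg
      (filter_subset (fun σ => (σ ∩ f).card = 1) (powersetCard a S))
      (fun σ _ _ => sq_nonneg _))
    rw [mul_sum, mul_sum]
    refine le_of_eq (sum_congr rfl (fun σ hσ => ?_))
    rw [hflip f hf σ hσ]
    show 2 * (1 / 8 * (F (mk σ) - _) ^ 2) = _
    ring
  calc _ = _ := hL
    _ ≤ _ := mul_le_mul_of_nonneg_left (SliceGB_ineq S a φ) (by norm_num)
    _ ≤ _ := hR

end

end VP335
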