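import Vale.Agent.P335.G.DisjG
import Vale.Agent.P335.G.SliceGB

/-! P335, general graphs: the sum over the disjoint pairs is nonnegative -/

namespace VP335

open Finset

noncomputable section

open Classical

variable {n : ℕ} {d : Fin n → ℕ}

/-- the antisymmetric part -/
private def DisSum_P (F : Rlz n d → ℝ) (e f : Finset (Fin n)) : ℝ :=
  ∑ X, ((F X - F (gflip e f X)) / 2) ^ 2

/-- the loss term -/
private def DisSum_N (F : Rlz n d → ℝ) (e f : Finset (Fin n)) : ℝ :=
  ∑ X, (if Dg e f X then (gD e f F X - gE e F X) ^ 2 else 0)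

/-- exchanging the two pairs in a double sum -/
private theorem DisSum_swap (g : Finset (Fin n) → Finset (Fin n) → ℝ) :
    ∑ e ∈ powersetCard 2 (univ : Finset (Fin n)),
        ∑ f ∈ powersetCard 2 (univ \ e : Finset (Fin n)), g f e =
      ∑ e ∈ powersetCard 2 (univ : Finset (Fin n)),
        ∑ f ∈ powersetCard 2 (univ \ e : Finset (Fin n)), g e f := by
  refine sum_comm' ?_
  intro a b
  simp only [mem_powersetCard, subset_univ, true_and, subset_sdiff]
  constructor
  · rintro ⟨ha, hb, hc⟩
    exact ⟨⟨hb.symm, ha⟩, hc⟩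
  · rintro ⟨⟨hb, ha⟩, hc⟩
    exact ⟨ha, hb.symm, hc⟩

theorem dis_sum_nonneg (F : Rlz n d → ℝ) :
    0 ≤ ∑ e ∈ powersetCard 2 (univ : Finset (Fin n)),
      ∑ f ∈ powersetCard 2 (univ \ e : Finset (Fin n)),
        ip (fun X => F X - gE e F X) (fun X => F X - gE f F X) := by
  have h1 : ∑ e ∈ powersetCard 2 (univ : Finset (Fin n)),
      ∑ f ∈ powersetCard 2 (univ \ e : Finset (Fin n)),
        (DisSum_P F e f - (1 / 2) * DisSum_N F e f - (1 / 2) * DisSum_N F f e) ≤
      ∑ e ∈ powersetCard 2 (univ : Finset (Fin n)),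
      ∑ f ∈ powersetCard 2 (univ \ e : Finset (Fin n)),
        ip (fun X => F X - gE e F X) (fun X => F X - gE f F X) := by
    refine sum_le_sum (fun e he => sum_le_sum (fun f hf => ?_))
    rw [mem_powersetCard] at he hf
    have hd : Disjoint e f := (subset_sdiff.mp hf.1).2.symm
    exact disj_graph hd he.2 hf.2 F
  refine le_trans ?_ h1
  have h2 : ∑ e ∈ powersetCard 2 (univ : Finset (Fin n)),
      ∑ f ∈ powersetCard 2 (univ \ e : Finset (Fin n)),
        (DisSum_P F e f - (1 / 2) * DisSum_N F e f - (1 / 2) * DisSum_N F f e) =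
      ∑ e ∈ powersetCard 2 (univ : Finset (Fin n)),
        (∑ f ∈ powersetCard 2 (univ \ e : Finset (Fin n)), DisSum_P F e f -
          ∑ f ∈ powersetCard 2 (univ \ e : Finset (Fin n)), DisSum_N F e f) := by
    have h3 := DisSum_swap (fun e f => DisSum_N F e f)
    simp only [sum_sub_distrib, ← mul_sum]
    rw [h3]
    ring
  rw [h2]
  refine sum_nonneg (fun e he => ?_)
  obtain ⟨u, v, huv, rfl⟩ := card_eq_two.mp (mem_powersetCard.mp he).2
  have h4 := slice_graph huv F
  rw [sub_nonneg]
  exact h4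

end

end VP335
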