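import Vale.Agent.P335.Avg

/-! P335, general graphs: two averages commute if the classes can be mixed -/

namespace VP335

open Finset

noncomputable section

open Classical

/-- an element with the `k2` of `y` and the `k1` of `z` -/
def comm_M {Ω β γ : Type*} (k1 : Ω → β) (k2 : Ω → γ) (y z : Ω) : Ω :=
  if h : ∃ m, k2 m = k2 y ∧ k1 m = k1 z then h.choose else y

theorem comm_M_spec {Ω β γ : Type*} {k1 : Ω → β} {k2 : Ω → γ}
    (hmix : ∀ x y z, k1 y = k1 x → k2 z = k2 x → ∃ m, k2 m = k2 y ∧ k1 m = k1 z)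
    {x y z : Ω} (hy : k1 y = k1 x) (hz : k2 z = k2 x) :
    k2 (comm_M k1 k2 y z) = k2 y ∧ k1 (comm_M k1 k2 y z) = k1 z := by
  have h := hmix x y z hy hz
  have e : comm_M k1 k2 y z = h.choose := dif_pos h
  rw [e]
  exact h.choose_spec

theorem comm_inner {Ω β γ : Type*} [Fintype Ω] (k1 : Ω → β) (k2 : Ω → γ)
    (hinj : ∀ x y, k1 x = k1 y → k2 x = k2 y → x = y)
    (hmix : ∀ x y z, k1 y = k1 x → k2 z = k2 x → ∃ m, k2 m = k2 y ∧ k1 m = k1 z)
    (F : Ω → ℝ) (x y : Ω) (hy : k1 y = k1 x) :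
    avg k2 F y = (∑ z ∈ fib k2 x, F (comm_M k1 k2 y z)) / ((fib k2 x).card : ℝ) := by
  have hfw : ∀ z ∈ fib k2 x, comm_M k1 k2 y z ∈ fib k2 y := by
    intro z hz
    rw [mem_fib] at hz ⊢
    exact (comm_M_spec hmix hy hz).1
  have hbw : ∀ w ∈ fib k2 y, comm_M k1 k2 x w ∈ fib k2 x := by
    intro w hw
    rw [mem_fib] at hw ⊢
    exact (comm_M_spec hmix (x := y) hy.symm hw).1
  have hl : ∀ z ∈ fib k2 x, comm_M k1 k2 x (comm_M k1 k2 y z) = z := by
    intro z hz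
    have hw := hfw z hz
    rw [mem_fib] at hz hw
    have s1 := comm_M_spec hmix hy hz
    have s2 := comm_M_spec hmix (x := y) hy.symm hw
    exact hinj _ _ (s2.2.trans s1.2) (s2.1.trans hz.symm)
  have hr : ∀ w ∈ fib k2 y, comm_M k1 k2 y (comm_M k1 k2 x w) = w := by
    intro w hw
    have hz := hbw w hw
    rw [mem_fib] at hw hz
    have s1 := comm_M_spec hmix (x := y) hy.symm hw
    have s2 := comm_M_spec hmix hy hz
    exact hinj _ _ (s2.2.trans s1.2) (s2.1.trans hw.symm)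
  have hsum : ∑ w ∈ fib k2 y, F w = ∑ z ∈ fib k2 x, F (comm_M k1 k2 y z) := by
    symm
    exact Finset.sum_bij' (fun z _ => comm_M k1 k2 y z) (fun w _ => comm_M k1 k2 x w) hfw hbw hl hr
      (fun _ _ => rfl)
  have hcard : (fib k2 y).card = (fib k2 x).card := by
    symm
    exact Finset.card_bij' (fun z _ => comm_M k1 k2 y z) (fun w _ => comm_M k1 k2 x w) hfw hbw hl hr
  unfold avg
  rw [hsum, hcard]

theorem comm_EE {Ω β γ : Type*} [Fintype Ω] (k1 : Ω → β) (k2 : Ω → γ)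
    (hinj : ∀ x y, k1 x = k1 y → k2 x = k2 y → x = y)
    (hmix : ∀ x y z, k1 y = k1 x → k2 z = k2 x → ∃ m, k2 m = k2 y ∧ k1 m = k1 z)
    (F : Ω → ℝ) (x : Ω) :
    avg k1 (avg k2 F) x = (∑ y ∈ fib k1 x, ∑ z ∈ fib k2 x, F (comm_M k1 k2 y z)) /
      (((fib k2 x).card : ℝ) * ((fib k1 x).card : ℝ)) := by
  show (∑ y ∈ fib k1 x, avg k2 F y) / ((fib k1 x).card : ℝ) = _
  rw [Finset.sum_congr rfl (fun y hy => comm_inner k1 k2 hinj hmix F x y (mem_fib.1 hy)),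
    ← Finset.sum_div, div_div]

theorem avg_comm_of_mix {Ω β γ : Type*} [Fintype Ω] (k1 : Ω → β) (k2 : Ω → γ)
    (hinj : ∀ x y, k1 x = k1 y → k2 x = k2 y → x = y)
    (hmix : ∀ x y z, k1 y = k1 x → k2 z = k2 x → ∃ m, k2 m = k2 y ∧ k1 m = k1 z)
    (F : Ω → ℝ) : avg k1 (avg k2 F) = avg k2 (avg k1 F) := by
  have hmix' : ∀ x y z, k2 y = k2 x → k1 z = k1 x → ∃ m, k1 m = k1 y ∧ k2 m = k2 z := by
    intro x y z hy hz
    obtain ⟨m, h1, h2⟩ := hmix x z y hz hy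
    exact ⟨m, h2, h1⟩
  funext x
  rw [comm_EE k1 k2 hinj hmix, comm_EE k2 k1 (fun x y h1 h2 => hinj x y h2 h1) hmix',
    Finset.sum_comm, mul_comm]
  congr 1
  refine Finset.sum_congr rfl fun z hz => Finset.sum_congr rfl fun y hy => ?_
  rw [mem_fib] at hz hy
  have s1 := comm_M_spec hmix hy hz
  have s2 := comm_M_spec hmix' hz hy
  congr 1
  exact hinj _ _ (s1.2.trans s2.1.symm) (s1.1.trans s2.2.symm)

end

end VP335
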