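import Vale.Agent.P335.G.Base

/-! P335, general graphs: switches and Havel and Hakimi steps -/

namespace VP335

open Finset

noncomputable section

open Classical

variable {n : ℕ} {d : Fin n → ℕ}

/-- the filter does not depend on the decidability instance -/
theorem gcard_filter_inst {α : Type*} (s : Finset α) (P : α → Prop) (i1 i2 : DecidablePred P) :
    (@filter α P i1 s).card = (@filter α P i2 s).card := by
  have h : i1 = i2 := Subsingleton.elim _ _
  rw [h]

theorem connA_swap {N M : Finset (Fin n)} {a b : Fin n} (ha : a ∈ N) (hb : b ∉ N)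
    (h : ∀ y, y ∈ M ↔ (y = b ∨ (y ≠ a ∧ y ∈ N))) : M.card = N.card := by
  have e : M = insert b (N.erase a) := by
    ext y
    rw [h y, mem_insert, mem_erase]
  rw [e, card_insert_of_notMem (fun hh => hb (mem_of_mem_erase hh)), card_erase_of_mem ha]
  have : 0 < N.card := card_pos.mpr ⟨a, ha⟩
  omega

/-- a switch replacing the edges `v q, p r` by `v p, q r` -/
theorem gswitch (X : Rlz n d) (v p q r : Fin n) (hvp : v ≠ p) (hvq : v ≠ q) (hvr : v ≠ r)
    (hpq : p ≠ q) (hpr : p ≠ r) (hqr : q ≠ r) (h1 : X.1.Adj v q) (h2 : ¬ X.1.Adj v p)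
    (h3 : X.1.Adj p r) (h4 : ¬ X.1.Adj q r) :
    ∃ Y : Rlz n d, (∀ x y, Y.1.Adj x y ↔
      (if s(x, y) = s(v, q) ∨ s(x, y) = s(p, r) then False else
        if s(x, y) = s(v, p) ∨ s(x, y) = s(q, r) then True else X.1.Adj x y)) := by
  set P : Fin n → Fin n → Prop := fun x y =>
    (if s(x, y) = s(v, q) ∨ s(x, y) = s(p, r) then False else
        if s(x, y) = s(v, p) ∨ s(x, y) = s(q, r) then True else X.1.Adj x y) with hP
  have hsym : ∀ x y, P x y → P y x := by
    intro x y h
    simp only [hP] at h ⊢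
    rw [Sym2.eq_swap (a := y) (b := x), X.1.adj_comm y x]
    exact h
  have hirr : ∀ x, ¬ P x x := by
    intro x h
    simp only [hP] at h
    have e1 : ¬ (s(x, x) = s(v, p)) := by
      rw [Sym2.eq_iff]
      rintro (⟨a, b⟩ | ⟨a, b⟩)
      · exact hvp (a.symm.trans b)
      · exact hvp (b.symm.trans a)
    have e2 : ¬ (s(x, x) = s(q, r)) := by
      rw [Sym2.eq_iff]
      rintro (⟨a, b⟩ | ⟨a, b⟩)
      · exact hqr (a.symm.trans b)
      · exact hqr (b.symm.trans a)
    split_ifs at h with g1 g2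
    · exact g2.elim e1 e2
    · exact X.1.irrefl h
  let G : SimpleGraph (Fin n) := ⟨P, ⟨fun x y h => hsym x y h⟩, ⟨fun x => hirr x⟩⟩
  have hG : ∀ x y, G.Adj x y ↔ P x y := fun x y => Iff.rfl
  have hv : ∀ y, P v y ↔ (y = p ∨ (y ≠ q ∧ X.1.Adj v y)) := by
    intro y
    simp only [hP, Sym2.eq_iff]
    by_cases g1 : y = q
    · subst g1; simp [hpq.symm]
    · by_cases g2 : y = p
      · subst g2; simp [g1, hvp, hvq, hvr, hpr]
      · simp [g1, g2, hvp, hvq, hvr]
  have hq : ∀ y, P q y ↔ (y = r ∨ (y ≠ v ∧ X.1.Adj q y)) := by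
    intro y
    simp only [hP, Sym2.eq_iff]
    by_cases g1 : y = v
    · subst g1; simp [hvr, hvq.symm, hpq.symm, hqr]
    · by_cases g2 : y = r
      · subst g2; simp [g1, hvq.symm, hpq.symm, hqr]
      · simp [g1, g2, hvq.symm, hpq.symm, hqr]
  have hp : ∀ y, P p y ↔ (y = v ∨ (y ≠ r ∧ X.1.Adj p y)) := by
    intro y
    simp only [hP, Sym2.eq_iff]
    by_cases g1 : y = r
    · subst g1; simp [hvr.symm, hvp.symm, hpq, hpr]
    · by_cases g2 : y = v
      · subst g2; simp [g1, hvp.symm, hpq, hpr]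
      · simp [g1, g2, hvp.symm, hpq, hpr]
  have hr : ∀ y, P r y ↔ (y = q ∨ (y ≠ p ∧ X.1.Adj r y)) := by
    intro y
    simp only [hP, Sym2.eq_iff]
    by_cases g1 : y = p
    · subst g1; simp [hpq, hvr.symm, hpr.symm, hqr.symm]
    · by_cases g2 : y = q
      · subst g2; simp [g1, hvr.symm, hpr.symm, hqr.symm]
      · simp [g1, g2, hvr.symm, hpr.symm, hqr.symm]
  have ho : ∀ z, z ≠ v → z ≠ p → z ≠ q → z ≠ r → ∀ y, P z y ↔ X.1.Adj z y := by
    intro z z1 z2 z3 z4 y
    simp only [hP, Sym2.eq_iff]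
    simp [z1, z2, z3, z4]
  have hdeg : ∀ z, (univ.filter (fun y => G.Adj z y)).card = d z := by
    intro z
    rw [← X.2 z]
    by_cases z1 : z = v
    · subst z1
      refine connA_swap (a := q) (b := p) (by simpa using h1) (by simpa using h2) (fun y => ?_)
      simp only [mem_filter, mem_univ, true_and]
      exact hv y
    by_cases z2 : z = p
    · subst z2
      refine connA_swap (a := r) (b := v) (by simpa using h3)
        (by simpa [X.1.adj_comm] using h2) (fun y => ?_)
      simp only [mem_filter, mem_univ, true_and]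
      exact hp y
    by_cases z3 : z = q
    · subst z3
      refine connA_swap (a := v) (b := r) (by simpa using h1.symm) (by simpa using h4)
        (fun y => ?_)
      simp only [mem_filter, mem_univ, true_and]
      exact hq y
    by_cases z4 : z = r
    · subst z4
      refine connA_swap (a := p) (b := q) (by simpa using h3.symm)
        (by simpa [X.1.adj_comm] using h4) (fun y => ?_)
      simp only [mem_filter, mem_univ, true_and]
      exact hr y
    congr 1
    ext y
    simp only [mem_filter, mem_univ, true_and]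
    exact ho z z1 z2 z3 z4 y
  exact ⟨⟨G, fun z => (gcard_filter_inst _ _ _ _).trans (hdeg z)⟩, fun x y => hG x y⟩

/-- one Havel and Hakimi step: all vertices in `A` are untouched, `v` loses `q` and gains `p` -/
theorem gstep (X : Rlz n d) (A : Finset (Fin n)) (v p q : Fin n) (hv : v ∉ A) (hp : p ∉ A)
    (hq : q ∉ A) (hvp : v ≠ p) (h1 : X.1.Adj v q) (h2 : ¬ X.1.Adj v p)
    (hd : (univ.filter (fun x => x ∉ A ∧ X.1.Adj q x)).card ≤
      (univ.filter (fun x => x ∉ A ∧ X.1.Adj p x)).card) :
    ∃ Y : Rlz n d, gkey ({p, q} : Finset (Fin n)) Y = gkey {p, q} X ∧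
      (∀ x ∈ A, ∀ y, (Y.1.Adj x y ↔ X.1.Adj x y)) ∧
      (∀ y, Y.1.Adj v y ↔ (y = p ∨ (y ≠ q ∧ X.1.Adj v y))) := by
  have hpq : p ≠ q := by
    rintro rfl
    exact h2 h1
  have hvq : v ≠ q := h1.ne
  set Q := univ.filter (fun x => x ∉ A ∧ X.1.Adj q x) with hQ
  set P := univ.filter (fun x => x ∉ A ∧ X.1.Adj p x) with hPd
  have vQ : v ∈ Q := by simp [hQ, hv, h1.symm]
  have vP : v ∉ P := by
    intro h
    simp only [hPd, mem_filter, mem_univ, true_and] at h
    exact h2 h.2.symm
  have hcard : (Q.erase p).card ≤ (P.erase q).card := by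
    by_cases hpq' : X.1.Adj p q
    · have m1 : q ∈ P := by simp [hPd, hq, hpq']
      have m2 : p ∈ Q := by simp [hQ, hp, hpq'.symm]
      rw [card_erase_of_mem m1, card_erase_of_mem m2]
      omega
    · have m1 : q ∉ P := by simp [hPd, hpq']
      have m2 : p ∉ Q := by
        intro h
        simp only [hQ, mem_filter, mem_univ, true_and] at h
        exact hpq' h.2.symm
      rw [erase_eq_of_notMem m1, erase_eq_of_notMem m2]
      exact hd
  have hex : ∃ r ∈ P.erase q, r ∉ Q.erase p := by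
    by_contra hcon
    push Not at hcon
    have hsub : P.erase q ⊆ (Q.erase p).erase v := by
      intro x hx
      refine mem_erase.mpr ⟨?_, hcon x hx⟩
      rintro rfl
      exact vP (mem_of_mem_erase hx)
    have hle := card_le_card hsub
    have hv' : v ∈ Q.erase p := mem_erase.mpr ⟨hvp, vQ⟩
    rw [card_erase_of_mem hv'] at hle
    have : 0 < (Q.erase p).card := card_pos.mpr ⟨v, hv'⟩
    omega
  obtain ⟨r, hr1, hr2⟩ := hex
  have hrq : r ≠ q := (mem_erase.mp hr1).1
  have hrP := (mem_erase.mp hr1).2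
  simp only [hPd, mem_filter, mem_univ, true_and] at hrP
  obtain ⟨hrA, hpr⟩ := hrP
  have hrp : r ≠ p := by
    rintro rfl
    exact X.1.irrefl hpr
  have hqr : ¬ X.1.Adj q r := by
    intro h
    apply hr2
    refine mem_erase.mpr ⟨hrp, ?_⟩
    simp [hQ, hrA, h]
  have hvr : v ≠ r := by
    rintro rfl
    exact h2 hpr.symm
  obtain ⟨Y, hY⟩ := gswitch X v p q r hvp hvq hvr hpq hrp.symm hrq.symm h1 h2 hpr hqr
  refine ⟨Y, ?_, ?_, ?_⟩
  · rw [gkey_eq_iff]
    intro x y hx hy
    simp only [mem_insert, mem_singleton, not_or] at hx hy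
    rw [hY x y]
    simp only [Sym2.eq_iff]
    simp [hx.1, hx.2, hy.1, hy.2]
  · intro x hx y
    rw [hY x y]
    have x1 : x ≠ v := by rintro rfl; exact hv hx
    have x2 : x ≠ p := by rintro rfl; exact hp hx
    have x3 : x ≠ q := by rintro rfl; exact hq hx
    have x4 : x ≠ r := by rintro rfl; exact hrA hx
    simp only [Sym2.eq_iff]
    simp [x1, x2, x3, x4]
  · intro y
    rw [hY v y]
    simp only [Sym2.eq_iff]
    by_cases g1 : y = q
    · subst g1; simp [hpq.symm]
    · by_cases g2 : y = p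
      · subst g2; simp [g1, hvp, hvq, hvr, hrp.symm]
      · simp [g1, g2, hvp, hvq, hvr]

end

end VP335
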