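import Vale.Agent.P335.G.ConnA

/-! P335, general graphs: connectivity -/

namespace VP335

open Finset

noncomputable section

open Classical

variable {n : ℕ} {d : Fin n → ℕ}

/-- residual degrees agree -/
theorem ConnB_res (A : Finset (Fin n)) (X Y : Rlz n d)
    (hA : ∀ x ∈ A, ∀ y, (X.1.Adj x y ↔ Y.1.Adj x y)) (z : Fin n) :
    (univ.filter (fun x => x ∉ A ∧ X.1.Adj z x)).card =
      (univ.filter (fun x => x ∉ A ∧ Y.1.Adj z x)).card := by
  have hs : ∀ Z : Rlz n d, (univ.filter (fun x => Z.1.Adj z x)).card =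
      (univ.filter (fun x => x ∈ A ∧ Z.1.Adj z x)).card +
        (univ.filter (fun x => x ∉ A ∧ Z.1.Adj z x)).card := by
    intro Z
    rw [← card_union_of_disjoint]
    · congr 1
      ext x
      simp only [mem_filter, mem_univ, true_and, mem_union]
      tauto
    · rw [disjoint_left]
      intro x hx hx'
      simp only [mem_filter, mem_univ, true_and] at hx hx'
      exact hx'.1 hx.1
  have e : (univ.filter (fun x => x ∈ A ∧ X.1.Adj z x)) =
      (univ.filter (fun x => x ∈ A ∧ Y.1.Adj z x)) := by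
    ext x
    simp only [mem_filter, mem_univ, true_and]
    constructor
    · rintro ⟨h1, h2⟩
      exact ⟨h1, ((hA x h1 z).1 h2.symm).symm⟩
    · rintro ⟨h1, h2⟩
      exact ⟨h1, ((hA x h1 z).2 h2.symm).symm⟩
  have hX := X.2 z
  have hY := Y.2 z
  rw [hs X] at hX
  rw [hs Y] at hY
  rw [e] at hX
  omega

theorem ConnB_inner (F : Rlz n d → ℝ)
    (h : ∀ p q : Fin n, p ≠ q → ∀ X Y : Rlz n d,
      gkey ({p, q} : Finset (Fin n)) X = gkey {p, q} Y → F X = F Y)
    (A : Finset (Fin n)) (v : Fin n) (hv : v ∉ A)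
    (hout : ∀ X Y : Rlz n d, (∀ x ∈ insert v A, ∀ y, (X.1.Adj x y ↔ Y.1.Adj x y)) → F X = F Y)
    (m : ℕ) : ∀ X Y : Rlz n d, (∀ x ∈ A, ∀ y, (X.1.Adj x y ↔ Y.1.Adj x y)) →
      (univ.filter (fun y => X.1.Adj v y ∧ ¬ Y.1.Adj v y)).card = m → F X = F Y := by
  induction m with
  | zero =>
    intro X Y hA hm
    rw [card_eq_zero, filter_eq_empty_iff] at hm
    have hsub : univ.filter (fun y => X.1.Adj v y) ⊆ univ.filter (fun y => Y.1.Adj v y) := by
      intro y hy
      simp only [mem_filter, mem_univ, true_and] at hy ⊢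
      by_contra hc
      exact hm (mem_univ y) ⟨hy, hc⟩
    have heq := eq_of_subset_of_card_le hsub (by rw [X.2 v, Y.2 v])
    refine hout X Y fun x hx y => ?_
    rcases mem_insert.1 hx with rfl | hx
    · have := congrArg (fun s => y ∈ s) heq
      simpa using this
    · exact hA x hx y
  | succ m ih =>
    intro X Y hA hm
    have hne : (univ.filter (fun y => X.1.Adj v y ∧ ¬ Y.1.Adj v y)).Nonempty := by
      rw [← card_pos]; omega
    obtain ⟨q, hq⟩ := hne
    simp only [mem_filter, mem_univ, true_and] at hq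
    -- find `p`
    have hne2 : ∃ p, Y.1.Adj v p ∧ ¬ X.1.Adj v p := by
      by_contra hc
      push Not at hc
      have hsub : univ.filter (fun y => Y.1.Adj v y) ⊆ univ.filter (fun y => X.1.Adj v y) := by
        intro y hy
        simp only [mem_filter, mem_univ, true_and] at hy ⊢
        exact hc y hy
      have heq := eq_of_subset_of_card_le hsub (by rw [X.2 v, Y.2 v])
      have := congrArg (fun s => q ∈ s) heq
      simp only [mem_filter, mem_univ, true_and, eq_iff_iff] at this
      exact hq.2 (this.2 hq.1)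
    obtain ⟨p, hp⟩ := hne2
    have hqA : q ∉ A := fun hqA => hq.2 ((hA q hqA v).1 hq.1.symm).symm
    have hpA : p ∉ A := fun hpA => hp.2 ((hA p hpA v).2 hp.1.symm).symm
    have hvp : v ≠ p := hp.1.ne
    have hvq : v ≠ q := hq.1.ne
    have hpq : p ≠ q := fun e => hp.2 (e ▸ hq.1)
    by_cases hd : (univ.filter (fun x => x ∉ A ∧ X.1.Adj q x)).card ≤
      (univ.filter (fun x => x ∉ A ∧ X.1.Adj p x)).card
    · obtain ⟨X', k1, k2, k3⟩ := gstep X A v p q hv hpA hqA hvp hq.1 hp.2 hd
      rw [← h p q hpq X' X k1]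
      refine ih X' Y (fun x hx y => (k2 x hx y).trans (hA x hx y)) ?_
      have e : univ.filter (fun y => X'.1.Adj v y ∧ ¬ Y.1.Adj v y) =
          (univ.filter (fun y => X.1.Adj v y ∧ ¬ Y.1.Adj v y)).erase q := by
        ext y
        simp only [mem_filter, mem_univ, true_and, mem_erase]
        rw [k3 y]
        constructor
        · rintro ⟨h1 | ⟨h1, h2⟩, h3⟩
          · exact absurd hp.1 (h1 ▸ h3)
          · exact ⟨h1, h2, h3⟩
        · rintro ⟨h1, h2, h3⟩
          exact ⟨Or.inr ⟨h1, h2⟩, h3⟩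
      rw [e, card_erase_of_mem (by simp [hq]), hm]
      rfl
    · have hd' : (univ.filter (fun x => x ∉ A ∧ Y.1.Adj p x)).card ≤
          (univ.filter (fun x => x ∉ A ∧ Y.1.Adj q x)).card := by
        rw [← ConnB_res A X Y hA p, ← ConnB_res A X Y hA q]
        omega
      obtain ⟨Y', k1, k2, k3⟩ := gstep Y A v q p hv hqA hpA hvq hp.1 hq.2 hd'
      rw [← h q p hpq.symm Y' Y k1]
      refine ih X Y' (fun x hx y => (hA x hx y).trans (k2 x hx y).symm) ?_
      have e : univ.filter (fun y => X.1.Adj v y ∧ ¬ Y'.1.Adj v y) =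
          (univ.filter (fun y => X.1.Adj v y ∧ ¬ Y.1.Adj v y)).erase q := by
        ext y
        simp only [mem_filter, mem_univ, true_and, mem_erase]
        rw [k3 y]
        constructor
        · rintro ⟨h1, h2⟩
          push Not at h2
          refine ⟨h2.1, h1, h2.2 ?_⟩
          rintro rfl
          exact hp.2 h1
        · rintro ⟨h1, h2, h3⟩
          refine ⟨h2, ?_⟩
          rintro (h4 | ⟨_, h4⟩)
          · exact h1 h4
          · exact h3 h4
      rw [e, card_erase_of_mem (by simp [hq]), hm]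
      rfl

theorem ConnB_outer (F : Rlz n d → ℝ)
    (h : ∀ p q : Fin n, p ≠ q → ∀ X Y : Rlz n d,
      gkey ({p, q} : Finset (Fin n)) X = gkey {p, q} Y → F X = F Y) (k : ℕ) :
    ∀ A : Finset (Fin n), (Aᶜ).card = k → ∀ X Y : Rlz n d,
      (∀ x ∈ A, ∀ y, (X.1.Adj x y ↔ Y.1.Adj x y)) → F X = F Y := by
  induction k with
  | zero =>
    intro A hA X Y hXY
    rw [card_eq_zero, compl_eq_empty_iff] at hA
    rw [Rlz_ext (X := X) (Y := Y) fun p q => hXY p (by rw [hA]; exact mem_univ p) q]
  | succ k ih =>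
    intro A hA X Y hXY
    have hne : (Aᶜ).Nonempty := by rw [← card_pos]; omega
    obtain ⟨v, hv⟩ := hne
    rw [mem_compl] at hv
    refine ConnB_inner F h A v hv (fun X Y h' => ih (insert v A) ?_ X Y h') _ X Y hXY rfl
    rw [compl_insert, card_erase_of_mem (by simpa using hv), hA]
    rfl

theorem gconn (F : Rlz n d → ℝ)
    (h : ∀ p q : Fin n, p ≠ q → ∀ X Y : Rlz n d,
      gkey ({p, q} : Finset (Fin n)) X = gkey {p, q} Y → F X = F Y) :
    ∀ X Y : Rlz n d, F X = F Y := by
  intro X Y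
  exact ConnB_outer F h _ ∅ rfl X Y (by simp)

end

end VP335
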