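import Vale.Agent.P335.G.FlipA

/-! P335, general graphs: diagonal blocks -/

namespace VP335

open Finset

noncomputable section

open Classical

variable {n : ℕ} {d : Fin n → ℕ}

/-- indicator of a proposition -/
def FlipB_i (P : Prop) : ℕ := if P then 1 else 0

theorem FlipB_gt {u v w x : Fin n} (huv : u ≠ v) (hwx : w ≠ x) (X : Rlz n d) :
    gt {u, v} {w, x} X = FlipB_i (X.1.Adj u w) + FlipB_i (X.1.Adj u x) +
      (FlipB_i (X.1.Adj v w) + FlipB_i (X.1.Adj v x)) := by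
  unfold gt FlipB_i
  rw [card_filter, sum_product, sum_pair huv, sum_pair hwx, sum_pair hwx]

theorem FlipB_Dg {u v w x : Fin n} (huv : u ≠ v) (hwx : w ≠ x) (X : Rlz n d) :
    Dg {u, v} {w, x} X ↔
      (FlipB_i (X.1.Adj u w) + FlipB_i (X.1.Adj u x) = 1 ∧
        FlipB_i (X.1.Adj v w) + FlipB_i (X.1.Adj v x) = 1) ∧
      (FlipB_i (X.1.Adj u w) + FlipB_i (X.1.Adj v w) = 1 ∧
        FlipB_i (X.1.Adj u x) + FlipB_i (X.1.Adj v x) = 1) := by
  unfold Dg FlipB_i
  simp only [mem_insert, mem_singleton, forall_eq_or_imp, forall_eq, card_filter, sum_pair hwx,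
    sum_pair huv]

theorem FlipB_bkey {u v w x : Fin n} (X Y : Rlz n d) :
    bkey {u, v} {w, x} X = bkey {u, v} {w, x} Y ↔
      ((gt {u, v} {w, x} X = 2 ∧ X.1.Adj u w ↔ gt {u, v} {w, x} Y = 2 ∧ Y.1.Adj u w) ∧
      (gt {u, v} {w, x} X = 2 ∧ X.1.Adj u x ↔ gt {u, v} {w, x} Y = 2 ∧ Y.1.Adj u x)) ∧
      ((gt {u, v} {w, x} X = 2 ∧ X.1.Adj v w ↔ gt {u, v} {w, x} Y = 2 ∧ Y.1.Adj v w) ∧
      (gt {u, v} {w, x} X = 2 ∧ X.1.Adj v x ↔ gt {u, v} {w, x} Y = 2 ∧ Y.1.Adj v x)) := by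
  constructor
  · intro h
    have key : ∀ p q, btw {u, v} {w, x} p q →
        (gt {u, v} {w, x} X = 2 ∧ X.1.Adj p q ↔ gt {u, v} {w, x} Y = 2 ∧ Y.1.Adj p q) := by
      intro p q hb
      have := congrFun (congrFun h p) q
      simp only [bkey, hb, true_and, eq_iff_iff] at this
      exact this
    exact ⟨⟨key u w (Or.inl (by simp)), key u x (Or.inl (by simp))⟩,
      ⟨key v w (Or.inl (by simp)), key v x (Or.inl (by simp))⟩⟩
  · rintro ⟨⟨h1, h2⟩, ⟨h3, h4⟩⟩
    funext p q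
    apply propext
    have key : ∀ p q, p ∈ ({u, v} : Finset (Fin n)) → q ∈ ({w, x} : Finset (Fin n)) →
        (gt {u, v} {w, x} X = 2 ∧ X.1.Adj p q ↔ gt {u, v} {w, x} Y = 2 ∧ Y.1.Adj p q) := by
      intro p q hp hq
      simp only [mem_insert, mem_singleton] at hp hq
      rcases hp with rfl | rfl <;> rcases hq with rfl | rfl <;> assumption
    unfold bkey
    by_cases hb : btw {u, v} {w, x} p q
    · simp only [hb, true_and]
      rcases hb with ⟨hp, hq⟩ | ⟨hp, hq⟩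
      · exact key p q hp hq
      · have := key q p hq hp
        rw [X.1.adj_comm q p, Y.1.adj_comm q p] at this
        exact this
    · simp [hb]

theorem FlipB_two {e : Finset (Fin n)} (he : e.card = 2) : ∃ u v, u ≠ v ∧ e = {u, v} :=
  card_eq_two.1 he

/-- a diagonal block has exactly two edges -/
theorem Dg_gt {e f : Finset (Fin n)} (hef : Disjoint e f) (he : e.card = 2) (hf : f.card = 2)
    {X : Rlz n d} (h : Dg e f X) : gt e f X = 2 := by
  obtain ⟨u, v, huv, rfl⟩ := FlipB_two he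
  obtain ⟨w, x, hwx, rfl⟩ := FlipB_two hf
  rw [FlipB_Dg huv hwx] at h
  rw [FlipB_gt huv hwx]
  omega

theorem FlipB_logic (A B C D A' B' C' D' : Prop)
    (h : (FlipB_i A + FlipB_i B = 1 ∧ FlipB_i C + FlipB_i D = 1) ∧
      (FlipB_i A + FlipB_i C = 1 ∧ FlipB_i B + FlipB_i D = 1))
    (hk : ((FlipB_i A + FlipB_i B + (FlipB_i C + FlipB_i D) = 2 ∧ A ↔
        FlipB_i A' + FlipB_i B' + (FlipB_i C' + FlipB_i D') = 2 ∧ A') ∧
      (FlipB_i A + FlipB_i B + (FlipB_i C + FlipB_i D) = 2 ∧ B ↔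
        FlipB_i A' + FlipB_i B' + (FlipB_i C' + FlipB_i D') = 2 ∧ B')) ∧
      ((FlipB_i A + FlipB_i B + (FlipB_i C + FlipB_i D) = 2 ∧ C ↔
        FlipB_i A' + FlipB_i B' + (FlipB_i C' + FlipB_i D') = 2 ∧ C') ∧
      (FlipB_i A + FlipB_i B + (FlipB_i C + FlipB_i D) = 2 ∧ D ↔
        FlipB_i A' + FlipB_i B' + (FlipB_i C' + FlipB_i D') = 2 ∧ D'))) :
    (FlipB_i A' + FlipB_i B' = 1 ∧ FlipB_i C' + FlipB_i D' = 1) ∧
      (FlipB_i A' + FlipB_i C' = 1 ∧ FlipB_i B' + FlipB_i D' = 1) := by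
  by_cases a : A <;> by_cases b : B <;> by_cases c : C <;> by_cases dd : D <;>
    simp [FlipB_i, a, b, c, dd] at h
  all_goals
    by_cases a' : A' <;> by_cases b' : B' <;> by_cases c' : C' <;> by_cases d' : D' <;>
      simp [FlipB_i, a, b, c, dd, a', b', c', d'] at hk ⊢

/-- the block decides whether it is diagonal -/
theorem Dg_bkey {e f : Finset (Fin n)} (hef : Disjoint e f) (he : e.card = 2) (hf : f.card = 2)
    {X Y : Rlz n d} (hb : bkey e f X = bkey e f Y) (h : Dg e f X) : Dg e f Y := by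
  obtain ⟨u, v, huv, rfl⟩ := FlipB_two he
  obtain ⟨w, x, hwx, rfl⟩ := FlipB_two hf
  rw [FlipB_Dg huv hwx] at h ⊢
  rw [FlipB_bkey, FlipB_gt huv hwx, FlipB_gt huv hwx] at hb
  exact FlipB_logic _ _ _ _ _ _ _ _ h hb

theorem gflip_bkey {e f : Finset (Fin n)} (hef : Disjoint e f) (he : e.card = 2) (hf : f.card = 2)
    {X Y : Rlz n d} (hb : bkey e f X = bkey e f Y) :
    bkey e f (gflip e f X) = bkey e f (gflip e f Y) := by
  by_cases h : Dg e f X
  · have h' := Dg_bkey hef he hf hb h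
    have g1 := Dg_gt hef he hf (gflip_Dg hef he hf h)
    have g2 := Dg_gt hef he hf (gflip_Dg hef he hf h')
    have g3 := Dg_gt hef he hf h
    have g4 := Dg_gt hef he hf h'
    funext p q
    apply propext
    have hpq := congrFun (congrFun hb p) q
    simp only [bkey, g3, g4, true_and, eq_iff_iff] at hpq
    simp only [bkey, g1, g2, true_and]
    by_cases hbt : btw e f p q
    · rw [gflip_adj hef he hf h, gflip_adj hef he hf h', if_pos hbt, if_pos hbt]
      simp only [hbt, true_and] at hpq ⊢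
      rw [hpq]
    · simp [hbt]
  · have h' : ¬ Dg e f Y := fun h' => h (Dg_bkey hef he hf hb.symm h')
    rw [gflip_of_not h, gflip_of_not h', hb]

/-- two diagonal blocks are equal or flipped -/
theorem Dg_Dg_bkey {e f : Finset (Fin n)} (hef : Disjoint e f) (he : e.card = 2) (hf : f.card = 2)
    {X Y : Rlz n d} (hX : Dg e f X) (hY : Dg e f Y) :
    bkey e f X = bkey e f Y ∨ bkey e f X = bkey e f (gflip e f Y) := by
  have g1 := Dg_gt hef he hf hX
  have g2 := Dg_gt hef he hf hY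
  have g3 := Dg_gt hef he hf (gflip_Dg hef he hf hY)
  have hadj := gflip_adj hef he hf hY
  obtain ⟨u, v, huv, rfl⟩ := FlipB_two he
  obtain ⟨w, x, hwx, rfl⟩ := FlipB_two hf
  rw [FlipB_bkey, FlipB_bkey, g1, g2, g3]
  simp only [true_and]
  have b1 : btw {u, v} {w, x} u w := Or.inl (by simp)
  have b2 : btw {u, v} {w, x} u x := Or.inl (by simp)
  have b3 : btw {u, v} {w, x} v w := Or.inl (by simp)
  have b4 : btw {u, v} {w, x} v x := Or.inl (by simp)
  have a1 := hadj u w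
  have a2 := hadj u x
  have a3 := hadj v w
  have a4 := hadj v x
  rw [if_pos b1] at a1
  rw [if_pos b2] at a2
  rw [if_pos b3] at a3
  rw [if_pos b4] at a4
  rw [a1, a2, a3, a4]
  rw [FlipB_Dg huv hwx] at hX hY
  by_cases a : X.1.Adj u w <;> by_cases b : X.1.Adj u x <;> by_cases c : X.1.Adj v w <;>
    by_cases dd : X.1.Adj v x <;> simp [FlipB_i, a, b, c, dd] at hX
  all_goals
    by_cases a' : Y.1.Adj u w <;> by_cases b' : Y.1.Adj u x <;> by_cases c' : Y.1.Adj v w <;>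
      by_cases d' : Y.1.Adj v x <;> simp [FlipB_i, a, b, c, dd, a', b', c', d'] at hY ⊢

theorem FlipB_logic4 (A B C D : Prop)
    (h : ¬ ((FlipB_i A + FlipB_i B = 1 ∧ FlipB_i C + FlipB_i D = 1) ∧
      (FlipB_i A + FlipB_i C = 1 ∧ FlipB_i B + FlipB_i D = 1))) :
    (∀ A' B' C' D' : Prop, FlipB_i A' + FlipB_i C' = FlipB_i A + FlipB_i C →
      FlipB_i B' + FlipB_i D' = FlipB_i B + FlipB_i D →
      ((FlipB_i A' + FlipB_i B' + (FlipB_i C' + FlipB_i D') = 2 ∧ A' ↔
        FlipB_i A + FlipB_i B + (FlipB_i C + FlipB_i D) = 2 ∧ A) ∧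
      (FlipB_i A' + FlipB_i B' + (FlipB_i C' + FlipB_i D') = 2 ∧ B' ↔
        FlipB_i A + FlipB_i B + (FlipB_i C + FlipB_i D) = 2 ∧ B)) ∧
      ((FlipB_i A' + FlipB_i B' + (FlipB_i C' + FlipB_i D') = 2 ∧ C' ↔
        FlipB_i A + FlipB_i B + (FlipB_i C + FlipB_i D) = 2 ∧ C) ∧
      (FlipB_i A' + FlipB_i B' + (FlipB_i C' + FlipB_i D') = 2 ∧ D' ↔
        FlipB_i A + FlipB_i B + (FlipB_i C + FlipB_i D) = 2 ∧ D))) ∨
    (∀ A' B' C' D' : Prop, FlipB_i A' + FlipB_i B' = FlipB_i A + FlipB_i B →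
      FlipB_i C' + FlipB_i D' = FlipB_i C + FlipB_i D →
      ((FlipB_i A' + FlipB_i B' + (FlipB_i C' + FlipB_i D') = 2 ∧ A' ↔
        FlipB_i A + FlipB_i B + (FlipB_i C + FlipB_i D) = 2 ∧ A) ∧
      (FlipB_i A' + FlipB_i B' + (FlipB_i C' + FlipB_i D') = 2 ∧ B' ↔
        FlipB_i A + FlipB_i B + (FlipB_i C + FlipB_i D) = 2 ∧ B)) ∧
      ((FlipB_i A' + FlipB_i B' + (FlipB_i C' + FlipB_i D') = 2 ∧ C' ↔
        FlipB_i A + FlipB_i B + (FlipB_i C + FlipB_i D) = 2 ∧ C) ∧
      (FlipB_i A' + FlipB_i B' + (FlipB_i C' + FlipB_i D') = 2 ∧ D' ↔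
        FlipB_i A + FlipB_i B + (FlipB_i C + FlipB_i D) = 2 ∧ D))) := by
  by_cases a : A <;> by_cases b : B <;> by_cases c : C <;> by_cases dd : D <;>
    simp [FlipB_i, a, b, c, dd] at h
  all_goals first
    | (left
       intro A' B' C' D' h1 h2
       by_cases a' : A' <;> by_cases b' : B' <;> by_cases c' : C' <;> by_cases d' : D' <;>
         simp [FlipB_i, a, b, c, dd, a', b', c', d'] at h1 h2 ⊢
       done)
    | (right
       intro A' B' C' D' h1 h2
       by_cases a' : A' <;> by_cases b' : B' <;> by_cases c' : C' <;> by_cases d' : D' <;>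
         simp [FlipB_i, a, b, c, dd, a', b', c', d'] at h1 h2 ⊢
       done)

/-- off the diagonal blocks, one of the two resamplings does not change the block: if there are two
edges between `e` and `f` and the block is not diagonal, then it is a full row or a full column -/
theorem notDg_off {e f : Finset (Fin n)} (hef : Disjoint e f) (he : e.card = 2) (hf : f.card = 2)
    {X : Rlz n d} (h : ¬ Dg e f X) :
    (∀ Y : Rlz n d, gkey e Y = gkey e X → bkey e f Y = bkey e f X) ∨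
      (∀ Y : Rlz n d, gkey f Y = gkey f X → bkey e f Y = bkey e f X) := by
  obtain ⟨u, v, huv, rfl⟩ := FlipB_two he
  obtain ⟨w, x, hwx, rfl⟩ := FlipB_two hf
  rw [FlipB_Dg huv hwx] at h
  have hd : ∀ z, z ∈ ({u, v} : Finset (Fin n)) → z ∉ ({w, x} : Finset (Fin n)) := fun z hz =>
    Finset.disjoint_left.1 hef hz
  have hd' : ∀ z, z ∈ ({w, x} : Finset (Fin n)) → z ∉ ({u, v} : Finset (Fin n)) := fun z hz =>
    Finset.disjoint_right.1 hef hz
  rcases FlipB_logic4 _ _ _ _ h with h1 | h1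
  · left
    intro Y hY
    rw [FlipB_bkey, FlipB_gt huv hwx, FlipB_gt huv hwx]
    have c1 := gkey_count hY (hd' w (by simp))
    have c2 := gkey_count hY (hd' x (by simp))
    simp only [card_filter, sum_pair huv] at c1 c2
    refine h1 _ _ _ _ ?_ ?_
    · unfold FlipB_i
      rw [Y.1.adj_comm w u, Y.1.adj_comm w v, X.1.adj_comm w u, X.1.adj_comm w v] at c1
      exact c1
    · unfold FlipB_i
      rw [Y.1.adj_comm x u, Y.1.adj_comm x v, X.1.adj_comm x u, X.1.adj_comm x v] at c2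
      exact c2
  · right
    intro Y hY
    rw [FlipB_bkey, FlipB_gt huv hwx, FlipB_gt huv hwx]
    have c1 := gkey_count hY (hd u (by simp))
    have c2 := gkey_count hY (hd v (by simp))
    simp only [card_filter, sum_pair hwx] at c1 c2
    refine h1 _ _ _ _ ?_ ?_
    · unfold FlipB_i
      exact c1
    · unfold FlipB_i
      exact c2

end

end VP335
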