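import Vale.Agent.P335.G.Base

/-! P335, general graphs: gluing two graphs -/

namespace VP335

open Finset

noncomputable section

open Classical

variable {n : ℕ} {d : Fin n → ℕ}

theorem MixB_split (s : Finset (Fin n)) (P : Fin n → Prop) :
    (univ.filter P).card = (s.filter P).card + (sᶜ.filter P).card := by
  rw [← card_union_of_disjoint]
  · congr 1
    ext q
    simp only [mem_filter, mem_univ, true_and, mem_union, mem_compl]
    tauto
  · rw [disjoint_left]
    intro q hq hq'
    simp only [mem_filter, mem_compl] at hq hq'
    exact hq'.1 hq.1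

/-- gluing: edges meeting `f` from `Z`, the others from `Y`, and the block between `e` and `f`
from `B` -/
theorem mix_glue {e f : Finset (Fin n)} (hef : Disjoint e f) {X Y Z : Rlz n d}
    (hY : gkey e Y = gkey e X) (hZ : gkey f Z = gkey f X) (B : Fin n → Fin n → Prop)
    (hB1 : ∀ p ∈ e, (f.filter (fun q => B p q)).card = (f.filter (fun q => Y.1.Adj p q)).card)
    (hB2 : ∀ q ∈ f, (e.filter (fun p => B p q)).card = (e.filter (fun p => Z.1.Adj p q)).card) :
    ∃ M : Rlz n d, ∀ p q, M.1.Adj p q ↔
      (if p ∈ e ∧ q ∈ f then B p q else if p ∈ f ∧ q ∈ e then B q p else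
        if p ∈ f ∨ q ∈ f then Z.1.Adj p q else Y.1.Adj p q) := by
  have hdis : ∀ x, x ∈ e → x ∈ f → False := fun x h1 h2 => disjoint_left.mp hef h1 h2
  obtain ⟨A, hA⟩ : ∃ A : Fin n → Fin n → Prop, ∀ p q, A p q ↔
      (if p ∈ e ∧ q ∈ f then B p q else if p ∈ f ∧ q ∈ e then B q p else
        if p ∈ f ∨ q ∈ f then Z.1.Adj p q else Y.1.Adj p q) := ⟨_, fun _ _ => Iff.rfl⟩
  have hsymm : ∀ p q, A p q → A q p := by
    intro p q h
    rw [hA] at h ⊢
    by_cases hpe : p ∈ e <;> by_cases hpf : p ∈ f <;> by_cases hqe : q ∈ e <;>
      by_cases hqf : q ∈ f <;>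
      first
      | exact (hdis p hpe hpf).elim
      | exact (hdis q hqe hqf).elim
      | (simp only [hpe, hpf, hqe, hqf, and_true, and_false, true_and, false_and, if_true,
          if_false, or_true, true_or, or_false, false_or, and_self, or_self] at h ⊢
         first
         | exact h
         | exact h.symm)
  have hirr : ∀ p, ¬ A p p := by
    intro p h
    rw [hA] at h
    by_cases hpe : p ∈ e <;> by_cases hpf : p ∈ f
    · exact hdis p hpe hpf
    · simp only [hpe, hpf, and_true, and_false, if_false, or_self] at h
      exact Y.1.irrefl h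
    · simp only [hpe, hpf, and_true, and_false, if_false, or_self, if_true] at h
      exact Z.1.irrefl h
    · simp only [hpe, hpf, and_true, and_false, if_false, or_self] at h
      exact Y.1.irrefl h
  have hdeg : ∀ p, (univ.filter (fun q => A p q)).card = d p := by
    intro p
    by_cases hpe : p ∈ e
    · have hpf : p ∉ f := fun h => hdis p hpe h
      have h1 : f.filter (fun q => A p q) = f.filter (fun q => B p q) := by
        refine filter_congr (fun q hq => ?_)
        rw [hA, if_pos ⟨hpe, hq⟩]
      have h2 : fᶜ.filter (fun q => A p q) = fᶜ.filter (fun q => Y.1.Adj p q) := by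
        refine filter_congr (fun q hq => ?_)
        have hqf : q ∉ f := mem_compl.mp hq
        rw [hA, if_neg (fun h => hqf h.2), if_neg (fun h => hpf h.1),
          if_neg (fun h => h.elim hpf hqf)]
      rw [MixB_split f, h1, h2, hB1 p hpe, ← MixB_split f (fun q => Y.1.Adj p q)]
      exact Y.2 p
    · by_cases hpf : p ∈ f
      · have h1 : e.filter (fun q => A p q) = e.filter (fun q => B q p) := by
          refine filter_congr (fun q hq => ?_)
          rw [hA, if_neg (fun h => hpe h.1), if_pos ⟨hpf, hq⟩]
        have h2 : eᶜ.filter (fun q => A p q) = eᶜ.filter (fun q => Z.1.Adj p q) := by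
          refine filter_congr (fun q hq => ?_)
          have hqe : q ∉ e := mem_compl.mp hq
          rw [hA, if_neg (fun h => hpe h.1), if_neg (fun h => hqe h.2),
            if_pos (Or.inl hpf)]
        have h3 : e.filter (fun q => Z.1.Adj q p) = e.filter (fun q => Z.1.Adj p q) := by
          refine filter_congr (fun q _ => ?_)
          exact Z.1.adj_comm q p
        rw [MixB_split e, h1, h2, hB2 p hpf, h3, ← MixB_split e (fun q => Z.1.Adj p q)]
        exact Z.2 p
      · have h1 : f.filter (fun q => A p q) = f.filter (fun q => Z.1.Adj p q) := by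
          refine filter_congr (fun q hq => ?_)
          rw [hA, if_neg (fun h => hpe h.1), if_neg (fun h => hpf h.1),
            if_pos (Or.inr hq)]
        have h2 : fᶜ.filter (fun q => A p q) = fᶜ.filter (fun q => Y.1.Adj p q) := by
          refine filter_congr (fun q hq => ?_)
          have hqf : q ∉ f := mem_compl.mp hq
          rw [hA, if_neg (fun h => hqf h.2), if_neg (fun h => hpf h.1),
            if_neg (fun h => h.elim hpf hqf)]
        have h3 : f.filter (fun q => X.1.Adj p q) = f.filter (fun q => Y.1.Adj p q) := by
          refine filter_congr (fun q hq => ?_)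
          have hqe : q ∉ e := fun h => hdis q h hq
          exact ((gkey_eq_iff e Y X).mp hY p q hpe hqe).symm
        rw [MixB_split f, h1, h2, gkey_count hZ hpf, h3,
          ← MixB_split f (fun q => Y.1.Adj p q)]
        exact Y.2 p
  refine ⟨⟨{ Adj := A, symm := ⟨fun p q h => hsymm p q h⟩, loopless := ⟨fun p => hirr p⟩ }, ?_⟩, ?_⟩
  · intro p
    exact hdeg p
  · intro p q
    exact hA p q

end

end VP335
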