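import Vale.Agent.P335.G.MixA
import Vale.Agent.P335.G.MixB

/-! P335, general graphs: the mixing property -/

namespace VP335

open Finset

noncomputable section

open Classical

variable {n : ℕ} {d : Fin n → ℕ}

theorem mixC_card_pair {w x : Fin n} (h : w ≠ x) (P : Fin n → Prop) :
    (({w, x} : Finset (Fin n)).filter P).card = (if P w then 1 else 0) + (if P x then 1 else 0) := by
  rw [Finset.card_filter, Finset.sum_pair h]

/-- a 2 x 2 block with prescribed margins exists when the total is not two -/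
theorem mix_block {e f : Finset (Fin n)} (he : e.card = 2) (hf : f.card = 2)
    (r c : Fin n → ℕ) (hr : ∀ p ∈ e, r p ≤ 2) (hc : ∀ q ∈ f, c q ≤ 2)
    (hs : ∑ p ∈ e, r p = ∑ q ∈ f, c q) (h2 : ∑ p ∈ e, r p ≠ 2) :
    ∃ B : Fin n → Fin n → Prop, (∀ p ∈ e, (f.filter (fun q => B p q)).card = r p) ∧
      (∀ q ∈ f, (e.filter (fun p => B p q)).card = c q) := by
  obtain ⟨u, v, huv, rfl⟩ := card_eq_two.mp he
  obtain ⟨w, x, hwx, rfl⟩ := card_eq_two.mp hf
  rw [Finset.sum_pair huv] at h2
  rw [Finset.sum_pair huv, Finset.sum_pair hwx] at hs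
  have h1 := hr u (by simp)
  have h3 := hr v (by simp)
  have h4 := hc w (by simp)
  have h5 := hc x (by simp)
  by_cases ht : r u + r v ≤ 1
  · refine ⟨fun p q => 1 ≤ r p ∧ 1 ≤ c q, ?_, ?_⟩
    · intro p hp
      rw [mixC_card_pair hwx]
      simp only [mem_insert, mem_singleton] at hp
      rcases hp with rfl | rfl <;> split_ifs <;> omega
    · intro q hq
      rw [mixC_card_pair huv]
      simp only [mem_insert, mem_singleton] at hq
      rcases hq with rfl | rfl <;> split_ifs <;> omega
  · refine ⟨fun p q => 2 ≤ r p ∨ 2 ≤ c q, ?_, ?_⟩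
    · intro p hp
      rw [mixC_card_pair hwx]
      simp only [mem_insert, mem_singleton] at hp
      rcases hp with rfl | rfl <;> split_ifs <;> omega
    · intro q hq
      rw [mixC_card_pair huv]
      simp only [mem_insert, mem_singleton] at hq
      rcases hq with rfl | rfl <;> split_ifs <;> omega

theorem mixC_gt_rows (e f : Finset (Fin n)) (X : Rlz n d) :
    gt e f X = ∑ p ∈ e, (f.filter (fun q => X.1.Adj p q)).card := by
  unfold gt
  rw [Finset.card_filter, Finset.sum_product]
  refine sum_congr rfl (fun p _ => ?_)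
  rw [Finset.card_filter]

theorem mixC_gt_cols (e f : Finset (Fin n)) (X : Rlz n d) :
    gt e f X = ∑ q ∈ f, (e.filter (fun p => X.1.Adj p q)).card := by
  unfold gt
  rw [Finset.card_filter, Finset.sum_product_right]
  refine sum_congr rfl (fun p _ => ?_)
  rw [Finset.card_filter]

theorem mixC_gt_congr' {e f : Finset (Fin n)} (hef : Disjoint e f) {X Y : Rlz n d}
    (h : gkey f X = gkey f Y) : gt e f X = gt e f Y := by
  rw [gt_symm e f X, gt_symm e f Y]
  exact gt_congr hef.symm h

/-- a graph of the glued form has the right keys off `f` and off `e` -/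
theorem mixC_keys {e f : Finset (Fin n)} {X Y Z M : Rlz n d}
    (hY : gkey e Y = gkey e X) (hZ : gkey f Z = gkey f X) {B : Fin n → Fin n → Prop}
    (hM : ∀ p q, M.1.Adj p q ↔
      (if p ∈ e ∧ q ∈ f then B p q else if p ∈ f ∧ q ∈ e then B q p else
        if p ∈ f ∨ q ∈ f then Z.1.Adj p q else Y.1.Adj p q)) :
    gkey f M = gkey f Y ∧ gkey e M = gkey e Z := by
  rw [gkey_eq_iff] at hY hZ
  constructor
  · rw [gkey_eq_iff]
    intro p q hp hq
    rw [hM, if_neg (fun h => hq h.2), if_neg (fun h => hp h.1),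
      if_neg (fun h => h.elim hp hq)]
  · rw [gkey_eq_iff]
    intro p q hp hq
    rw [hM, if_neg (fun h => hp h.1), if_neg (fun h => hq h.2)]
    by_cases h : p ∈ f ∨ q ∈ f
    · rw [if_pos h]
    · rw [if_neg h]
      push Not at h
      rw [hY p q hp hq, hZ p q h.1 h.2]

/-- the mixing property -/
theorem mix_exists {e f : Finset (Fin n)} (hef : Disjoint e f) (he : e.card = 2) (hf : f.card = 2)
    {X Y Z : Rlz n d} (hY : gkey e Y = gkey e X) (hZ : gkey f Z = gkey f X)
    (hZb : bkey e f Z = bkey e f X) :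
    ∃ M : Rlz n d, gkey f M = gkey f Y ∧ bkey e f M = bkey e f Y ∧ gkey e M = gkey e Z := by
  have hgY : gt e f Y = gt e f X := gt_congr hef hY
  have hgZ : gt e f Z = gt e f X := mixC_gt_congr' hef hZ
  by_cases h2 : gt e f X = 2
  · -- the block of `Z` and `X` is the same
    have hblk : ∀ p q, p ∈ e → q ∈ f → (Z.1.Adj p q ↔ X.1.Adj p q) := by
      intro p q hp hq
      have h := congrFun (congrFun hZb p) q
      unfold bkey at h
      have hb : btw e f p q := Or.inl ⟨hp, hq⟩
      simpa [hgZ, h2, hb] using h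
    obtain ⟨M, hM⟩ := mix_glue hef hY hZ (fun p q => Y.1.Adj p q) (fun p _ => rfl) (by
      intro q hq
      have hqe : q ∉ e := fun h => (disjoint_left.mp hef h) hq
      have h3 := gkey_count hY hqe
      have h4 : e.filter (fun p => Y.1.Adj p q) = e.filter (fun p => Y.1.Adj q p) :=
        filter_congr (fun p _ => by rw [SimpleGraph.adj_comm])
      have h5 : e.filter (fun p => Z.1.Adj p q) = e.filter (fun p => X.1.Adj q p) :=
        filter_congr (fun p hp => by rw [hblk p q hp hq, SimpleGraph.adj_comm])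
      rw [h4, h5]
      exact h3)
    obtain ⟨h6, h7⟩ := mixC_keys hY hZ hM
    refine ⟨M, h6, ?_, h7⟩
    have hgM : gt e f M = gt e f Y := mixC_gt_congr' hef h6
    funext p q
    apply propext
    unfold bkey
    rw [hgM]
    refine and_congr_right (fun _ => and_congr_right (fun hb => ?_))
    rw [hM]
    rcases hb with hb | hb
    · rw [if_pos hb]
    · have hne : ¬ (p ∈ e ∧ q ∈ f) := fun h => (disjoint_left.mp hef h.1) hb.1
      rw [if_neg hne, if_pos hb]
      exact SimpleGraph.adj_comm _ _ _
  · obtain ⟨B, hB1, hB2⟩ := mix_block he hf (fun p => (f.filter (fun q => Y.1.Adj p q)).card)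
      (fun q => (e.filter (fun p => Z.1.Adj p q)).card)
      (fun p _ => (card_filter_le _ _).trans hf.le) (fun q _ => (card_filter_le _ _).trans he.le)
      (by rw [← mixC_gt_rows e f Y, ← mixC_gt_cols e f Z, hgY, hgZ])
      (by rw [← mixC_gt_rows e f Y, hgY]; exact h2)
    obtain ⟨M, hM⟩ := mix_glue hef hY hZ B hB1 hB2
    obtain ⟨h6, h7⟩ := mixC_keys hY hZ hM
    refine ⟨M, h6, ?_, h7⟩
    have hgM : gt e f M = gt e f Y := mixC_gt_congr' hef h6
    funext p q
    apply propext
    unfold bkey
    rw [hgM, hgY]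
    constructor
    · rintro ⟨h, _⟩; exact absurd h h2
    · rintro ⟨h, _⟩; exact absurd h h2

end

end VP335
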