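import Vale.Agent.P335.G.Comm
import Vale.Agent.P335.G.Abs
import Vale.Agent.P335.G.MixC
import Vale.Agent.P335.G.FlipB

/-! P335, general graphs: the inequality for two disjoint pairs -/

namespace VP335

open Finset

noncomputable section

open Classical

variable {n : ℕ} {d : Fin n → ℕ}

theorem disj_graph {e f : Finset (Fin n)} (hef : Disjoint e f) (he : e.card = 2) (hf : f.card = 2)
    (F : Rlz n d → ℝ) :
    ∑ X, ((F X - F (gflip e f X)) / 2) ^ 2
        - (1 / 2) * ∑ X, (if Dg e f X then (gD e f F X - gE e F X) ^ 2 else 0)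
        - (1 / 2) * ∑ X, (if Dg f e X then (gD f e F X - gE f F X) ^ 2 else 0) ≤
      ip (fun X => F X - gE e F X) (fun X => F X - gE f F X) := by
  have hgD : gD f e F = avg (fun Y : Rlz n d => (gkey f Y, Dg e f Y)) F := by
    unfold gD
    have : (fun Y : Rlz n d => (gkey f Y, Dg f e Y)) = (fun Y : Rlz n d => (gkey f Y, Dg e f Y)) := by
      funext Y
      rw [show Dg f e Y = Dg e f Y from propext (Dg_symm f e Y)]
    rw [this]
  have hDgs : ∀ X : Rlz n d, (if Dg f e X then (gD f e F X - gE f F X) ^ 2 else 0) =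
      (if Dg e f X then (gD f e F X - gE f F X) ^ 2 else 0) := by
    intro X
    by_cases h : Dg e f X
    · rw [if_pos h, if_pos ((Dg_symm e f X).mp h)]
    · rw [if_neg h, if_neg (fun h' => h ((Dg_symm e f X).mpr h'))]
  have hmix2 : ∀ x y z : Rlz n d, gkey e y = gkey e x →
      (gkey f z, bkey e f z) = (gkey f x, bkey e f x) →
      ∃ m : Rlz n d, (gkey f m, bkey e f m) = (gkey f y, bkey e f y) ∧ gkey e m = gkey e z := by
    intro x y z hy hz
    rw [Prod.mk.injEq] at hz
    obtain ⟨M, h1, h2, h3⟩ := mix_exists hef he hf hy hz.1 hz.2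
    exact ⟨M, by rw [h1, h2], h3⟩
  have hmix3 : ∀ x y z : Rlz n d, gkey f y = gkey f x →
      (gkey e z, bkey e f z) = (gkey e x, bkey e f x) →
      ∃ m : Rlz n d, (gkey e m, bkey e f m) = (gkey e y, bkey e f y) ∧ gkey f m = gkey f z := by
    intro x y z hy hz
    rw [Prod.mk.injEq] at hz
    obtain ⟨M, h1, h2, h3⟩ := mix_exists hef.symm hf he hy hz.1
      (by rw [bkey_symm f e z, bkey_symm f e x]; exact hz.2)
    refine ⟨M, ?_, h3⟩
    rw [bkey_symm f e M, bkey_symm f e y] at h2
    rw [h1, h2]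
  have hmix1 : ∀ x y z : Rlz n d, (gkey e y, bkey e f y) = (gkey e x, bkey e f x) →
      (gkey f z, bkey e f z) = (gkey f x, bkey e f x) →
      ∃ m : Rlz n d, (gkey f m, bkey e f m) = (gkey f y, bkey e f y) ∧
        (gkey e m, bkey e f m) = (gkey e z, bkey e f z) := by
    intro x y z hy hz
    rw [Prod.mk.injEq] at hy hz
    obtain ⟨M, h1, h2, h3⟩ := mix_exists hef he hf hy.1 hz.1 hz.2
    refine ⟨M, by rw [h1, h2], ?_⟩
    rw [h3, h2, hy.2, hz.2]
  have h := abs_ineq (Ω := Rlz n d) (fun X => gkey e X) (fun X => gkey f X)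
    (fun X => (gkey e X, bkey e f X)) (fun X => (gkey f X, bkey e f X))
    (fun X => Dg e f X) (fun X => gflip e f X)
    (fun x => gflip_gflip hef he hf x)
    (fun x hx => gflip_Dg hef he hf hx)
    (fun x hx => gflip_of_not hx)
    (fun x => gflip_gkey hef he hf x)
    (fun x => gflip_gkey' hef he hf x)
    (fun x y hxy => by
      simp only [Prod.mk.injEq] at hxy ⊢
      refine ⟨?_, gflip_bkey hef he hf hxy.2⟩
      rw [gflip_gkey hef he hf x, gflip_gkey hef he hf y]
      exact hxy.1)
    (fun x y hxy => by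
      simp only [Prod.mk.injEq] at hxy ⊢
      refine ⟨?_, gflip_bkey hef he hf hxy.2⟩
      rw [gflip_gkey' hef he hf x, gflip_gkey' hef he hf y]
      exact hxy.1)
    (fun x y hxy => by
      simp only [Prod.mk.injEq] at hxy
      exact hxy.1)
    (fun x y hxy => by
      simp only [Prod.mk.injEq] at hxy
      exact hxy.1)
    (fun x y hxy hx => by
      simp only [Prod.mk.injEq] at hxy
      exact Dg_bkey hef he hf hxy.2 hx)
    (fun x y hxy hx => by
      simp only [Prod.mk.injEq] at hxy
      exact Dg_bkey hef he hf hxy.2 hx)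
    (fun F => avg_comm_of_mix _ _ (fun x y h1 h2 => by
      simp only [Prod.mk.injEq] at h1 h2
      exact mix_inj hef he hf h1.1 h2.1 h1.2) hmix1 F)
    (fun F => avg_comm_of_mix _ _ (fun x y h1 h2 => by
      simp only [Prod.mk.injEq] at h2
      exact mix_inj hef he hf h1 h2.1 h2.2) hmix2 F)
    (fun F => avg_comm_of_mix _ _ (fun x y h1 h2 => by
      simp only [Prod.mk.injEq] at h2
      exact mix_inj hef he hf h2.1 h1 h2.2) hmix3 F)
    (fun x hx => by
      rcases notDg_off hef he hf hx with h1 | h1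
      · left
        intro y hy
        simp only [Prod.mk.injEq]
        exact ⟨hy, h1 y hy⟩
      · right
        intro y hy
        simp only [Prod.mk.injEq]
        exact ⟨hy, h1 y hy⟩)
    (fun x y hx hy hxy => by
      simp only [Prod.mk.injEq]
      rcases Dg_Dg_bkey hef he hf hx hy with h1 | h1
      · exact Or.inl ⟨hxy, h1⟩
      · exact Or.inr ⟨by rw [gflip_gkey hef he hf y]; exact hxy, h1⟩)
    (fun x y hx hy hxy => by
      simp only [Prod.mk.injEq]
      rcases Dg_Dg_bkey hef he hf hx hy with h1 | h1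
      · exact Or.inl ⟨hxy, h1⟩
      · exact Or.inr ⟨by rw [gflip_gkey' hef he hf y]; exact hxy, h1⟩)
    F
  simp only [hDgs]
  rw [hgD]
  exact h

end

end VP335
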