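import Vale.Agent.P335.G.Base

/-! P335, general graphs: flipping a diagonal block -/

namespace VP335

open Finset

noncomputable section

open Classical

variable {n : ℕ} {d : Fin n → ℕ}

theorem FlipA_split (s : Finset (Fin n)) (P : Fin n → Prop) :
    (univ.filter P).card = (s.filter P).card + (sᶜ.filter P).card := by
  rw [← card_union_of_disjoint]
  · congr 1
    ext q
    simp only [mem_filter, mem_univ, true_and, mem_union, mem_compl]
    tauto
  · rw [disjoint_left]
    intro q hq hq'
    simp only [mem_filter, mem_compl] at hq hq'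
    exact hq'.1 hq.1

theorem FlipA_not {s : Finset (Fin n)} (hs : s.card = 2) (P : Fin n → Prop)
    (h : (s.filter P).card = 1) : (s.filter (fun q => ¬ P q)).card = 1 := by
  have h2 : s.card = (s.filter P).card + (s.filter (fun q => ¬ P q)).card := by
    rw [← card_union_of_disjoint]
    · congr 1
      ext q
      simp only [mem_filter, mem_union]
      tauto
    · rw [disjoint_left]
      intro q hq hq'
      simp only [mem_filter] at hq hq'
      exact hq'.2 hq.2
  omega

theorem FlipA_exists {e f : Finset (Fin n)} (hef : Disjoint e f) (he : e.card = 2)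
    (hf : f.card = 2) {X : Rlz n d} (h : Dg e f X) : ∃ Y : Rlz n d,
      ∀ p q, Y.1.Adj p q ↔ (if btw e f p q then ¬ X.1.Adj p q else X.1.Adj p q) := by
  have hdis : ∀ x, x ∈ e → x ∈ f → False := fun x h1 h2 => disjoint_left.mp hef h1 h2
  obtain ⟨A, hA⟩ : ∃ A : Fin n → Fin n → Prop, ∀ p q, A p q ↔
      (if btw e f p q then ¬ X.1.Adj p q else X.1.Adj p q) := ⟨_, fun _ _ => Iff.rfl⟩
  have hsymm : ∀ p q, A p q → A q p := by
    intro p q h
    rw [hA] at h ⊢
    by_cases hb : btw e f p q
    · have hb' : btw e f q p := (btw_symm' e f p q).mp hb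
      rw [if_pos hb] at h
      rw [if_pos hb']
      exact fun h' => h h'.symm
    · have hb' : ¬ btw e f q p := fun h' => hb ((btw_symm' e f p q).mpr h')
      rw [if_neg hb] at h
      rw [if_neg hb']
      exact h.symm
  have hirr : ∀ p, ¬ A p p := by
    intro p h
    rw [hA] at h
    have hb : ¬ btw e f p p := by
      rintro (⟨h1, h2⟩ | ⟨h1, h2⟩)
      · exact hdis p h1 h2
      · exact hdis p h2 h1
    rw [if_neg hb] at h
    exact X.1.irrefl h
  have hdeg : ∀ p, (univ.filter (fun q => A p q)).card = d p := by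
    intro p
    by_cases hpe : p ∈ e
    · have hpf : p ∉ f := fun h => hdis p hpe h
      have h1 : f.filter (fun q => A p q) = f.filter (fun q => ¬ X.1.Adj p q) := by
        refine filter_congr (fun q hq => ?_)
        rw [hA, if_pos (show btw e f p q from Or.inl ⟨hpe, hq⟩)]
      have h2 : fᶜ.filter (fun q => A p q) = fᶜ.filter (fun q => X.1.Adj p q) := by
        refine filter_congr (fun q hq => ?_)
        have hqf : q ∉ f := mem_compl.mp hq
        rw [hA, if_neg]
        rintro (⟨_, h2⟩ | ⟨h1, _⟩)
        · exact hqf h2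
        · exact hpf h1
      rw [FlipA_split f, h1, h2, FlipA_not hf _ (h.1 p hpe), ← h.1 p hpe,
        ← FlipA_split f (fun q => X.1.Adj p q)]
      exact X.2 p
    · by_cases hpf : p ∈ f
      · have h1 : e.filter (fun q => A p q) = e.filter (fun q => ¬ X.1.Adj q p) := by
          refine filter_congr (fun q hq => ?_)
          rw [hA, if_pos (show btw e f p q from Or.inr ⟨hpf, hq⟩), X.1.adj_comm]
        have h2 : eᶜ.filter (fun q => A p q) = eᶜ.filter (fun q => X.1.Adj p q) := by
          refine filter_congr (fun q hq => ?_)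
          have hqe : q ∉ e := mem_compl.mp hq
          rw [hA, if_neg]
          rintro (⟨h1, _⟩ | ⟨_, h2⟩)
          · exact hpe h1
          · exact hqe h2
        have h3 : e.filter (fun q => X.1.Adj q p) = e.filter (fun q => X.1.Adj p q) := by
          refine filter_congr (fun q _ => ?_)
          exact X.1.adj_comm q p
        rw [FlipA_split e, h1, h2, FlipA_not he _ (h.2 p hpf), ← h.2 p hpf, h3,
          ← FlipA_split e (fun q => X.1.Adj p q)]
        exact X.2 p
      · have h1 : (univ : Finset (Fin n)).filter (fun q => A p q)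
            = univ.filter (fun q => X.1.Adj p q) := by
          refine filter_congr (fun q _ => ?_)
          rw [hA, if_neg]
          rintro (⟨h1, _⟩ | ⟨h1, _⟩)
          · exact hpe h1
          · exact hpf h1
        rw [h1]
        exact X.2 p
  refine ⟨⟨{ Adj := A, symm := ⟨fun p q h => hsymm p q h⟩, loopless := ⟨fun p => hirr p⟩ }, ?_⟩, ?_⟩
  · intro p
    exact hdeg p
  · intro p q
    exact hA p q

theorem gflip_adj {e f : Finset (Fin n)} (hef : Disjoint e f) (he : e.card = 2) (hf : f.card = 2)
    {X : Rlz n d} (h : Dg e f X) (p q : Fin n) :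
    (gflip e f X).1.Adj p q ↔ (if btw e f p q then ¬ X.1.Adj p q else X.1.Adj p q) := by
  have hh : Dg e f X ∧ ∃ Y : Rlz n d,
      ∀ p q, Y.1.Adj p q ↔ (if btw e f p q then ¬ X.1.Adj p q else X.1.Adj p q) :=
    ⟨h, FlipA_exists hef he hf h⟩
  have h2 : gflip e f X = hh.2.choose := by
    unfold gflip
    rw [dif_pos hh]
  rw [h2]
  exact hh.2.choose_spec p q

theorem gflip_of_not {e f : Finset (Fin n)} {X : Rlz n d} (h : ¬ Dg e f X) :
    gflip e f X = X := by
  unfold gflip
  rw [dif_neg (fun h' => h h'.1)]

theorem gflip_Dg {e f : Finset (Fin n)} (hef : Disjoint e f) (he : e.card = 2) (hf : f.card = 2)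
    {X : Rlz n d} (h : Dg e f X) : Dg e f (gflip e f X) := by
  refine ⟨fun p hp => ?_, fun q hq => ?_⟩
  · rw [show f.filter (fun q => (gflip e f X).1.Adj p q) = f.filter (fun q => ¬ X.1.Adj p q) from
      filter_congr (fun q hq => by
        rw [gflip_adj hef he hf h, if_pos (show btw e f p q from Or.inl ⟨hp, hq⟩)])]
    exact FlipA_not hf _ (h.1 p hp)
  · rw [show e.filter (fun p => (gflip e f X).1.Adj p q) = e.filter (fun p => ¬ X.1.Adj p q) from
      filter_congr (fun p hp => by
        rw [gflip_adj hef he hf h, if_pos (show btw e f p q from Or.inl ⟨hp, hq⟩)])]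
    exact FlipA_not he _ (h.2 q hq)

theorem gflip_gflip {e f : Finset (Fin n)} (hef : Disjoint e f) (he : e.card = 2)
    (hf : f.card = 2) (X : Rlz n d) : gflip e f (gflip e f X) = X := by
  by_cases h : Dg e f X
  · have h' := gflip_Dg hef he hf h
    refine Rlz_ext (fun p q => ?_)
    rw [gflip_adj hef he hf h', gflip_adj hef he hf h]
    by_cases hb : btw e f p q
    · simp only [if_pos hb, not_not]
    · simp only [if_neg hb]
  · rw [gflip_of_not h, gflip_of_not h]

theorem gflip_symm {e f : Finset (Fin n)} (hef : Disjoint e f) (he : e.card = 2) (hf : f.card = 2)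
    (X : Rlz n d) : gflip e f X = gflip f e X := by
  by_cases h : Dg e f X
  · have h' : Dg f e X := (Dg_symm e f X).mp h
    refine Rlz_ext (fun p q => ?_)
    rw [gflip_adj hef he hf h, gflip_adj hef.symm hf he h']
    by_cases hb : btw e f p q
    · rw [if_pos hb, if_pos ((btw_symm e f p q).mp hb)]
    · rw [if_neg hb, if_neg (fun h'' => hb ((btw_symm e f p q).mpr h''))]
  · rw [gflip_of_not h, gflip_of_not (fun h' => h ((Dg_symm e f X).mpr h'))]

theorem gflip_gkey {e f : Finset (Fin n)} (hef : Disjoint e f) (he : e.card = 2)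
    (hf : f.card = 2) (X : Rlz n d) : gkey e (gflip e f X) = gkey e X := by
  by_cases h : Dg e f X
  · rw [gkey_eq_iff]
    intro p q hp hq
    rw [gflip_adj hef he hf h, if_neg]
    rintro (⟨h1, _⟩ | ⟨_, h2⟩)
    · exact hp h1
    · exact hq h2
  · rw [gflip_of_not h]

theorem gflip_gkey' {e f : Finset (Fin n)} (hef : Disjoint e f) (he : e.card = 2)
    (hf : f.card = 2) (X : Rlz n d) : gkey f (gflip e f X) = gkey f X := by
  by_cases h : Dg e f X
  · rw [gkey_eq_iff]
    intro p q hp hq
    rw [gflip_adj hef he hf h, if_neg]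
    rintro (⟨_, h2⟩ | ⟨h1, _⟩)
    · exact hq h2
    · exact hp h1
  · rw [gflip_of_not h]

end

end VP335
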