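import Vale.Agent.P335.G.GSw
import Vale.Agent.P335.Johnson

/-! P335, general graphs: comparison of the pair heat bath with the switches -/

namespace VP335

open Finset

noncomputable section

open Classical

variable {n : ℕ} {d : Fin n → ℕ}

theorem GPair_sum {u v : Fin n} {X0 : Rlz n d} {mk : Finset (Fin n) → Rlz n d}
    (h1 : ∀ σ ∈ powersetCard (gU u v X0).card (gS u v X0),
        gkey ({u, v} : Finset (Fin n)) (mk σ) = gkey {u, v} X0 ∧ gU u v (mk σ) = σ)
    (h2 : ∀ Y : Rlz n d, gkey ({u, v} : Finset (Fin n)) Y = gkey {u, v} X0 →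
        gU u v Y ∈ powersetCard (gU u v X0).card (gS u v X0) ∧ mk (gU u v Y) = Y)
    (g : Rlz n d → ℝ) :
    ∑ σ ∈ powersetCard (gU u v X0).card (gS u v X0), g (mk σ) =
      ∑ Y ∈ fib (gkey ({u, v} : Finset (Fin n))) X0, g Y := by
  refine sum_bij' (fun σ _ => mk σ) (fun Y _ => gU u v Y) ?_ ?_ ?_ ?_ ?_
  · intro σ hσ
    rw [mem_fib]
    exact (h1 σ hσ).1
  · intro Y hY
    exact (h2 Y (mem_fib.1 hY)).1
  · intro σ hσ
    exact (h1 σ hσ).2
  · intro Y hY
    exact (h2 Y (mem_fib.1 hY)).2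
  · intro σ _
    rfl

theorem GPair_inst {α : Type*} (i1 i2 : DecidableEq α) (U V : Finset α) :
    (@SDiff.sdiff _ (@Finset.instSDiff _ i1) U V).card =
      (@SDiff.sdiff _ (@Finset.instSDiff _ i2) U V).card := by
  have h : i1 = i2 := Subsingleton.elim _ _
  rw [h]

/-- one fibre -/
theorem GPair_fib {u v : Fin n} (huv : u ≠ v) (F : Rlz n d → ℝ) (X0 : Rlz n d) :
    ∑ X ∈ fib (gkey ({u, v} : Finset (Fin n))) X0, (F X - gE {u, v} F X) ^ 2 ≤
      (1 / 4) * ∑ X ∈ fib (gkey ({u, v} : Finset (Fin n))) X0, ∑ Y,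
        (if gsw u v X Y then (F X - F Y) ^ 2 else 0) := by
  obtain ⟨mk, h1, h2⟩ := pair_param huv X0
  have hJ := johnson (gS u v X0) (gU u v X0).card (fun U => F (mk U))
  have hcard : ((powersetCard (gU u v X0).card (gS u v X0)).card : ℝ) =
      ((fib (gkey ({u, v} : Finset (Fin n))) X0).card : ℝ) := by
    have h3 := GPair_sum h1 h2 (fun _ => (1 : ℝ))
    simpa using h3
  have hmean : (∑ V ∈ powersetCard (gU u v X0).card (gS u v X0), F (mk V)) /
      ((powersetCard (gU u v X0).card (gS u v X0)).card : ℝ) = gE {u, v} F X0 := by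
    rw [hcard, GPair_sum h1 h2 F]
    rfl
  rw [hmean] at hJ
  have hL : ∑ X ∈ fib (gkey ({u, v} : Finset (Fin n))) X0, (F X - gE {u, v} F X) ^ 2 =
      ∑ X ∈ fib (gkey ({u, v} : Finset (Fin n))) X0, (F X - gE {u, v} F X0) ^ 2 := by
    refine sum_congr rfl fun X hX => ?_
    have h3 : gE {u, v} F X = gE {u, v} F X0 := avg_const F (mem_fib.1 hX)
    rw [h3]
  rw [hL, ← GPair_sum h1 h2 (fun X => (F X - gE {u, v} F X0) ^ 2)]
  refine hJ.trans (le_of_eq ?_)
  congr 1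
  have hR : ∑ X ∈ fib (gkey ({u, v} : Finset (Fin n))) X0, ∑ Y,
        (if gsw u v X Y then (F X - F Y) ^ 2 else 0) =
      ∑ X ∈ fib (gkey ({u, v} : Finset (Fin n))) X0,
        ∑ Y ∈ fib (gkey ({u, v} : Finset (Fin n))) X0,
        (if gsw u v X Y then (F X - F Y) ^ 2 else 0) := by
    refine sum_congr rfl fun X hX => ?_
    symm
    refine sum_subset (subset_univ _) fun Y _ hY => ?_
    rw [if_neg]
    intro hsw
    apply hY
    rw [mem_fib, ← mem_fib.1 hX]
    exact hsw.1.symm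
  rw [hR, ← GPair_sum h1 h2 (fun X => ∑ Y ∈ fib (gkey ({u, v} : Finset (Fin n))) X0,
        (if gsw u v X Y then (F X - F Y) ^ 2 else 0))]
  refine sum_congr rfl fun U hU => ?_
  rw [← GPair_sum h1 h2 (fun Y => (if gsw u v (mk U) Y then
    (F (mk U) - F Y) ^ 2 else 0))]
  refine sum_congr rfl fun V hV => ?_
  have h3 : gsw u v (mk U) (mk V) ↔ (U \ V).card = 1 := by
    unfold gsw
    rw [(h1 U hU).2, (h1 V hV).2, (h1 U hU).1, (h1 V hV).1]
    exact ⟨fun h => h.2, fun h => ⟨rfl, h⟩⟩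
  split_ifs with h5 h6 h6
  · rfl
  · exact absurd (h3.2 ((GPair_inst _ _ U V).trans h5)) h6
  · exact absurd ((GPair_inst _ _ U V).trans (h3.1 h6)) h5
  · rfl

theorem gpair_switch {u v : Fin n} (huv : u ≠ v) (F : Rlz n d → ℝ) :
    ∑ X, (F X - gE {u, v} F X) ^ 2 ≤
      (1 / 4) * ∑ X, ∑ Y, (if gsw u v X Y then (F X - F Y) ^ 2 else 0) := by
  rw [mul_sum]
  refine sum_le_of_fib (gkey ({u, v} : Finset (Fin n))) _ _ fun X0 => ?_
  rw [← mul_sum]
  exact GPair_fib huv F X0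

end

end VP335
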