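import Vale.Agent.P335.G.PairFib
import Vale.Agent.P335.Chain

/-! P335, general graphs: switches in slice coordinates -/

namespace VP335

open Finset

noncomputable section

open Classical

variable {n : ℕ} {d : Fin n → ℕ}

/-- `X` and `Y` differ by one switch at the vertices `u`, `v` -/
def gsw (u v : Fin n) (X Y : Rlz n d) : Prop :=
  gkey ({u, v} : Finset (Fin n)) X = gkey {u, v} Y ∧ (gU u v X \ gU u v Y).card = 1

theorem GSw_mem_gU {u v : Fin n} {X : Rlz n d} {c : Fin n} :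
    c ∈ gU u v X ↔ c ≠ u ∧ c ≠ v ∧ X.1.Adj u c ∧ ¬ X.1.Adj v c := by
  unfold gU
  rw [mem_filter]
  exact ⟨fun h => h.2, fun h => ⟨mem_univ _, h⟩⟩

theorem GSw_mem_gS {u v : Fin n} {X : Rlz n d} {c : Fin n} :
    c ∈ gS u v X ↔ c ≠ u ∧ c ≠ v ∧ (X.1.Adj u c ↔ ¬ X.1.Adj v c) := by
  unfold gS
  rw [mem_filter]
  exact ⟨fun h => h.2, fun h => ⟨mem_univ _, h⟩⟩

theorem GSw_common {u v : Fin n} (huv : u ≠ v) {X Y : Rlz n d}
    (h : gkey ({u, v} : Finset (Fin n)) X = gkey {u, v} Y) (c : Fin n)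
    (hc : X.1.Adj u c ∧ (c = v ∨ X.1.Adj v c)) : Y.1.Adj u c ∧ (c = v ∨ Y.1.Adj v c) := by
  obtain ⟨h1, h2⟩ := hc
  by_cases hcv : c = v
  · refine ⟨?_, Or.inl hcv⟩
    rw [hcv] at h1 ⊢
    exact (adj_uv_congr huv h).1 h1
  · have h3 : X.1.Adj v c := by
      rcases h2 with h2 | h2
      · exact absurd h2 hcv
      · exact h2
    have hcu : c ≠ u := fun e => X.1.loopless.irrefl u (by rw [e] at h1; exact h1)
    have hcS : c ∉ gS u v X := by
      rw [GSw_mem_gS]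
      rintro ⟨_, _, h4⟩
      exact (h4.1 h1) h3
    have h4 := adj_common_congr huv h hcu hcv hcS
    exact ⟨h4.1.1 h1, Or.inr (h4.2.1 h3)⟩

theorem GSw_deg {u v : Fin n} (X : Rlz n d) :
    (gU u v X).card + (univ.filter (fun c => X.1.Adj u c ∧ (c = v ∨ X.1.Adj v c))).card =
      d u := by
  rw [← X.2 u, ← card_union_of_disjoint]
  · refine congrArg card ?_
    ext c
    rw [mem_union, GSw_mem_gU, mem_filter, mem_filter]
    constructor
    · rintro (h | h)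
      · exact ⟨mem_univ _, h.2.2.1⟩
      · exact ⟨mem_univ _, h.2.1⟩
    · rintro ⟨_, h⟩
      have hcu : c ≠ u := fun e => X.1.loopless.irrefl u (by rw [e] at h; exact h)
      by_cases h1 : c = v
      · exact Or.inr ⟨mem_univ _, h, Or.inl h1⟩
      · by_cases h2 : X.1.Adj v c
        · exact Or.inr ⟨mem_univ _, h, Or.inr h2⟩
        · exact Or.inl ⟨hcu, h1, h, h2⟩
  · rw [disjoint_left]
    intro c hc hc'
    rw [GSw_mem_gU] at hc
    rw [mem_filter] at hc'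
    rcases hc'.2.2 with h | h
    · exact hc.2.1 h
    · exact hc.2.2.2 h

theorem GSw_card {u v : Fin n} (huv : u ≠ v) {X Y : Rlz n d}
    (h : gkey ({u, v} : Finset (Fin n)) X = gkey {u, v} Y) :
    (gU u v X).card = (gU u v Y).card := by
  have h1 := GSw_deg (u := u) (v := v) X
  have h2 := GSw_deg (u := u) (v := v) Y
  have h3 : univ.filter (fun c => X.1.Adj u c ∧ (c = v ∨ X.1.Adj v c)) =
      univ.filter (fun c => Y.1.Adj u c ∧ (c = v ∨ Y.1.Adj v c)) := by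
    refine filter_congr fun c _ => ?_
    exact ⟨GSw_common huv h c, GSw_common huv h.symm c⟩
  rw [h3] at h1
  omega

theorem GSw_logic {A B A' B' : Prop} (h1 : A ↔ ¬ B) (h2 : A' ↔ ¬ B')
    (h3 : (A ∧ ¬ B) ↔ (A' ∧ ¬ B')) : (A' ↔ A) ∧ (B' ↔ B) := by
  by_cases a : A <;> by_cases b : B <;> by_cases a' : A' <;> by_cases b' : B' <;>
    simp [a, b, a', b'] at h1 h2 h3 ⊢

/-- vertices where the `u`-parts agree -/
theorem GSw_rest {u v : Fin n} (huv : u ≠ v) {X Y : Rlz n d}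
    (hk : gkey ({u, v} : Finset (Fin n)) X = gkey {u, v} Y) {c : Fin n} (hcu : c ≠ u)
    (hcv : c ≠ v) (hU : c ∈ gU u v X ↔ c ∈ gU u v Y) :
    (Y.1.Adj u c ↔ X.1.Adj u c) ∧ (Y.1.Adj v c ↔ X.1.Adj v c) := by
  by_cases hcS : c ∈ gS u v X
  · have hcS' : c ∈ gS u v Y := (gS_congr huv hk) ▸ hcS
    have hsX := (GSw_mem_gS.1 hcS).2.2
    have hsY := (GSw_mem_gS.1 hcS').2.2
    refine GSw_logic hsX hsY ?_
    constructor
    · intro h
      exact (GSw_mem_gU.1 (hU.1 (GSw_mem_gU.2 ⟨hcu, hcv, h⟩))).2.2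
    · intro h
      exact (GSw_mem_gU.1 (hU.2 (GSw_mem_gU.2 ⟨hcu, hcv, h⟩))).2.2
  · have h1 := adj_common_congr huv hk hcu hcv hcS
    exact ⟨h1.1.symm, h1.2.symm⟩

theorem GSw_sw {u v : Fin n} (huv : u ≠ v) {X Y : Rlz n d}
    (hk : gkey ({u, v} : Finset (Fin n)) X = gkey {u, v} Y) {x : Fin n}
    (hxX : x ∈ gU u v X) (hxY : x ∉ gU u v Y) :
    x ≠ u ∧ x ≠ v ∧ X.1.Adj u x ∧ ¬ X.1.Adj v x ∧ ¬ Y.1.Adj u x ∧ Y.1.Adj v x := by
  obtain ⟨hxu, hxv, hXux, hXvx⟩ := GSw_mem_gU.1 hxX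
  have hxS : x ∈ gS u v X := GSw_mem_gS.2 ⟨hxu, hxv, fun _ => hXvx, fun _ => hXux⟩
  have hxS2 : x ∈ gS u v Y := (gS_congr huv hk) ▸ hxS
  have hxS' := GSw_mem_gS.1 hxS2
  have hYux : ¬ Y.1.Adj u x := fun e => hxY (GSw_mem_gU.2 ⟨hxu, hxv, e, hxS'.2.2.1 e⟩)
  have hYvx : Y.1.Adj v x := by
    by_contra e
    exact hYux (hxS'.2.2.2 e)
  exact ⟨hxu, hxv, hXux, hXvx, hYux, hYvx⟩

theorem GSw_Nu {u v : Fin n} (huv : u ≠ v) {X Y : Rlz n d}
    (hk : gkey ({u, v} : Finset (Fin n)) X = gkey {u, v} Y) {x y : Fin n}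
    (hx : gU u v X \ gU u v Y = {x}) (hy : gU u v Y \ gU u v X = {y}) (hxy : x ≠ y)
    (hxu : x ≠ u) (hxv : x ≠ v) (hyu : y ≠ u) (hyv : y ≠ v) (hYux : ¬ Y.1.Adj u x)
    (hYuy : Y.1.Adj u y) (q : Fin n) :
    Y.1.Adj u q ↔ (X.1.Adj u q ∧ q ≠ x) ∨ q = y := by
  by_cases h1 : q = u
  · rw [h1]
    constructor
    · intro e; exact absurd e (Y.1.loopless.irrefl u)
    · rintro (e | e)
      · exact absurd e.1 (X.1.loopless.irrefl u)
      · exact absurd e.symm hyu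
  by_cases h2 : q = v
  · rw [h2, ← adj_uv_congr huv hk]
    constructor
    · intro e; exact Or.inl ⟨e, hxv.symm⟩
    · rintro (e | e)
      · exact e.1
      · exact absurd e.symm hyv
  by_cases h3 : q = x
  · rw [h3]
    constructor
    · intro e; exact absurd e hYux
    · rintro (e | e)
      · exact absurd rfl e.2
      · exact absurd e hxy
  by_cases h4 : q = y
  · rw [h4]
    exact ⟨fun _ => Or.inr rfl, fun _ => hYuy⟩
  have hU : q ∈ gU u v X ↔ q ∈ gU u v Y := by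
    constructor
    · intro a1
      by_contra a2
      have a3 : q ∈ gU u v X \ gU u v Y := mem_sdiff.2 ⟨a1, a2⟩
      rw [hx, mem_singleton] at a3
      exact h3 a3
    · intro a1
      by_contra a2
      have a3 : q ∈ gU u v Y \ gU u v X := mem_sdiff.2 ⟨a1, a2⟩
      rw [hy, mem_singleton] at a3
      exact h4 a3
  have h5 := (GSw_rest huv hk h1 h2 hU).1
  rw [h5]
  exact ⟨fun e => Or.inl ⟨e, h3⟩, fun e => e.elim (fun e => e.1) (fun e => absurd e h4)⟩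

theorem GSw_Nv {u v : Fin n} (huv : u ≠ v) {X Y : Rlz n d}
    (hk : gkey ({u, v} : Finset (Fin n)) X = gkey {u, v} Y) {x y : Fin n}
    (hx : gU u v X \ gU u v Y = {x}) (hy : gU u v Y \ gU u v X = {y}) (hxy : x ≠ y)
    (hxu : x ≠ u) (hxv : x ≠ v) (hyu : y ≠ u) (hyv : y ≠ v) (hYvx : Y.1.Adj v x)
    (hYvy : ¬ Y.1.Adj v y) (q : Fin n) :
    Y.1.Adj v q ↔ (X.1.Adj v q ∧ q ≠ y) ∨ q = x := by
  by_cases h1 : q = u
  · rw [h1, Y.1.adj_comm, X.1.adj_comm, ← adj_uv_congr huv hk]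
    constructor
    · intro e; exact Or.inl ⟨e, hyu.symm⟩
    · rintro (e | e)
      · exact e.1
      · exact absurd e.symm hxu
  by_cases h2 : q = v
  · rw [h2]
    constructor
    · intro e; exact absurd e (Y.1.loopless.irrefl v)
    · rintro (e | e)
      · exact absurd e.1 (X.1.loopless.irrefl v)
      · exact absurd e.symm hxv
  by_cases h3 : q = x
  · rw [h3]
    exact ⟨fun _ => Or.inr rfl, fun _ => hYvx⟩
  by_cases h4 : q = y
  · rw [h4]
    constructor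
    · intro e; exact absurd e hYvy
    · rintro (e | e)
      · exact absurd rfl e.2
      · exact absurd e.symm hxy
  have hU : q ∈ gU u v X ↔ q ∈ gU u v Y := by
    constructor
    · intro a1
      by_contra a2
      have a3 : q ∈ gU u v X \ gU u v Y := mem_sdiff.2 ⟨a1, a2⟩
      rw [hx, mem_singleton] at a3
      exact h3 a3
    · intro a1
      by_contra a2
      have a3 : q ∈ gU u v Y \ gU u v X := mem_sdiff.2 ⟨a1, a2⟩
      rw [hy, mem_singleton] at a3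
      exact h4 a3
  have h5 := (GSw_rest huv hk h1 h2 hU).2
  rw [h5]
  exact ⟨fun e => Or.inl ⟨e, h4⟩, fun e => e.elim (fun e => e.1) (fun e => absurd e h3)⟩

theorem GSw_symu {u v x y q : Fin n} {A : Prop} (huv : u ≠ v) (hxu : x ≠ u) (hyu : y ≠ u) :
    ((A ∧ q ≠ x) ∨ q = y) ↔ ((A ∧ ¬ (s(u, q) = s(u, x) ∨ s(u, q) = s(v, y))) ∨
        (s(u, q) = s(u, y) ∨ s(u, q) = s(v, x))) := by
  have e1 : s(u, q) = s(u, x) ↔ q = x := by
    rw [Sym2.eq_iff]
    exact ⟨fun h => h.elim (fun h => h.2) (fun h => absurd h.1.symm hxu), fun h => Or.inl ⟨rfl, h⟩⟩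
  have e2 : ¬ s(u, q) = s(v, y) := by
    rw [Sym2.eq_iff]
    exact fun h => h.elim (fun h => huv h.1) (fun h => hyu h.1.symm)
  have e3 : s(u, q) = s(u, y) ↔ q = y := by
    rw [Sym2.eq_iff]
    exact ⟨fun h => h.elim (fun h => h.2) (fun h => absurd h.1.symm hyu), fun h => Or.inl ⟨rfl, h⟩⟩
  have e4 : ¬ s(u, q) = s(v, x) := by
    rw [Sym2.eq_iff]
    exact fun h => h.elim (fun h => huv h.1) (fun h => hxu h.1.symm)
  rw [e1, e3]
  constructor
  · rintro (⟨h1, h2⟩ | h1)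
    · exact Or.inl ⟨h1, fun h => h.elim h2 e2⟩
    · exact Or.inr (Or.inl h1)
  · rintro (⟨h1, h2⟩ | h1 | h1)
    · exact Or.inl ⟨h1, fun h => h2 (Or.inl h)⟩
    · exact Or.inr h1
    · exact absurd h1 e4

theorem GSw_main {u v : Fin n} (huv : u ≠ v) {X Y : Rlz n d}
    (hk : gkey ({u, v} : Finset (Fin n)) X = gkey {u, v} Y) {x y : Fin n}
    (hxu : x ≠ u) (hxv : x ≠ v) (hyu : y ≠ u) (hyv : y ≠ v)
    (hNu : ∀ q, Y.1.Adj u q ↔ (X.1.Adj u q ∧ q ≠ x) ∨ q = y)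
    (hNv : ∀ q, Y.1.Adj v q ↔ (X.1.Adj v q ∧ q ≠ y) ∨ q = x) (p q : Fin n) :
    Y.1.Adj p q ↔
      (X.1.Adj p q ∧ ¬ (s(p, q) = s(u, x) ∨ s(p, q) = s(v, y))) ∨
        (s(p, q) = s(u, y) ∨ s(p, q) = s(v, x)) := by
  have hu : ∀ q, Y.1.Adj u q ↔
    (X.1.Adj u q ∧ ¬ (s(u, q) = s(u, x) ∨ s(u, q) = s(v, y))) ∨
      (s(u, q) = s(u, y) ∨ s(u, q) = s(v, x)) := by
    intro q
    rw [hNu q]
    exact GSw_symu huv hxu hyu
  have hv : ∀ q, Y.1.Adj v q ↔
    (X.1.Adj v q ∧ ¬ (s(v, q) = s(u, x) ∨ s(v, q) = s(v, y))) ∨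
      (s(v, q) = s(u, y) ∨ s(v, q) = s(v, x)) := by
    intro q
    rw [hNv q, or_comm (a := s(v, q) = s(u, x)), or_comm (a := s(v, q) = s(u, y))]
    exact GSw_symu huv.symm hyv hxv
  by_cases hpu : p = u
  · rw [hpu]; exact hu q
  by_cases hpv : p = v
  · rw [hpv]; exact hv q
  by_cases hqu : q = u
  · rw [hqu, Y.1.adj_comm, X.1.adj_comm, Sym2.eq_swap]; exact hu p
  by_cases hqv : q = v
  · rw [hqv, Y.1.adj_comm, X.1.adj_comm, Sym2.eq_swap]; exact hv p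
  have hp : p ∉ ({u, v} : Finset (Fin n)) := by
    rw [mem_insert, mem_singleton]
    exact fun h => h.elim hpu hpv
  have hq : q ∉ ({u, v} : Finset (Fin n)) := by
    rw [mem_insert, mem_singleton]
    exact fun h => h.elim hqu hqv
  have h1 := (gkey_eq_iff _ X Y).1 hk p q hp hq
  have hno : ∀ a b : Fin n, (a = u ∨ a = v) → ¬ s(p, q) = s(a, b) := by
    intro a b ha h
    rw [Sym2.eq_iff] at h
    rcases h with h | h
    · rcases ha with ha | ha
      · exact hpu (h.1.trans ha)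
      · exact hpv (h.1.trans ha)
    · rcases ha with ha | ha
      · exact hqu (h.2.trans ha)
      · exact hqv (h.2.trans ha)
  rw [← h1]
  constructor
  · intro h
    exact Or.inl ⟨h, fun h' => h'.elim (hno u x (Or.inl rfl)) (hno v y (Or.inr rfl))⟩
  · rintro (h | h | h)
    · exact h.1
    · exact absurd h (hno u y (Or.inl rfl))
    · exact absurd h (hno v x (Or.inr rfl))

theorem gsw_IsSw {u v : Fin n} (huv : u ≠ v) {X Y : Rlz n d} (h : gsw u v X Y) :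
    IsSw X.1 Y.1 := by
  obtain ⟨hk, hc⟩ := h
  have hcard := GSw_card huv hk
  have hc' : (gU u v Y \ gU u v X).card = 1 := by
    have h1 := card_sdiff_add_card_inter (gU u v X) (gU u v Y)
    have h2 := card_sdiff_add_card_inter (gU u v Y) (gU u v X)
    rw [inter_comm] at h2
    omega
  obtain ⟨x, hx⟩ := card_eq_one.1 hc
  obtain ⟨y, hy⟩ := card_eq_one.1 hc'
  have hxm : x ∈ gU u v X \ gU u v Y := by rw [hx]; exact mem_singleton_self x
  have hym : y ∈ gU u v Y \ gU u v X := by rw [hy]; exact mem_singleton_self y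
  obtain ⟨hxX, hxY⟩ := mem_sdiff.1 hxm
  obtain ⟨hyY, hyX⟩ := mem_sdiff.1 hym
  have hxy : x ≠ y := fun e => hyX (e ▸ hxX)
  obtain ⟨hxu, hxv, hXux, hXvx, hYux, hYvx⟩ := GSw_sw huv hk hxX hxY
  obtain ⟨hyu, hyv, hYuy, hYvy, hXuy, hXvy⟩ := GSw_sw huv hk.symm hyY hyX
  have hNu := GSw_Nu huv hk hx hy hxy hxu hxv hyu hyv hYux hYuy
  have hNv := GSw_Nv huv hk hx hy hxy hxu hxv hyu hyv hYvx hYvy
  refine ⟨u, v, x, y, huv, hxy, hxu.symm, hyu.symm, hxv.symm, hyv.symm, hXux, hXvy, hXuy,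
    hXvx, ?_⟩
  ext e
  induction e using Sym2.ind with
  | _ p q =>
    rw [SimpleGraph.mem_edgeSet, GSw_main huv hk hxu hxv hyu hyv hNu hNv p q]
    simp only [Set.mem_union, Set.mem_diff, SimpleGraph.mem_edgeSet, Set.mem_insert_iff,
      Set.mem_singleton_iff]

end

end VP335
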