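import Vale.Agent.P335.G.PoincareG
import Vale.Agent.P335.G.GPair
import Vale.Agent.P335.Mixing
import Vale.Agent.P335.Main

/-! P335: the main theorem for all graphical degree vectors -/

namespace VP335

open Finset

noncomputable section

open Classical

/-- the Poincare inequality for the switch chain, all degree vectors -/
theorem gswitch_poincare (n : ℕ) (hn : 4 ≤ n) (d : Fin n → ℕ) (F : Rlz n d → ℝ) :
    ∑ G, (F G - mean F) ^ 2 ≤
      (2 ^ 19 * (n : ℝ) ^ 6) * ∑ G, ∑ H, switchP n d G H * (F G - F H) ^ 2 := by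
  have hC : (0 : ℝ) < n.choose 4 := by exact_mod_cast Nat.choose_pos hn
  set D : ℝ := ∑ G, ∑ H, switchP n d G H * (F G - F H) ^ 2 with hD
  have hstep : ∀ a ∈ powersetCard 2 (univ : Finset (Fin n)),
      ∑ X, (F X - gE a F X) ^ 2 ≤ (1 / 4) * ((2 * (n.choose 4 : ℝ) * 2 ^ 20) * D) := by
    intro a ha
    obtain ⟨k, l, hkl, rfl⟩ := card_eq_two.mp (mem_powersetCard.mp ha).2
    refine (gpair_switch hkl F).trans ?_
    refine mul_le_mul_of_nonneg_left ?_ (by norm_num)
    rw [hD, mul_sum]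
    refine sum_le_sum (fun G _ => ?_)
    rw [mul_sum]
    refine sum_le_sum (fun H _ => ?_)
    have hn0 := switchP_nonneg n d G H
    by_cases hsw : gsw k l G H
    · rw [if_pos hsw]
      have h3 := switchP_lower n hn d G H (gsw_IsSw hkl hsw)
      have h4 : (1 : ℝ) ≤ (2 * (n.choose 4 : ℝ) * 2 ^ 20) * switchP n d G H := by
        rw [div_le_iff₀ (by positivity)] at h3
        linarith
      rw [← mul_assoc]
      calc (F G - F H) ^ 2 = 1 * (F G - F H) ^ 2 := by ring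
        _ ≤ _ := mul_le_mul_of_nonneg_right h4 (sq_nonneg _)
    · rw [if_neg hsw]
      positivity
  have hDnn : 0 ≤ D := by
    rw [hD]
    exact sum_nonneg (fun G _ => sum_nonneg (fun H _ =>
      mul_nonneg (switchP_nonneg n d G H) (sq_nonneg _)))
  have hcard : ((powersetCard 2 (univ : Finset (Fin n))).card : ℝ) ≤ (n : ℝ) ^ 2 := by
    rw [card_powersetCard, card_univ, Fintype.card_fin]
    exact_mod_cast Nat.choose_le_pow n 2
  calc ∑ G, (F G - mean F) ^ 2
      ≤ ∑ a ∈ powersetCard 2 (univ : Finset (Fin n)), ∑ X, (F X - gE a F X) ^ 2 :=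
        gpoincare F
    _ ≤ ∑ _a ∈ powersetCard 2 (univ : Finset (Fin n)),
          (1 / 4) * ((2 * (n.choose 4 : ℝ) * 2 ^ 20) * D) := sum_le_sum hstep
    _ = ((powersetCard 2 (univ : Finset (Fin n))).card : ℝ) *
          ((1 / 4) * ((2 * (n.choose 4 : ℝ) * 2 ^ 20) * D)) := by
        rw [sum_const, nsmul_eq_mul]
    _ ≤ (n : ℝ) ^ 2 * ((1 / 4) * ((2 * (n : ℝ) ^ 4 * 2 ^ 20) * D)) := by
        have := choose_four_le n
        gcongr
    _ = (2 ^ 19 * (n : ℝ) ^ 6) * D := by ring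

/-- the mixing time of the switch chain is at most `2^20 n^8`, for every degree vector -/
theorem gmain (n : ℕ) (hn : 4 ≤ n) (d : Fin n → ℕ) :
    (∀ t : ℕ, 2 ^ 20 * n ^ 8 ≤ t → ∀ G : Rlz n d, tvDist n d t G ≤ 1 / 4) ∧
      tmix n d ≤ 2 ^ 20 * n ^ 8 := by
  have hmain : ∀ t : ℕ, 2 ^ 20 * n ^ 8 ≤ t → ∀ G : Rlz n d, tvDist n d t G ≤ 1 / 4 := by
    intro t ht G
    have : Nonempty (Rlz n d) := ⟨G⟩
    unfold tvDist
    have hn1 : (1 : ℝ) ≤ n := by
      have : 1 ≤ n := by omega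
      exact_mod_cast this
    refine mixing (switchP n d) (switchP_symm n d) (switchP_nonneg n d)
      (fun x => switchP_row_sum n hn d x) (switchP_diag n d) (2 ^ 19 * (n : ℝ) ^ 6) ?_
      (gswitch_poincare n hn d) t ?_ G
    · have : (1 : ℝ) ≤ (n : ℝ) ^ 6 := one_le_pow₀ hn1
      linarith
    · have hlog2 : Real.log 2 ≤ 1 := by
        have := Real.log_two_lt_d9
        linarith
      have hlog20 : 0 ≤ Real.log 2 := Real.log_nonneg (by norm_num)
      have hcard : Real.log (Fintype.card (Rlz n d)) ≤ (n : ℝ) ^ 2 := by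
        have h1 : (Fintype.card (Rlz n d) : ℝ) ≤ 2 ^ (n ^ 2) := by exact_mod_cast card_Rlz n d
        have h2 : (0 : ℝ) < (Fintype.card (Rlz n d) : ℝ) := by
          exact_mod_cast Fintype.card_pos
        calc Real.log (Fintype.card (Rlz n d)) ≤ Real.log (2 ^ (n ^ 2)) := Real.log_le_log h2 h1
          _ = ((n ^ 2 : ℕ) : ℝ) * Real.log 2 := by rw [Real.log_pow]
          _ ≤ ((n ^ 2 : ℕ) : ℝ) * 1 := mul_le_mul_of_nonneg_left hlog2 (by positivity)
          _ = (n : ℝ) ^ 2 := by push_cast; ring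
      have hn2 : (2 : ℝ) ≤ (n : ℝ) ^ 2 := by
        have : (4 : ℝ) ≤ n := by exact_mod_cast hn
        nlinarith
      have ht' : (2 : ℝ) ^ 20 * (n : ℝ) ^ 8 ≤ t := by exact_mod_cast ht
      calc 2 ^ 19 * (n : ℝ) ^ 6 * (2 * Real.log 2 + Real.log (Fintype.card (Rlz n d)))
          ≤ 2 ^ 19 * (n : ℝ) ^ 6 * (2 * (n : ℝ) ^ 2) := by
            refine mul_le_mul_of_nonneg_left ?_ (by positivity)
            linarith
        _ = 2 ^ 20 * (n : ℝ) ^ 8 := by ring
        _ ≤ t := ht'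
  exact ⟨hmain, Nat.sInf_le (fun G => hmain _ le_rfl G)⟩

end

end VP335
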