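import Vale.Agent.P335.G.Base

/-! P335, general graphs: keys of two disjoint sets -/

namespace VP335

open Finset

noncomputable section

open Classical

variable {n : ℕ} {d : Fin n → ℕ}

theorem MixA_gt_sum (e f : Finset (Fin n)) (X : Rlz n d) :
    gt e f X = ∑ q ∈ f, (e.filter (fun p => X.1.Adj q p)).card := by
  unfold gt
  rw [card_filter, sum_product, sum_comm]
  refine sum_congr rfl (fun q _ => ?_)
  rw [card_filter]
  refine sum_congr rfl (fun p _ => ?_)
  by_cases h : X.1.Adj q p
  · rw [if_pos h, if_pos h.symm]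
  · rw [if_neg h, if_neg (fun h' => h h'.symm)]

theorem MixA_gt_sum' (e f : Finset (Fin n)) (X : Rlz n d) :
    gt e f X = ∑ p ∈ e, (f.filter (fun q => X.1.Adj p q)).card := by
  unfold gt
  rw [card_filter, sum_product]
  refine sum_congr rfl (fun q _ => ?_)
  rw [card_filter]

theorem gt_symm (e f : Finset (Fin n)) (X : Rlz n d) : gt e f X = gt f e X := by
  rw [MixA_gt_sum, MixA_gt_sum']

theorem bkey_symm (e f : Finset (Fin n)) (X : Rlz n d) : bkey e f X = bkey f e X := by
  funext p q
  apply propext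
  unfold bkey
  rw [gt_symm e f X, btw_symm e f p q]

/-- the number of edges between `e` and `f` is determined by the edges not meeting `e` -/
theorem gt_congr {e f : Finset (Fin n)} (hef : Disjoint e f) {X Y : Rlz n d}
    (h : gkey e X = gkey e Y) : gt e f X = gt e f Y := by
  rw [MixA_gt_sum, MixA_gt_sum]
  refine sum_congr rfl (fun q hq => ?_)
  exact gkey_count h (fun hqe => (disjoint_left.mp hef) hqe hq)

theorem MixA_pair {u v : Fin n} (huv : u ≠ v) (P : Fin n → Prop) :
    (({u, v} : Finset (Fin n)).filter P).card = (if P u then 1 else 0) + (if P v then 1 else 0) := by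
  rw [card_filter, sum_pair huv]

theorem MixA_key (a b c d a' b' c' d' : ℕ) (h1 : a ≤ 1) (h2 : b ≤ 1) (h3 : c ≤ 1) (h4 : d ≤ 1)
    (h1' : a' ≤ 1) (h2' : b' ≤ 1) (h3' : c' ≤ 1) (h4' : d' ≤ 1) (e1 : a + b = a' + b')
    (e2 : c + d = c' + d') (e3 : a + c = a' + c') (e4 : b + d = b' + d')
    (e5 : a + b + (c + d) ≠ 2) : a = a' ∧ b = b' ∧ c = c' ∧ d = d' := by
  omega

theorem MixA_le (P : Prop) : (if P then 1 else 0) ≤ 1 := by
  split_ifs <;> norm_num

theorem MixA_iff {P Q : Prop} (h : (if P then 1 else 0) = (if Q then 1 else 0)) : (P ↔ Q) := by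
  by_cases hP : P
  · by_cases hQ : Q
    · exact ⟨fun _ => hQ, fun _ => hP⟩
    · rw [if_pos hP, if_neg hQ] at h
      exact absurd h (by norm_num)
  · by_cases hQ : Q
    · rw [if_neg hP, if_pos hQ] at h
      exact absurd h (by norm_num)
    · exact ⟨fun h => absurd h hP, fun h => absurd h hQ⟩

theorem mix_inj {e f : Finset (Fin n)} (hef : Disjoint e f) (he : e.card = 2) (hf : f.card = 2)
    {X Y : Rlz n d} (h1 : gkey e X = gkey e Y) (h2 : gkey f X = gkey f Y)
    (h3 : bkey e f X = bkey e f Y) : X = Y := by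
  have hcross : ∀ p ∈ e, ∀ q ∈ f, (X.1.Adj p q ↔ Y.1.Adj p q) := by
    by_cases hgt : gt e f X = 2
    · have hgtY : gt e f Y = 2 := by rw [← gt_congr hef h1]; exact hgt
      intro p hp q hq
      have h4 := congrFun (congrFun h3 p) q
      unfold bkey at h4
      have h5 : btw e f p q := Or.inl ⟨hp, hq⟩
      rw [eq_iff_iff] at h4
      constructor
      · intro h6
        exact (h4.mp ⟨hgt, h5, h6⟩).2.2
      · intro h6
        exact (h4.mpr ⟨hgtY, h5, h6⟩).2.2
    · have hrow : ∀ p ∈ e, (f.filter (fun q => X.1.Adj p q)).card =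
          (f.filter (fun q => Y.1.Adj p q)).card := fun p hp =>
        gkey_count h2 (fun hpf => (disjoint_left.mp hef) hp hpf)
      have hcol : ∀ q ∈ f, (e.filter (fun p => X.1.Adj q p)).card =
          (e.filter (fun p => Y.1.Adj q p)).card := fun q hq =>
        gkey_count h1 (fun hqe => (disjoint_left.mp hef) hqe hq)
      rw [MixA_gt_sum'] at hgt
      obtain ⟨u, v, huv, rfl⟩ := card_eq_two.mp he
      obtain ⟨w, x, hwx, rfl⟩ := card_eq_two.mp hf
      have r1 := hrow u (by simp)
      have r2 := hrow v (by simp)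
      have c1 := hcol w (by simp)
      have c2 := hcol x (by simp)
      rw [sum_pair huv] at hgt
      simp only [MixA_pair hwx, MixA_pair huv] at r1 r2 c1 c2 hgt
      simp only [X.1.adj_comm w, X.1.adj_comm x, Y.1.adj_comm w, Y.1.adj_comm x] at c1 c2
      obtain ⟨k1, k2, k3, k4⟩ := MixA_key _ _ _ _ _ _ _ _ (MixA_le (X.1.Adj u w))
        (MixA_le (X.1.Adj u x)) (MixA_le (X.1.Adj v w)) (MixA_le (X.1.Adj v x))
        (MixA_le (Y.1.Adj u w)) (MixA_le (Y.1.Adj u x)) (MixA_le (Y.1.Adj v w))
        (MixA_le (Y.1.Adj v x)) r1 r2 c1 c2 hgt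
      intro p hp q hq
      simp only [mem_insert, mem_singleton] at hp hq
      rcases hp with rfl | rfl <;> rcases hq with rfl | rfl
      · exact MixA_iff k1
      · exact MixA_iff k2
      · exact MixA_iff k3
      · exact MixA_iff k4
  rw [gkey_eq_iff] at h1 h2
  apply Rlz_ext
  intro p q
  by_cases hpe : p ∈ e
  · by_cases hqf : q ∈ f
    · exact hcross p hpe q hqf
    · exact h2 p q (fun h => (disjoint_left.mp hef) hpe h) hqf
  · by_cases hqe : q ∈ e
    · by_cases hpf : p ∈ f
      · rw [X.1.adj_comm, Y.1.adj_comm]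
        exact hcross q hqe p hpf
      · exact h2 p q hpf (fun h => (disjoint_left.mp hef) hqe h)
    · exact h1 p q hpe hqe

end

end VP335
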