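import Vale.Agent.P335.G.Base

/-! P335, general graphs: the classes of one pair are Johnson slices -/

namespace VP335

open Finset

noncomputable section

open Classical

variable {n : ℕ} {d : Fin n → ℕ}

theorem pairfib_mem {u v c : Fin n} : c ∉ ({u, v} : Finset (Fin n)) ↔ c ≠ u ∧ c ≠ v := by
  simp

theorem pairfib_count {u v : Fin n} (huv : u ≠ v) {X Y : Rlz n d}
    (h : gkey ({u, v} : Finset (Fin n)) X = gkey {u, v} Y) {c : Fin n} (hcu : c ≠ u) (hcv : c ≠ v) :
    ((if X.1.Adj u c then 1 else 0) + (if X.1.Adj v c then 1 else 0) : ℕ) =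
      (if Y.1.Adj u c then 1 else 0) + (if Y.1.Adj v c then 1 else 0) := by
  have hc : c ∉ ({u, v} : Finset (Fin n)) := pairfib_mem.2 ⟨hcu, hcv⟩
  have h1 := gkey_count h hc
  simp only [card_filter, sum_pair huv] at h1
  rw [X.1.adj_comm u c, X.1.adj_comm v c, Y.1.adj_comm u c, Y.1.adj_comm v c]
  exact h1

theorem pairfib_cases {u v : Fin n} (huv : u ≠ v) {X Y : Rlz n d}
    (h : gkey ({u, v} : Finset (Fin n)) X = gkey {u, v} Y) {c : Fin n} (hcu : c ≠ u) (hcv : c ≠ v) :
    ((X.1.Adj u c ↔ ¬ X.1.Adj v c) ↔ (Y.1.Adj u c ↔ ¬ Y.1.Adj v c)) ∧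
    (¬ (X.1.Adj u c ↔ ¬ X.1.Adj v c) →
      (X.1.Adj u c ↔ Y.1.Adj u c) ∧ (X.1.Adj v c ↔ Y.1.Adj v c)) := by
  have h1 := pairfib_count huv h hcu hcv
  by_cases a1 : X.1.Adj u c <;> by_cases a2 : X.1.Adj v c <;>
    by_cases a3 : Y.1.Adj u c <;> by_cases a4 : Y.1.Adj v c <;>
    simp [a1, a2, a3, a4] at h1 ⊢

/-- `gS` is constant on the classes -/
theorem gS_congr {u v : Fin n} (huv : u ≠ v) {X Y : Rlz n d}
    (h : gkey ({u, v} : Finset (Fin n)) X = gkey {u, v} Y) : gS u v X = gS u v Y := by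
  unfold gS
  ext c
  simp only [mem_filter, mem_univ, true_and]
  constructor
  · rintro ⟨h1, h2, h3⟩
    exact ⟨h1, h2, (pairfib_cases huv h h1 h2).1.1 h3⟩
  · rintro ⟨h1, h2, h3⟩
    exact ⟨h1, h2, (pairfib_cases huv h h1 h2).1.2 h3⟩

theorem pairfib_sum (u v : Fin n) (huv : u ≠ v) (f : Fin n → ℕ) :
    ∑ c, f c = f u + f v + ∑ c ∈ (univ : Finset (Fin n)) \ {u, v}, f c := by
  have h := Finset.sum_sdiff (f := f) (subset_univ ({u, v} : Finset (Fin n)))
  rw [sum_pair huv] at h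
  rw [← h]
  ring

theorem adj_uv_congr {u v : Fin n} (huv : u ≠ v) {X Y : Rlz n d}
    (h : gkey ({u, v} : Finset (Fin n)) X = gkey {u, v} Y) : (X.1.Adj u v ↔ Y.1.Adj u v) := by
  have key : ∀ Z : Rlz n d, d u + d v = 2 * (if Z.1.Adj u v then 1 else 0) +
      ∑ c ∈ (univ : Finset (Fin n)) \ {u, v},
        ((if Z.1.Adj u c then 1 else 0) + (if Z.1.Adj v c then 1 else 0)) := by
    intro Z
    rw [← Z.2 u, ← Z.2 v, card_filter, card_filter, ← sum_add_distrib, pairfib_sum u v huv]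
    have e1 : ¬ Z.1.Adj u u := Z.1.loopless.irrefl u
    have e2 : ¬ Z.1.Adj v v := Z.1.loopless.irrefl v
    rw [Z.1.adj_comm v u]
    simp only [e1, e2, if_false]
    ring
  have h1 := key X
  rw [key Y] at h1
  have h2 : ∑ c ∈ (univ : Finset (Fin n)) \ {u, v},
        ((if X.1.Adj u c then 1 else 0) + (if X.1.Adj v c then 1 else 0)) =
      ∑ c ∈ (univ : Finset (Fin n)) \ {u, v},
        ((if Y.1.Adj u c then 1 else 0) + (if Y.1.Adj v c then 1 else 0)) := by
    refine sum_congr rfl fun c hc => ?_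
    have hc' := pairfib_mem.1 (mem_sdiff.1 hc).2
    exact pairfib_count huv h hc'.1 hc'.2
  rw [h2] at h1
  by_cases a1 : X.1.Adj u v <;> by_cases a2 : Y.1.Adj u v <;> simp [a1, a2] at h1 ⊢

/-- a vertex outside `gS u v X` keeps its adjacencies to `u` and `v` -/
theorem adj_common_congr {u v : Fin n} (huv : u ≠ v) {X Y : Rlz n d}
    (h : gkey ({u, v} : Finset (Fin n)) X = gkey {u, v} Y) {c : Fin n} (hcu : c ≠ u) (hcv : c ≠ v)
    (hc : c ∉ gS u v X) : (X.1.Adj u c ↔ Y.1.Adj u c) ∧ (X.1.Adj v c ↔ Y.1.Adj v c) := by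
  refine (pairfib_cases huv h hcu hcv).2 fun h3 => hc ?_
  unfold gS
  simp only [mem_filter, mem_univ, true_and]
  exact ⟨hcu, hcv, h3⟩

theorem pairfib_unique {u v : Fin n} (huv : u ≠ v) {X Y : Rlz n d}
    (h : gkey ({u, v} : Finset (Fin n)) X = gkey {u, v} Y) (hU : gU u v X = gU u v Y) : X = Y := by
  have hS := gS_congr huv h
  have key : ∀ c, (X.1.Adj u c ↔ Y.1.Adj u c) ∧ (X.1.Adj v c ↔ Y.1.Adj v c) := by
    intro c
    by_cases hcu : c = u
    · subst hcu
      refine ⟨by simp, ?_⟩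
      rw [X.1.adj_comm, Y.1.adj_comm]
      exact adj_uv_congr huv h
    by_cases hcv : c = v
    · subst hcv
      exact ⟨adj_uv_congr huv h, by simp⟩
    by_cases hc : c ∈ gS u v X
    · have h1 : c ∈ gU u v X ↔ c ∈ gU u v Y := by rw [hU]
      have h2 : c ∈ gS u v Y := hS ▸ hc
      unfold gU at h1
      unfold gS at hc h2
      simp only [mem_filter, mem_univ, true_and, hcu, hcv, ne_eq, not_false_eq_true] at h1 hc h2
      tauto
    · exact adj_common_congr huv h hcu hcv hc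
  apply Rlz_ext
  intro p q
  by_cases hpu : p = u
  · rw [hpu]; exact (key q).1
  by_cases hpv : p = v
  · rw [hpv]; exact (key q).2
  by_cases hqu : q = u
  · rw [hqu, X.1.adj_comm, Y.1.adj_comm]; exact (key p).1
  by_cases hqv : q = v
  · rw [hqv, X.1.adj_comm, Y.1.adj_comm]; exact (key p).2
  exact (gkey_eq_iff _ X Y).1 h p q (pairfib_mem.2 ⟨hpu, hpv⟩) (pairfib_mem.2 ⟨hqu, hqv⟩)

theorem pairfib_gU_sub (u v : Fin n) (X : Rlz n d) : gU u v X ⊆ gS u v X := by
  intro c hc
  unfold gU at hc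
  unfold gS
  simp only [mem_filter, mem_univ, true_and] at hc ⊢
  tauto

theorem pairfib_card {u v : Fin n} (huv : u ≠ v) {X Y : Rlz n d}
    (h : gkey ({u, v} : Finset (Fin n)) X = gkey {u, v} Y) :
    (gU u v X).card = (gU u v Y).card := by
  have key : ∀ Z : Rlz n d, d u = (if Z.1.Adj u v then 1 else 0) + ((gU u v Z).card +
      (univ.filter (fun c => c ≠ u ∧ c ≠ v ∧ Z.1.Adj u c ∧ Z.1.Adj v c)).card) := by
    intro Z
    rw [← Z.2 u, card_filter, pairfib_sum u v huv]
    have e1 : ¬ Z.1.Adj u u := Z.1.loopless.irrefl u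
    simp only [e1, if_false, zero_add]
    congr 1
    unfold gU
    rw [← card_union_of_disjoint]
    · rw [← card_filter]
      congr 1
      ext c
      simp only [mem_filter, mem_univ, true_and, mem_union, mem_sdiff, mem_insert, mem_singleton]
      tauto
    · rw [disjoint_left]
      intro c hc hc'
      simp only [mem_filter, mem_univ, true_and] at hc hc'
      tauto
  have h1 := key X
  rw [key Y] at h1
  have h2 : univ.filter (fun c => c ≠ u ∧ c ≠ v ∧ X.1.Adj u c ∧ X.1.Adj v c) =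
      univ.filter (fun c => c ≠ u ∧ c ≠ v ∧ Y.1.Adj u c ∧ Y.1.Adj v c) := by
    refine filter_congr fun c _ => ?_
    constructor
    · rintro ⟨a1, a2, a3, a4⟩
      have := (pairfib_cases huv h a1 a2).2 (by tauto)
      tauto
    · rintro ⟨a1, a2, a3, a4⟩
      have := (pairfib_cases huv h.symm a1 a2).2 (by tauto)
      tauto
  have h3 := adj_uv_congr huv h
  rw [h2] at h1
  by_cases a1 : Y.1.Adj u v
  · have a2 : X.1.Adj u v := h3.2 a1
    simp only [a1, a2, if_true] at h1
    omega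
  · have a2 : ¬ X.1.Adj u v := fun h' => a1 (h3.1 h')
    simp only [a1, a2, if_false] at h1
    omega

/-- the modified adjacency relation -/
def pairfib_adj (u v : Fin n) (X0 : Rlz n d) (σ : Finset (Fin n)) (p q : Fin n) : Prop :=
  if p = u ∧ q ∈ gS u v X0 then q ∈ σ
  else if q = u ∧ p ∈ gS u v X0 then p ∈ σ
  else if p = v ∧ q ∈ gS u v X0 then q ∉ σ
  else if q = v ∧ p ∈ gS u v X0 then p ∉ σ
  else X0.1.Adj p q

theorem pairfib_gS_ne {u v c : Fin n} {X0 : Rlz n d} (h : c ∈ gS u v X0) : c ≠ u ∧ c ≠ v := by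
  unfold gS at h
  simp only [mem_filter, mem_univ, true_and] at h
  exact ⟨h.1, h.2.1⟩

theorem pairfib_adj_symm {u v : Fin n} (_huv : u ≠ v) (X0 : Rlz n d) (σ : Finset (Fin n))
    (p q : Fin n) : pairfib_adj u v X0 σ p q ↔ pairfib_adj u v X0 σ q p := by
  unfold pairfib_adj
  by_cases h1 : p = u
  · subst h1
    have hp : p ∉ gS p v X0 := fun h => (pairfib_gS_ne h).1 rfl
    by_cases h2 : q ∈ gS p v X0
    · simp [h2, hp]
    · simp [h2, hp, X0.1.adj_comm]
  · by_cases h3 : q = u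
    · subst h3
      have hq : q ∉ gS q v X0 := fun h => (pairfib_gS_ne h).1 rfl
      by_cases h2 : p ∈ gS q v X0
      · simp [h2, hq, h1]
      · simp [h2, hq, h1, X0.1.adj_comm]
    · by_cases h4 : p = v
      · subst h4
        have hp : p ∉ gS u p X0 := fun h => (pairfib_gS_ne h).2 rfl
        by_cases h2 : q ∈ gS u p X0
        · simp [h2, hp, h1, h3]
        · simp [h2, hp, h1, h3, X0.1.adj_comm]
      · by_cases h5 : q = v
        · subst h5
          have hq : q ∉ gS u q X0 := fun h => (pairfib_gS_ne h).2 rfl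
          by_cases h2 : p ∈ gS u q X0
          · simp [h2, hq, h1, h3]
          · simp [h2, hq, h1, h3, X0.1.adj_comm]
        · simp [h1, h3, h4, h5, X0.1.adj_comm]

theorem pairfib_adj_u {u v : Fin n} (huv : u ≠ v) (X0 : Rlz n d) (σ : Finset (Fin n))
    (c : Fin n) : pairfib_adj u v X0 σ u c ↔
      (c ∈ gS u v X0 ∧ c ∈ σ) ∨ (c ∉ gS u v X0 ∧ X0.1.Adj u c) := by
  have hu : u ∉ gS u v X0 := fun h => (pairfib_gS_ne h).1 rfl
  unfold pairfib_adj
  by_cases h : c ∈ gS u v X0 <;> simp [h, hu]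

theorem pairfib_adj_v {u v : Fin n} (huv : u ≠ v) (X0 : Rlz n d) (σ : Finset (Fin n))
    (c : Fin n) : pairfib_adj u v X0 σ v c ↔
      (c ∈ gS u v X0 ∧ c ∉ σ) ∨ (c ∉ gS u v X0 ∧ X0.1.Adj v c) := by
  have hv : v ∉ gS u v X0 := fun h => (pairfib_gS_ne h).2 rfl
  unfold pairfib_adj
  by_cases h : c ∈ gS u v X0 <;> simp [h, hv, huv.symm]

theorem pairfib_adj_off {u v : Fin n} (X0 : Rlz n d) (σ : Finset (Fin n))
    {p q : Fin n} (hp : p ≠ u ∧ p ≠ v) (hq : q ≠ u ∧ q ≠ v) :
    pairfib_adj u v X0 σ p q ↔ X0.1.Adj p q := by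
  unfold pairfib_adj
  simp [hp.1, hp.2, hq.1, hq.2]

theorem pairfib_deg_u {u v : Fin n} (huv : u ≠ v) (X0 : Rlz n d) (σ : Finset (Fin n))
    (hσ : σ ⊆ gS u v X0) (hc : σ.card = (gU u v X0).card) :
    (univ.filter (fun q => pairfib_adj u v X0 σ u q)).card = d u := by
  have hA : univ.filter (fun q => pairfib_adj u v X0 σ u q) =
      σ ∪ univ.filter (fun q => q ∉ gS u v X0 ∧ X0.1.Adj u q) := by
    ext c
    simp only [mem_filter, mem_univ, true_and, mem_union, pairfib_adj_u huv]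
    constructor
    · rintro (h | h)
      · exact Or.inl h.2
      · exact Or.inr h
    · rintro (h | h)
      · exact Or.inl ⟨hσ h, h⟩
      · exact Or.inr h
  have hB : univ.filter (fun q => X0.1.Adj u q) =
      gU u v X0 ∪ univ.filter (fun q => q ∉ gS u v X0 ∧ X0.1.Adj u q) := by
    ext c
    unfold gU gS
    simp only [mem_filter, mem_univ, true_and, mem_union]
    constructor
    · intro h
      have : c ≠ u := by rintro rfl; exact X0.1.loopless.irrefl _ h
      tauto
    · tauto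
  have d1 : Disjoint σ (univ.filter (fun q => q ∉ gS u v X0 ∧ X0.1.Adj u q)) := by
    rw [disjoint_left]
    intro c h h'
    simp only [mem_filter, mem_univ, true_and] at h'
    exact h'.1 (hσ h)
  have d2 : Disjoint (gU u v X0) (univ.filter (fun q => q ∉ gS u v X0 ∧ X0.1.Adj u q)) := by
    rw [disjoint_left]
    intro c h h'
    simp only [mem_filter, mem_univ, true_and] at h'
    exact h'.1 (pairfib_gU_sub u v X0 h)
  rw [← X0.2 u, hA, hB, card_union_of_disjoint d1, card_union_of_disjoint d2, hc]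

theorem pairfib_deg_v {u v : Fin n} (huv : u ≠ v) (X0 : Rlz n d) (σ : Finset (Fin n))
    (hσ : σ ⊆ gS u v X0) (hc : σ.card = (gU u v X0).card) :
    (univ.filter (fun q => pairfib_adj u v X0 σ v q)).card = d v := by
  have hA : univ.filter (fun q => pairfib_adj u v X0 σ v q) =
      (gS u v X0 \ σ) ∪ univ.filter (fun q => q ∉ gS u v X0 ∧ X0.1.Adj v q) := by
    ext c
    simp only [mem_filter, mem_univ, true_and, mem_union, pairfib_adj_v huv, mem_sdiff]
  have hB : univ.filter (fun q => X0.1.Adj v q) =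
      (gS u v X0 \ gU u v X0) ∪ univ.filter (fun q => q ∉ gS u v X0 ∧ X0.1.Adj v q) := by
    ext c
    unfold gU gS
    simp only [mem_filter, mem_univ, true_and, mem_union, mem_sdiff]
    constructor
    · intro h
      have : c ≠ v := by rintro rfl; exact X0.1.loopless.irrefl _ h
      tauto
    · tauto
  have d1 : Disjoint (gS u v X0 \ σ) (univ.filter (fun q => q ∉ gS u v X0 ∧ X0.1.Adj v q)) := by
    rw [disjoint_left]
    intro c h h'
    simp only [mem_filter, mem_univ, true_and] at h'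
    exact h'.1 (mem_sdiff.1 h).1
  have d2 : Disjoint (gS u v X0 \ gU u v X0)
      (univ.filter (fun q => q ∉ gS u v X0 ∧ X0.1.Adj v q)) := by
    rw [disjoint_left]
    intro c h h'
    simp only [mem_filter, mem_univ, true_and] at h'
    exact h'.1 (mem_sdiff.1 h).1
  rw [← X0.2 v, hA, hB, card_union_of_disjoint d1, card_union_of_disjoint d2,
    card_sdiff_of_subset hσ, card_sdiff_of_subset (pairfib_gU_sub u v X0), hc]

theorem pairfib_deg_off {u v : Fin n} (huv : u ≠ v) (X0 : Rlz n d) (σ : Finset (Fin n))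
    {c : Fin n} (hc : c ≠ u ∧ c ≠ v) :
    (univ.filter (fun q => pairfib_adj u v X0 σ c q)).card = d c := by
  rw [← X0.2 c, card_filter, card_filter, pairfib_sum u v huv, pairfib_sum u v huv]
  congr 1
  · rw [X0.1.adj_comm c u, X0.1.adj_comm c v, pairfib_adj_symm huv X0 σ c u,
      pairfib_adj_symm huv X0 σ c v, pairfib_adj_u huv, pairfib_adj_v huv]
    by_cases h : c ∈ gS u v X0
    · have h' := h
      unfold gS at h'
      simp only [mem_filter, mem_univ, true_and] at h'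
      by_cases a1 : c ∈ σ <;> by_cases a2 : X0.1.Adj u c <;> by_cases a3 : X0.1.Adj v c <;>
        simp [h, a1, a2, a3] at h' ⊢
    · simp [h]
  · refine sum_congr rfl fun q hq => ?_
    have hq' := pairfib_mem.1 (mem_sdiff.1 hq).2
    rw [pairfib_adj_off X0 σ hc hq']

theorem pairfib_exists {u v : Fin n} (huv : u ≠ v) (X0 : Rlz n d) {σ : Finset (Fin n)}
    (hσ : σ ∈ powersetCard (gU u v X0).card (gS u v X0)) :
    ∃ Y : Rlz n d, gkey ({u, v} : Finset (Fin n)) Y = gkey {u, v} X0 ∧ gU u v Y = σ := by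
  rw [mem_powersetCard] at hσ
  obtain ⟨h1, h2⟩ := hσ
  have hl : ∀ p, ¬ pairfib_adj u v X0 σ p p := by
    intro p hp
    unfold pairfib_adj at hp
    by_cases hpS : p ∈ gS u v X0
    · have := pairfib_gS_ne hpS
      simp [this.1, this.2] at hp
    · simp [hpS] at hp
  have hd : ∀ p, (univ.filter (fun q => pairfib_adj u v X0 σ p q)).card = d p := by
    intro p
    by_cases hpu : p = u
    · rw [hpu]; exact pairfib_deg_u huv X0 σ h1 h2
    by_cases hpv : p = v
    · rw [hpv]; exact pairfib_deg_v huv X0 σ h1 h2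
    exact pairfib_deg_off huv X0 σ ⟨hpu, hpv⟩
  let G : SimpleGraph (Fin n) :=
    { Adj := pairfib_adj u v X0 σ
      symm := ⟨fun p q h => (pairfib_adj_symm huv X0 σ p q).1 h⟩
      loopless := ⟨hl⟩ }
  have hY : ∃ Y : Rlz n d, ∀ p q, Y.1.Adj p q ↔ pairfib_adj u v X0 σ p q :=
    ⟨⟨G, hd⟩, fun p q => Iff.rfl⟩
  obtain ⟨Y, hY⟩ := hY
  refine ⟨Y, ?_, ?_⟩
  · rw [gkey_eq_iff]
    intro p q hp hq
    rw [hY]
    exact pairfib_adj_off X0 σ (pairfib_mem.1 hp) (pairfib_mem.1 hq)
  · ext c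
    have e1 : Y.1.Adj u c ↔ (c ∈ gS u v X0 ∧ c ∈ σ) ∨ (c ∉ gS u v X0 ∧ X0.1.Adj u c) :=
      (hY u c).trans (pairfib_adj_u huv X0 σ c)
    have e2 : Y.1.Adj v c ↔ (c ∈ gS u v X0 ∧ c ∉ σ) ∨ (c ∉ gS u v X0 ∧ X0.1.Adj v c) :=
      (hY v c).trans (pairfib_adj_v huv X0 σ c)
    unfold gU
    simp only [mem_filter, mem_univ, true_and]
    rw [e1, e2]
    constructor
    · rintro ⟨a1, a2, a3, a4⟩
      by_cases hc : c ∈ gS u v X0
      · tauto
      · exfalso
        have : c ∈ gS u v X0 := by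
          unfold gS
          simp only [mem_filter, mem_univ, true_and]
          tauto
        exact hc this
    · intro hc
      have hcS := h1 hc
      have := pairfib_gS_ne hcS
      tauto

/-- parametrisation of the class of `X0` by the subsets of `gS u v X0` of the right size -/
theorem pair_param {u v : Fin n} (huv : u ≠ v) (X0 : Rlz n d) :
    ∃ mk : Finset (Fin n) → Rlz n d,
      (∀ σ ∈ powersetCard (gU u v X0).card (gS u v X0),
        gkey ({u, v} : Finset (Fin n)) (mk σ) = gkey {u, v} X0 ∧ gU u v (mk σ) = σ) ∧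
      (∀ Y : Rlz n d, gkey ({u, v} : Finset (Fin n)) Y = gkey {u, v} X0 →
        gU u v Y ∈ powersetCard (gU u v X0).card (gS u v X0) ∧ mk (gU u v Y) = Y) := by
  refine ⟨fun σ => if h : ∃ Y : Rlz n d, gkey ({u, v} : Finset (Fin n)) Y = gkey {u, v} X0 ∧
    gU u v Y = σ then h.choose else X0, ?_, ?_⟩
  · intro σ hσ
    have h := pairfib_exists huv X0 hσ
    simp only [dif_pos h]
    exact h.choose_spec
  · intro Y hY
    have h : ∃ Z : Rlz n d, gkey ({u, v} : Finset (Fin n)) Z = gkey {u, v} X0 ∧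
      gU u v Z = gU u v Y := ⟨Y, hY, rfl⟩
    refine ⟨?_, ?_⟩
    · rw [mem_powersetCard]
      refine ⟨?_, pairfib_card huv hY⟩
      rw [← gS_congr huv hY]
      exact pairfib_gU_sub u v Y
    · simp only [dif_pos h]
      exact pairfib_unique huv (h.choose_spec.1.trans hY.symm) h.choose_spec.2

end

end VP335
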