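import Vale.Agent.P335.G.Base

/-! P335, general graphs: a quadratic function on a slice -/

namespace VP335

open Finset

noncomputable section

open Classical

variable {ι : Type*} [Fintype ι]

/-- the sum of `g` over the pairs separated by `σ` -/
def sepSum (O : Finset ι) (g : ι → ι → ℝ) (σ : Finset ι) : ℝ :=
  ∑ w ∈ σ, ∑ x ∈ O \ σ, g w x

end

end VP335
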