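import Vale.Agent.P335.G.SepSum

/-! P335, general graphs: binomial relations -/

namespace VP335

open Finset

noncomputable section

open Classical

theorem sliceBinom_core (p q : ℕ) :
    ((p + q).choose p : ℝ) * (((p : ℝ) + q + 2) * ((p : ℝ) + q + 1)) =
      ((p : ℝ) + 1) * ((q : ℝ) + 1) * ((p + q + 2).choose (p + 1) : ℝ) := by
  have h1 : ((p + q).choose p : ℝ) * ((p.factorial : ℝ) * (q.factorial : ℝ)) =
      ((p + q).factorial : ℝ) := by
    have h := Nat.add_choose_mul_factorial_mul_factorial q p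
    rw [add_comm q p] at h
    have h' : (((p + q).choose p * q.factorial * p.factorial : ℕ) : ℝ) = ((p + q).factorial : ℕ) := by
      rw [h]
    push_cast at h'
    linarith
  have h2 : ((p + q + 2).choose (p + 1) : ℝ) * (((p + 1).factorial : ℝ) * ((q + 1).factorial : ℝ)) =
      ((p + q + 2).factorial : ℝ) := by
    have h := Nat.add_choose_mul_factorial_mul_factorial (q + 1) (p + 1)
    have e : q + 1 + (p + 1) = p + q + 2 := by omega
    rw [e] at h
    have h' : (((p + q + 2).choose (p + 1) * (q + 1).factorial * (p + 1).factorial : ℕ) : ℝ) =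
        ((p + q + 2).factorial : ℕ) := by
      rw [h]
    push_cast at h'
    linarith
  have e1 : ((p + q + 2).factorial : ℝ) = ((p : ℝ) + q + 2) * (((p : ℝ) + q + 1) *
      ((p + q).factorial : ℝ)) := by
    rw [show p + q + 2 = (p + q + 1) + 1 by omega, Nat.factorial_succ, Nat.factorial_succ]
    push_cast
    ring
  have e2 : ((p + 1).factorial : ℝ) = ((p : ℝ) + 1) * (p.factorial : ℝ) := by
    rw [Nat.factorial_succ]; push_cast; ring
  have e3 : ((q + 1).factorial : ℝ) = ((q : ℝ) + 1) * (q.factorial : ℝ) := by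
    rw [Nat.factorial_succ]; push_cast; ring
  have hp : (p.factorial : ℝ) * (q.factorial : ℝ) ≠ 0 := by positivity
  rw [e1, e2, e3, ← h1] at h2
  apply mul_right_cancel₀ hp
  linear_combination -h2

/-- binomial relations -/
theorem slice_binom (a b : ℕ) (ha : 1 ≤ a) (hb : 1 ≤ b) (M Y Y4 : ℝ)
    (hM : M = ((a + b).choose a : ℝ)) (hY : Y = ((a + b - 2).choose (a - 1) : ℝ))
    (hY4 : Y4 = if 2 ≤ a ∧ 2 ≤ b then ((a + b - 4).choose (a - 2) : ℝ) else 0) :
    Y * (((a + b : ℕ) : ℝ) * (((a + b : ℕ) : ℝ) - 1)) = a * b * M ∧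
      Y4 * ((((a + b : ℕ) : ℝ) - 2) * (((a + b : ℕ) : ℝ) - 3)) = ((a : ℝ) - 1) * ((b : ℝ) - 1) * Y := by
  obtain ⟨p, rfl⟩ : ∃ p, a = p + 1 := ⟨a - 1, by omega⟩
  obtain ⟨q, rfl⟩ : ∃ q, b = q + 1 := ⟨b - 1, by omega⟩
  constructor
  · have h := sliceBinom_core p q
    rw [hM, hY]
    rw [show p + 1 + (q + 1) - 2 = p + q by omega, show p + 1 - 1 = p by omega,
      show p + 1 + (q + 1) = p + q + 2 by omega]
    push_cast
    linear_combination h
  · by_cases hc : 2 ≤ p + 1 ∧ 2 ≤ q + 1
    · obtain ⟨p', rfl⟩ : ∃ p', p = p' + 1 := ⟨p - 1, by omega⟩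
      obtain ⟨q', rfl⟩ : ∃ q', q = q' + 1 := ⟨q - 1, by omega⟩
      rw [if_pos hc] at hY4
      have h := sliceBinom_core p' q'
      rw [hY4, hY]
      rw [show p' + 1 + 1 + (q' + 1 + 1) - 2 = p' + q' + 2 by omega,
        show p' + 1 + 1 - 1 = p' + 1 by omega,
        show p' + 1 + 1 + (q' + 1 + 1) - 4 = p' + q' by omega,
        show p' + 1 + 1 - 2 = p' by omega]
      push_cast
      linear_combination h
    · rw [if_neg hc] at hY4
      rw [hY4]
      have : p = 0 ∨ q = 0 := by omega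
      rcases this with rfl | rfl <;> simp

end

end VP335
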