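import Vale.Agent.P335.G.SepSum

/-! P335, general graphs: counting sets in a slice, first moment -/

namespace VP335

open Finset

noncomputable section

open Classical

variable {ι : Type*} [Fintype ι]

/-- sets of size `a` in `O` containing `A` and avoiding `B` -/
theorem slice_count (O A B : Finset ι) (a : ℕ) (hA : A ⊆ O) (hB : B ⊆ O) (hAB : Disjoint A B)
    (ha : A.card ≤ a) :
    ((powersetCard a O).filter (fun σ => A ⊆ σ ∧ Disjoint B σ)).card =
      (O.card - A.card - B.card).choose (a - A.card) := by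
  have hcard : ((O \ A) \ B).card = O.card - A.card - B.card := by
    have hBA : B ⊆ O \ A := by
      intro x hx
      rw [mem_sdiff]
      exact ⟨hB hx, fun h => disjoint_left.1 hAB h hx⟩
    rw [card_sdiff_of_subset hBA, card_sdiff_of_subset hA]
  rw [← hcard, ← card_powersetCard]
  refine card_bij' (fun σ _ => σ \ A) (fun τ _ => τ ∪ A) ?_ ?_ ?_ ?_
  · intro σ hσ
    obtain ⟨h1, h2, h3⟩ := mem_filter.1 hσ
    obtain ⟨h4, h5⟩ := mem_powersetCard.1 h1
    rw [mem_powersetCard]
    refine ⟨?_, by rw [card_sdiff_of_subset h2, h5]⟩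
    intro x hx
    obtain ⟨h6, h7⟩ := mem_sdiff.1 hx
    exact mem_sdiff.2 ⟨mem_sdiff.2 ⟨h4 h6, h7⟩, fun h => disjoint_left.1 h3 h h6⟩
  · intro τ hτ
    obtain ⟨h1, h2⟩ := mem_powersetCard.1 hτ
    have hd : Disjoint τ A := by
      rw [disjoint_left]
      intro x hx hxA
      exact (mem_sdiff.1 (mem_sdiff.1 (h1 hx)).1).2 hxA
    rw [mem_filter, mem_powersetCard]
    refine ⟨⟨union_subset ?_ hA, ?_⟩, subset_union_right, ?_⟩
    · intro x hx
      exact (mem_sdiff.1 (mem_sdiff.1 (h1 hx)).1).1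
    · rw [card_union_of_disjoint hd, h2]
      omega
    · rw [disjoint_left]
      intro x hxB hx
      rcases mem_union.1 hx with h | h
      · exact (mem_sdiff.1 (h1 h)).2 hxB
      · exact disjoint_left.1 hAB h hxB
  · intro σ hσ
    obtain ⟨h1, h2, h3⟩ := mem_filter.1 hσ
    exact sdiff_union_of_subset h2
  · intro τ hτ
    obtain ⟨h1, h2⟩ := mem_powersetCard.1 hτ
    have hd : Disjoint τ A := by
      rw [disjoint_left]
      intro x hx hxA
      exact (mem_sdiff.1 (mem_sdiff.1 (h1 hx)).1).2 hxA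
    exact union_sdiff_cancel_right hd

theorem SliceCount_sep (O : Finset ι) (g : ι → ι → ℝ) {σ : Finset ι} (hσ : σ ⊆ O) :
    sepSum O g σ = ∑ w ∈ O, ∑ x ∈ O, if w ∈ σ ∧ x ∉ σ then g w x else 0 := by
  unfold sepSum
  rw [← sum_subset hσ]
  · refine sum_congr rfl fun w hw => ?_
    rw [← sum_subset (sdiff_subset : O \ σ ⊆ O)]
    · refine sum_congr rfl fun x hx => ?_
      rw [if_pos ⟨hw, (mem_sdiff.1 hx).2⟩]
    · intro x hx hx'
      rw [if_neg]
      intro h
      exact hx' (mem_sdiff.2 ⟨hx, h.2⟩)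
  · intro w _ hw
    refine sum_eq_zero fun x _ => ?_
    rw [if_neg]
    intro h
    exact hw h.1

/-- first moment; `a + b` is the size of `O`, `1 ≤ a, b` -/
theorem sepSum_first (O : Finset ι) (a b : ℕ) (ha : 1 ≤ a) (hb : 1 ≤ b) (hab : O.card = a + b)
    (g : ι → ι → ℝ) (g0 : ∀ w, g w w = 0) :
    ∑ σ ∈ powersetCard a O, sepSum O g σ =
      ((a + b - 2).choose (a - 1) : ℝ) * ∑ w ∈ O, ∑ x ∈ O, g w x := by
  have h1 : ∑ σ ∈ powersetCard a O, sepSum O g σ =
      ∑ σ ∈ powersetCard a O, ∑ w ∈ O, ∑ x ∈ O, if w ∈ σ ∧ x ∉ σ then g w x else 0 :=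
    sum_congr rfl fun σ hσ => SliceCount_sep O g (mem_powersetCard.1 hσ).1
  rw [h1, sum_comm, mul_sum]
  refine sum_congr rfl fun w hw => ?_
  rw [sum_comm, mul_sum]
  refine sum_congr rfl fun x hx => ?_
  by_cases hwx : w = x
  · rw [hwx, g0 x, mul_zero]
    refine sum_eq_zero fun σ _ => ?_
    rw [ite_self]
  · have h2 := slice_count O {w} {x} a (singleton_subset_iff.2 hw) (singleton_subset_iff.2 hx)
      (disjoint_singleton.2 hwx) (by rw [card_singleton]; exact ha)
    have h3 : (powersetCard a O).filter (fun σ => {w} ⊆ σ ∧ Disjoint {x} σ) =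
        (powersetCard a O).filter (fun σ => w ∈ σ ∧ x ∉ σ) := by
      refine filter_congr fun σ _ => ?_
      rw [singleton_subset_iff, disjoint_singleton_left]
    rw [h3, card_singleton, card_singleton] at h2
    have h4 : O.card - 1 - 1 = a + b - 2 := by omega
    rw [h4] at h2
    rw [← h2, ← sum_filter, sum_const, nsmul_eq_mul]

end

end VP335
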