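import Vale.Agent.P335.G.PairFib
import Vale.Agent.P335.G.FlipA

/-! P335, general graphs: diagonal blocks in slice coordinates -/

namespace VP335

open Finset

noncomputable section

open Classical

variable {n : ℕ} {d : Fin n → ℕ}

theorem SliceGA_card {α : Type*} [DecidableEq α] {w x : α} (h : w ≠ x) (P : α → Prop)
    [DecidablePred P] : ((({w, x} : Finset α)).filter P).card =
      (if P w then 1 else 0) + (if P x then 1 else 0) := by
  rw [filter_insert, filter_singleton]
  split_ifs <;> simp [h]

/-- `Dg` in terms of the slice coordinates -/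
theorem Dg_iff_slice {u v : Fin n} (huv : u ≠ v) {f : Finset (Fin n)} (hf : f.card = 2)
    (hef : Disjoint ({u, v} : Finset (Fin n)) f) (X : Rlz n d) :
    Dg {u, v} f X ↔ f ⊆ gS u v X ∧ (gU u v X ∩ f).card = 1 := by
  obtain ⟨w, x, hwx, rfl⟩ := card_eq_two.mp hf
  have hu : u ∉ ({w, x} : Finset (Fin n)) := disjoint_left.mp hef (by simp)
  have hv : v ∉ ({w, x} : Finset (Fin n)) := disjoint_left.mp hef (by simp)
  simp only [mem_insert, mem_singleton, not_or] at hu hv
  have hI : gU u v X ∩ {w, x} =
      ({w, x} : Finset (Fin n)).filter (fun c => X.1.Adj u c ∧ ¬ X.1.Adj v c) := by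
    ext c
    simp only [gU, mem_inter, mem_filter, mem_univ, true_and]
    constructor
    · rintro ⟨⟨_, _, h3, h4⟩, h5⟩
      exact ⟨h5, h3, h4⟩
    · rintro ⟨h5, h3, h4⟩
      refine ⟨⟨?_, ?_, h3, h4⟩, h5⟩
      · rintro rfl
        rcases mem_insert.mp h5 with h | h
        · exact hu.1 h
        · exact hu.2 (mem_singleton.mp h)
      · rintro rfl
        rcases mem_insert.mp h5 with h | h
        · exact hv.1 h
        · exact hv.2 (mem_singleton.mp h)
  rw [hI]
  have hS : ({w, x} : Finset (Fin n)) ⊆ gS u v X ↔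
      ((X.1.Adj u w ↔ ¬ X.1.Adj v w) ∧ (X.1.Adj u x ↔ ¬ X.1.Adj v x)) := by
    rw [insert_subset_iff, singleton_subset_iff]
    simp only [gS, mem_filter, mem_univ, true_and]
    constructor
    · rintro ⟨⟨_, _, h3⟩, ⟨_, _, h4⟩⟩
      exact ⟨h3, h4⟩
    · rintro ⟨h3, h4⟩
      exact ⟨⟨fun h => hu.1 h.symm, fun h => hv.1 h.symm, h3⟩,
        ⟨fun h => hu.2 h.symm, fun h => hv.2 h.symm, h4⟩⟩
  rw [hS]
  unfold Dg
  simp only [mem_insert, mem_singleton, forall_eq_or_imp, forall_eq]
  rw [SliceGA_card hwx, SliceGA_card hwx, SliceGA_card huv, SliceGA_card huv, SliceGA_card hwx]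
  by_cases a1 : X.1.Adj u w <;> by_cases a2 : X.1.Adj u x <;> by_cases a3 : X.1.Adj v w <;>
    by_cases a4 : X.1.Adj v x <;> simp [a1, a2, a3, a4]

/-- `gflip` in terms of the slice coordinates -/
theorem gflip_slice {u v : Fin n} (huv : u ≠ v) {f : Finset (Fin n)} (hf : f.card = 2)
    (hef : Disjoint ({u, v} : Finset (Fin n)) f) {X : Rlz n d} (h : Dg {u, v} f X) :
    gU u v (gflip {u, v} f X) = symmDiff (gU u v X) f := by
  have hu : u ∉ f := disjoint_left.mp hef (by simp)
  have hv : v ∉ f := disjoint_left.mp hef (by simp)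
  have hS := ((Dg_iff_slice huv hf hef X).mp h).1
  have he : ({u, v} : Finset (Fin n)).card = 2 := card_pair huv
  have b1 : ∀ c, btw ({u, v} : Finset (Fin n)) f u c ↔ c ∈ f := by
    intro c
    unfold btw
    constructor
    · rintro (h | h)
      · exact h.2
      · exact absurd h.1 hu
    · intro h
      exact Or.inl ⟨by simp, h⟩
  have b2 : ∀ c, btw ({u, v} : Finset (Fin n)) f v c ↔ c ∈ f := by
    intro c
    unfold btw
    constructor
    · rintro (h | h)
      · exact h.2
      · exact absurd h.1 hv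
    · intro h
      exact Or.inl ⟨by simp, h⟩
  ext c
  rw [mem_symmDiff]
  simp only [gU, mem_filter, mem_univ, true_and, gflip_adj hef he hf h, b1, b2]
  by_cases hc : c ∈ f
  · have h3 := hS hc
    simp only [gS, mem_filter, mem_univ, true_and] at h3
    simp only [hc, if_true, not_true, and_false, false_or, true_and]
    tauto
  · simp only [hc, if_false, not_false_iff, and_true, false_and, or_false]

end

end VP335
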