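import Vale.Agent.P335.G.SliceCount

/-! P335, general graphs: second moment -/

namespace VP335

open Finset

noncomputable section

open Classical

variable {ι : Type*} [Fintype ι]

theorem SliceMoment_L2 (O : Finset ι) (g : ι → ι → ℝ) :
    ∑ w ∈ O, ∑ x ∈ O, ∑ w' ∈ O, ∑ x' ∈ O, (if w = w' then (1 : ℝ) else 0) * (g w x * g w' x') =
      ∑ w ∈ O, (∑ x ∈ O, g w x) ^ 2 := by
  refine sum_congr rfl fun w hw => ?_
  rw [sq, sum_mul_sum]
  refine sum_congr rfl fun x _ => ?_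
  rw [sum_comm]
  refine sum_congr rfl fun x' _ => ?_
  simp [hw]

theorem SliceMoment_L3 (O : Finset ι) (g : ι → ι → ℝ) (gs : ∀ w x, g w x = g x w) :
    ∑ w ∈ O, ∑ x ∈ O, ∑ w' ∈ O, ∑ x' ∈ O, (if x = x' then (1 : ℝ) else 0) * (g w x * g w' x') =
      ∑ w ∈ O, (∑ x ∈ O, g w x) ^ 2 := by
  rw [sum_comm]
  refine sum_congr rfl fun x hx => ?_
  rw [sq, sum_mul_sum]
  refine sum_congr rfl fun w _ => ?_
  refine sum_congr rfl fun w' _ => ?_
  simp [hx, gs x w, gs x w']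

theorem SliceMoment_L4 (O : Finset ι) (g : ι → ι → ℝ) :
    ∑ w ∈ O, ∑ x ∈ O, ∑ w' ∈ O, ∑ x' ∈ O,
      ((if w = w' then (1 : ℝ) else 0) * (if x = x' then (1 : ℝ) else 0)) * (g w x * g w' x') =
      ∑ w ∈ O, ∑ x ∈ O, g w x ^ 2 := by
  refine sum_congr rfl fun w hw => ?_
  refine sum_congr rfl fun x hx => ?_
  simp [hw, hx, sq]

theorem SliceMoment_L5 (O : Finset ι) (g : ι → ι → ℝ) (gs : ∀ w x, g w x = g x w) :
    ∑ w ∈ O, ∑ x ∈ O, ∑ w' ∈ O, ∑ x' ∈ O, (if w = x' then (1 : ℝ) else 0) * (g w x * g w' x') =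
      ∑ w ∈ O, (∑ x ∈ O, g w x) ^ 2 := by
  refine sum_congr rfl fun w hw => ?_
  rw [sq, sum_mul_sum]
  refine sum_congr rfl fun x _ => ?_
  refine sum_congr rfl fun w' _ => ?_
  simp [hw, gs w w']

theorem SliceMoment_L6 (O : Finset ι) (g : ι → ι → ℝ) (gs : ∀ w x, g w x = g x w) :
    ∑ w ∈ O, ∑ x ∈ O, ∑ w' ∈ O, ∑ x' ∈ O, (if x = w' then (1 : ℝ) else 0) * (g w x * g w' x') =
      ∑ w ∈ O, (∑ x ∈ O, g w x) ^ 2 := by
  rw [sum_comm]
  refine sum_congr rfl fun x hx => ?_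
  rw [sq, sum_mul_sum]
  refine sum_congr rfl fun w _ => ?_
  rw [sum_comm]
  refine sum_congr rfl fun x' _ => ?_
  simp [hx, gs x w]

theorem SliceMoment_L7 (O : Finset ι) (g : ι → ι → ℝ) (gs : ∀ w x, g w x = g x w) :
    ∑ w ∈ O, ∑ x ∈ O, ∑ w' ∈ O, ∑ x' ∈ O,
      ((if w = x' then (1 : ℝ) else 0) * (if x = w' then (1 : ℝ) else 0)) * (g w x * g w' x') =
      ∑ w ∈ O, ∑ x ∈ O, g w x ^ 2 := by
  refine sum_congr rfl fun w hw => ?_
  refine sum_congr rfl fun x hx => ?_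
  simp [hw, hx, sq, gs x w]

theorem SliceMoment_L1 (O : Finset ι) (g : ι → ι → ℝ) :
    ∑ w ∈ O, ∑ x ∈ O, ∑ w' ∈ O, ∑ x' ∈ O, (1 : ℝ) * (g w x * g w' x') =
      (∑ w ∈ O, ∑ x ∈ O, g w x) ^ 2 := by
  rw [sq, sum_mul]
  refine sum_congr rfl fun w hw => ?_
  rw [sum_mul]
  refine sum_congr rfl fun x hx => ?_
  simp [mul_sum]

theorem SliceMoment_lin (O : Finset ι) (c1 c2 c3 c4 c5 c6 c7 : ℝ)
    (f1 f2 f3 f4 f5 f6 f7 : ι → ι → ι → ι → ℝ) :
    ∑ w ∈ O, ∑ x ∈ O, ∑ w' ∈ O, ∑ x' ∈ O,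
      (c1 * f1 w x w' x' + c2 * f2 w x w' x' + c3 * f3 w x w' x' + c4 * f4 w x w' x'
        - c5 * f5 w x w' x' - c6 * f6 w x w' x' + c7 * f7 w x w' x') =
      c1 * (∑ w ∈ O, ∑ x ∈ O, ∑ w' ∈ O, ∑ x' ∈ O, f1 w x w' x') +
      c2 * (∑ w ∈ O, ∑ x ∈ O, ∑ w' ∈ O, ∑ x' ∈ O, f2 w x w' x') +
      c3 * (∑ w ∈ O, ∑ x ∈ O, ∑ w' ∈ O, ∑ x' ∈ O, f3 w x w' x') +
      c4 * (∑ w ∈ O, ∑ x ∈ O, ∑ w' ∈ O, ∑ x' ∈ O, f4 w x w' x') -
      c5 * (∑ w ∈ O, ∑ x ∈ O, ∑ w' ∈ O, ∑ x' ∈ O, f5 w x w' x') -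
      c6 * (∑ w ∈ O, ∑ x ∈ O, ∑ w' ∈ O, ∑ x' ∈ O, f6 w x w' x') +
      c7 * (∑ w ∈ O, ∑ x ∈ O, ∑ w' ∈ O, ∑ x' ∈ O, f7 w x w' x') := by
  simp only [sum_add_distrib, sum_sub_distrib, ← mul_sum]

/-- the weighted quadruple sum -/
theorem SliceMoment_sum (O : Finset ι) (g : ι → ι → ℝ) (gs : ∀ w x, g w x = g x w)
    (Y Y1 Y2 Y4 : ℝ) (hY : Y1 + Y2 = Y) :
    ∑ w ∈ O, ∑ x ∈ O, ∑ w' ∈ O, ∑ x' ∈ O,
      (Y4 + (Y1 - Y4) * (if w = w' then (1 : ℝ) else 0) + (Y2 - Y4) * (if x = x' then (1 : ℝ) else 0)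
        + (Y + Y4 - Y1 - Y2) * ((if w = w' then (1 : ℝ) else 0) * (if x = x' then (1 : ℝ) else 0))
        - Y4 * (if w = x' then (1 : ℝ) else 0) - Y4 * (if x = w' then (1 : ℝ) else 0)
        + Y4 * ((if w = x' then (1 : ℝ) else 0) * (if x = w' then (1 : ℝ) else 0))) *
          (g w x * g w' x') =
      (Y - 4 * Y4) * ∑ w ∈ O, (∑ x ∈ O, g w x) ^ 2 + 2 * Y4 * ∑ w ∈ O, ∑ x ∈ O, g w x ^ 2 +
        Y4 * (∑ w ∈ O, ∑ x ∈ O, g w x) ^ 2 := by
  have h : ∀ w x w' x' : ι,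
      (Y4 + (Y1 - Y4) * (if w = w' then (1 : ℝ) else 0) + (Y2 - Y4) * (if x = x' then (1 : ℝ) else 0)
        + (Y + Y4 - Y1 - Y2) * ((if w = w' then (1 : ℝ) else 0) * (if x = x' then (1 : ℝ) else 0))
        - Y4 * (if w = x' then (1 : ℝ) else 0) - Y4 * (if x = w' then (1 : ℝ) else 0)
        + Y4 * ((if w = x' then (1 : ℝ) else 0) * (if x = w' then (1 : ℝ) else 0))) *
          (g w x * g w' x') =
      Y4 * (1 * (g w x * g w' x')) +
      (Y1 - Y4) * ((if w = w' then (1 : ℝ) else 0) * (g w x * g w' x')) +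
      (Y2 - Y4) * ((if x = x' then (1 : ℝ) else 0) * (g w x * g w' x')) +
      (Y + Y4 - Y1 - Y2) * (((if w = w' then (1 : ℝ) else 0) * (if x = x' then (1 : ℝ) else 0)) *
        (g w x * g w' x')) -
      Y4 * ((if w = x' then (1 : ℝ) else 0) * (g w x * g w' x')) -
      Y4 * ((if x = w' then (1 : ℝ) else 0) * (g w x * g w' x')) +
      Y4 * (((if w = x' then (1 : ℝ) else 0) * (if x = w' then (1 : ℝ) else 0)) *
        (g w x * g w' x')) := by
    intro w x w' x'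
    ring
  simp only [h]
  rw [SliceMoment_lin O Y4 (Y1 - Y4) (Y2 - Y4) (Y + Y4 - Y1 - Y2) Y4 Y4 Y4
    (fun w x w' x' => 1 * (g w x * g w' x'))
    (fun w x w' x' => (if w = w' then (1 : ℝ) else 0) * (g w x * g w' x'))
    (fun w x w' x' => (if x = x' then (1 : ℝ) else 0) * (g w x * g w' x'))
    (fun w x w' x' => ((if w = w' then (1 : ℝ) else 0) * (if x = x' then (1 : ℝ) else 0)) *
      (g w x * g w' x'))
    (fun w x w' x' => (if w = x' then (1 : ℝ) else 0) * (g w x * g w' x'))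
    (fun w x w' x' => (if x = w' then (1 : ℝ) else 0) * (g w x * g w' x'))
    (fun w x w' x' => ((if w = x' then (1 : ℝ) else 0) * (if x = w' then (1 : ℝ) else 0)) *
      (g w x * g w' x'))]
  rw [SliceMoment_L1, SliceMoment_L2, SliceMoment_L3 O g gs, SliceMoment_L4,
    SliceMoment_L5 O g gs, SliceMoment_L6 O g gs, SliceMoment_L7 O g gs]
  rw [← hY]
  ring

/-- the number of sets containing `w, w'` and avoiding `x, x'` -/
theorem SliceMoment_count (O : Finset ι) (a b : ℕ) (ha : 1 ≤ a) (hb : 1 ≤ b)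
    (hab : O.card = a + b) (Y Y1 Y2 Y4 : ℝ)
    (hY : Y = ((a + b - 2).choose (a - 1) : ℝ))
    (hY1 : Y1 = Y - Y2)
    (hY2 : Y2 = if 2 ≤ a then ((a + b - 3).choose (a - 2) : ℝ) else 0)
    (hY4 : Y4 = if 2 ≤ a ∧ 2 ≤ b then ((a + b - 4).choose (a - 2) : ℝ) else 0)
    {w x w' x' : ι} (hw : w ∈ O) (hx : x ∈ O) (hw' : w' ∈ O) (hx' : x' ∈ O)
    (hwx : w ≠ x) (hwx' : w' ≠ x') :
    (((powersetCard a O).filter
        (fun σ => (w ∈ σ ∧ x ∉ σ) ∧ (w' ∈ σ ∧ x' ∉ σ))).card : ℝ) =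
      Y4 + (Y1 - Y4) * (if w = w' then (1 : ℝ) else 0) + (Y2 - Y4) * (if x = x' then (1 : ℝ) else 0)
        + (Y + Y4 - Y1 - Y2) * ((if w = w' then (1 : ℝ) else 0) * (if x = x' then (1 : ℝ) else 0))
        - Y4 * (if w = x' then (1 : ℝ) else 0) - Y4 * (if x = w' then (1 : ℝ) else 0)
        + Y4 * ((if w = x' then (1 : ℝ) else 0) * (if x = w' then (1 : ℝ) else 0)) := by
  have hfil : (powersetCard a O).filter (fun σ => (w ∈ σ ∧ x ∉ σ) ∧ (w' ∈ σ ∧ x' ∉ σ)) =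
      (powersetCard a O).filter (fun σ => ({w, w'} : Finset ι) ⊆ σ ∧
        Disjoint ({x, x'} : Finset ι) σ) := by
    refine filter_congr fun σ _ => ?_
    simp only [insert_subset_iff, singleton_subset_iff, disjoint_insert_left,
      disjoint_singleton_left]
    tauto
  have hAO : ({w, w'} : Finset ι) ⊆ O := by
    simp [insert_subset_iff, hw, hw']
  have hBO : ({x, x'} : Finset ι) ⊆ O := by
    simp [insert_subset_iff, hx, hx']
  rw [hfil]
  -- the degenerate cases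
  by_cases h1 : w = x'
  · have hz : (powersetCard a O).filter (fun σ => ({w, w'} : Finset ι) ⊆ σ ∧
        Disjoint ({x, x'} : Finset ι) σ) = ∅ := by
      rw [filter_eq_empty_iff]
      rintro σ _ ⟨h2, h3⟩
      have : w ∈ σ := h2 (by simp)
      exact (disjoint_left.mp h3) (by simp [h1]) this
    rw [hz]
    subst h1
    have e1 : ¬ w = w' := fun h => hwx' h.symm
    have e2 : ¬ x = w := fun h => hwx h.symm
    simp only [card_empty, Nat.cast_zero, if_neg e1, if_neg e2, if_true]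
    split_ifs <;> ring
  by_cases h2 : x = w'
  · have hz : (powersetCard a O).filter (fun σ => ({w, w'} : Finset ι) ⊆ σ ∧
        Disjoint ({x, x'} : Finset ι) σ) = ∅ := by
      rw [filter_eq_empty_iff]
      rintro σ _ ⟨h3, h4⟩
      have : w' ∈ σ := h3 (by simp)
      exact (disjoint_left.mp h4) (by simp [h2]) this
    rw [hz]
    subst h2
    have e1 : ¬ w = x := hwx
    have e2 : ¬ x = x' := hwx'
    simp only [card_empty, Nat.cast_zero, if_neg e1, if_neg e2, if_true, if_neg h1]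
    ring
  have hdisj : Disjoint ({w, w'} : Finset ι) {x, x'} := by
    simp only [disjoint_insert_left, disjoint_singleton_left, mem_insert, mem_singleton, not_or]
    exact ⟨⟨hwx, h1⟩, ⟨fun h => h2 h.symm, hwx'⟩⟩
  have hcardAB : ({w, w'} : Finset ι).card + ({x, x'} : Finset ι).card ≤ a + b := by
    rw [← hab, ← card_union_of_disjoint hdisj]
    exact card_le_card (union_subset hAO hBO)
  by_cases h3 : w = w'
  · subst h3
    by_cases h4 : x = x'
    · subst h4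
      rw [slice_count O {w, w} {x, x} a hAO hBO hdisj (by simpa using ha)]
      simp only [pair_eq_singleton, card_singleton, hab, if_true, if_neg h1, if_neg h2]
      have : a + b - 1 - 1 = a + b - 2 := by omega
      rw [this, ← hY]
      ring
    · rw [slice_count O {w, w} {x, x'} a hAO hBO hdisj (by simpa using ha)]
      simp only [pair_eq_singleton, card_singleton, card_pair h4, hab, if_true, if_neg h1,
        if_neg h2, if_neg h4] at hcardAB ⊢
      have h5 : a + b - 1 - 2 = a + b - 3 := by omega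
      rw [h5]
      have key : (((a + b - 3).choose (a - 1) : ℕ) : ℝ) = Y1 := by
        rw [hY1, hY, hY2]
        by_cases h6 : 2 ≤ a
        · rw [if_pos h6]
          have h7 : a + b - 2 = (a + b - 3) + 1 := by omega
          have h8 : a - 1 = (a - 2) + 1 := by omega
          rw [h7, h8, Nat.choose_succ_succ]
          push_cast
          ring
        · have h9 : a = 1 := by omega
          subst h9
          simp
      rw [key]
      ring
  · by_cases h4 : x = x'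
    · subst h4
      by_cases h6 : 2 ≤ a
      · rw [slice_count O {w, w'} {x, x} a hAO hBO hdisj (by rw [card_pair h3]; exact h6)]
        simp only [pair_eq_singleton, card_singleton, card_pair h3, hab, if_true, if_neg h1,
          if_neg h2, if_neg h3] at hcardAB ⊢
        have h5 : a + b - 2 - 1 = a + b - 3 := by omega
        rw [h5]
        rw [if_pos h6] at hY2
        rw [← hY2]
        ring
      · have hz : (powersetCard a O).filter (fun σ => ({w, w'} : Finset ι) ⊆ σ ∧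
            Disjoint ({x, x} : Finset ι) σ) = ∅ := by
          rw [filter_eq_empty_iff]
          rintro σ hσ ⟨h7, _⟩
          have := card_le_card h7
          rw [card_pair h3, (mem_powersetCard.mp hσ).2] at this
          exact h6 this
        rw [hz]
        rw [if_neg h6] at hY2
        simp only [card_empty, Nat.cast_zero, if_true, if_neg h1, if_neg h2, if_neg h3]
        rw [hY2]
        ring
    · simp only [if_neg h1, if_neg h2, if_neg h3, if_neg h4]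
      by_cases h6 : 2 ≤ a
      · rw [slice_count O {w, w'} {x, x'} a hAO hBO hdisj (by rw [card_pair h3]; exact h6)]
        rw [card_pair h3, card_pair h4] at hcardAB ⊢
        rw [hab]
        have h5 : a + b - 2 - 2 = a + b - 4 := by omega
        rw [h5]
        by_cases h7 : 2 ≤ b
        · rw [if_pos ⟨h6, h7⟩] at hY4
          rw [hY4]
          ring
        · have h8 : b = 1 := by omega
          rw [if_neg (fun h => h7 h.2)] at hY4
          rw [hY4, Nat.choose_eq_zero_of_lt (by omega)]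
          simp
      · have hz : (powersetCard a O).filter (fun σ => ({w, w'} : Finset ι) ⊆ σ ∧
            Disjoint ({x, x'} : Finset ι) σ) = ∅ := by
          rw [filter_eq_empty_iff]
          rintro σ hσ ⟨h7, _⟩
          have := card_le_card h7
          rw [card_pair h3, (mem_powersetCard.mp hσ).2] at this
          exact h6 this
        rw [hz]
        rw [if_neg (fun h => h6 h.1)] at hY4
        rw [hY4]
        simp

theorem SliceMoment_sep (O : Finset ι) (g : ι → ι → ℝ) (σ : Finset ι) (hσ : σ ⊆ O) :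
    sepSum O g σ = ∑ w ∈ O, ∑ x ∈ O, (if w ∈ σ ∧ x ∉ σ then (1 : ℝ) else 0) * g w x := by
  unfold sepSum
  rw [← sum_subset hσ]
  · refine sum_congr rfl fun w hw => ?_
    rw [← sum_subset (sdiff_subset (s := O) (t := σ))]
    · refine sum_congr rfl fun x hx => ?_
      rw [if_pos ⟨hw, (mem_sdiff.mp hx).2⟩, one_mul]
    · intro x hx hx'
      rw [if_neg, zero_mul]
      rintro ⟨_, h⟩
      exact hx' (mem_sdiff.mpr ⟨hx, h⟩)
  · intro w _ hw
    refine sum_eq_zero fun x _ => ?_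
    rw [if_neg (fun h => hw h.1), zero_mul]

/-- second moment. `Y = C(N-2, a-1)`, `Y4 = C(N-4, a-2)` (zero if `a = 1` or `b = 1`):
`∑ G² = (Y - 4 Y4) ∑_w s_w² + 2 Y4 ∑ g² + Y4 T²` for symmetric `g` with zero diagonal -/
theorem sepSum_second (O : Finset ι) (a b : ℕ) (ha : 1 ≤ a) (hb : 1 ≤ b) (hab : O.card = a + b)
    (g : ι → ι → ℝ) (g0 : ∀ w, g w w = 0) (gs : ∀ w x, g w x = g x w) (Y Y4 : ℝ)
    (hY : Y = ((a + b - 2).choose (a - 1) : ℝ))
    (hY4 : Y4 = if 2 ≤ a ∧ 2 ≤ b then ((a + b - 4).choose (a - 2) : ℝ) else 0) :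
    ∑ σ ∈ powersetCard a O, (sepSum O g σ) ^ 2 =
      (Y - 4 * Y4) * ∑ w ∈ O, (∑ x ∈ O, g w x) ^ 2 + 2 * Y4 * ∑ w ∈ O, ∑ x ∈ O, g w x ^ 2 +
        Y4 * (∑ w ∈ O, ∑ x ∈ O, g w x) ^ 2 := by
  obtain ⟨Y2, hY2⟩ : ∃ Y2 : ℝ, Y2 = if 2 ≤ a then ((a + b - 3).choose (a - 2) : ℝ) else 0 :=
    ⟨_, rfl⟩
  obtain ⟨Y1, hY1⟩ : ∃ Y1 : ℝ, Y1 = Y - Y2 := ⟨_, rfl⟩
  rw [← SliceMoment_sum O g gs Y Y1 Y2 Y4 (by rw [hY1]; ring)]
  have step : ∀ σ ∈ powersetCard a O, (sepSum O g σ) ^ 2 =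
      ∑ w ∈ O, ∑ x ∈ O, ∑ w' ∈ O, ∑ x' ∈ O,
        (if (w ∈ σ ∧ x ∉ σ) ∧ (w' ∈ σ ∧ x' ∉ σ) then (1 : ℝ) else 0) * (g w x * g w' x') := by
    intro σ hσ
    rw [SliceMoment_sep O g σ (mem_powersetCard.mp hσ).1, sq, sum_mul]
    refine sum_congr rfl fun w hw => ?_
    rw [sum_mul]
    refine sum_congr rfl fun x hx => ?_
    rw [mul_sum]
    refine sum_congr rfl fun w' hw' => ?_
    rw [mul_sum]
    refine sum_congr rfl fun x' hx' => ?_
    by_cases h1 : w ∈ σ ∧ x ∉ σ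
    · by_cases h2 : w' ∈ σ ∧ x' ∉ σ
      · rw [if_pos h1, if_pos h2, if_pos ⟨h1, h2⟩]; ring
      · have h3 : ¬ ((w ∈ σ ∧ x ∉ σ) ∧ (w' ∈ σ ∧ x' ∉ σ)) := fun h => h2 h.2
        simp only [if_pos h1, if_neg h2, if_neg h3]; ring
    · have h3 : ¬ ((w ∈ σ ∧ x ∉ σ) ∧ (w' ∈ σ ∧ x' ∉ σ)) := fun h => h1 h.1
      simp only [if_neg h1, if_neg h3]; ring
  rw [sum_congr rfl step, sum_comm]
  refine sum_congr rfl fun w hw => ?_
  rw [sum_comm]
  refine sum_congr rfl fun x hx => ?_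
  rw [sum_comm]
  refine sum_congr rfl fun w' hw' => ?_
  rw [sum_comm]
  refine sum_congr rfl fun x' hx' => ?_
  rw [← sum_mul]
  by_cases hwx : w = x
  · rw [hwx, g0]; ring
  by_cases hwx' : w' = x'
  · rw [hwx', g0 x']; ring
  congr 1
  rw [← SliceMoment_count O a b ha hb hab Y Y1 Y2 Y4 hY hY1 hY2 hY4 hw hx hw' hx' hwx hwx']
  rw [card_filter]
  push_cast
  rfl

end

end VP335
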