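import Vale.Agent.P335.G.SepSum

/-! P335, general graphs: the Johnson scheme inequality -/

namespace VP335

open Finset

noncomputable section

open Classical

variable {ι : Type*} [Fintype ι]

/-- the Johnson scheme inequality: with `s_w = ∑_x g w x`, `T = ∑ g`, `N = |O|`:
`∑_w (s_w - T/N)² ≤ ((N-2)/2) (∑ g² - T²/(N(N-1)))` for symmetric `g` with zero diagonal -/
theorem scheme_ineq (O : Finset ι) (hO : 3 ≤ O.card) (g : ι → ι → ℝ) (g0 : ∀ w, g w w = 0)
    (gs : ∀ w x, g w x = g x w) :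
    ∑ w ∈ O, (∑ x ∈ O, g w x - (∑ w ∈ O, ∑ x ∈ O, g w x) / (O.card : ℝ)) ^ 2 ≤
      (((O.card : ℝ) - 2) / 2) * (∑ w ∈ O, ∑ x ∈ O, g w x ^ 2 -
        (∑ w ∈ O, ∑ x ∈ O, g w x) ^ 2 / ((O.card : ℝ) * ((O.card : ℝ) - 1))) := by
  have hN : (3 : ℝ) ≤ (O.card : ℝ) := by exact_mod_cast hO
  set N : ℝ := (O.card : ℝ) with hNdef
  set T : ℝ := ∑ w ∈ O, ∑ x ∈ O, g w x with hT
  set A2 : ℝ := ∑ w ∈ O, ∑ x ∈ O, g w x ^ 2 with hA2
  have hN2 : 0 < N - 2 := by linarith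
  have hN1 : 0 < N - 1 := by linarith
  have hN0 : 0 < N := by linarith
  set s : ι → ℝ := fun w => ∑ x ∈ O, g w x with hs
  set u : ι → ℝ := fun w => (s w - T / N) / (N - 2) with hu
  set c : ℝ := T / (N * (N - 1)) with hc
  have hsT : ∑ w ∈ O, s w = T := rfl
  have hcard : ∀ r : ℝ, ∑ _w ∈ O, r = N * r := by
    intro r; rw [Finset.sum_const, nsmul_eq_mul]
  have hU : ∑ w ∈ O, u w = 0 := by
    rw [hu]
    simp only
    rw [← Finset.sum_div, Finset.sum_sub_distrib, hsT, hcard]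
    field_simp
    ring
  set S2 : ℝ := ∑ w ∈ O, u w ^ 2 with hS2
  have hsu : ∑ w ∈ O, s w * u w = (N - 2) * S2 := by
    have h : ∀ w ∈ O, s w * u w = (N - 2) * u w ^ 2 + T / N * u w := by
      intro w _
      have : s w = (N - 2) * u w + T / N := by
        rw [hu]; field_simp; ring
      rw [this]; ring
    rw [Finset.sum_congr rfl h, Finset.sum_add_distrib, ← Finset.mul_sum, ← Finset.mul_sum, hU]
    ring
  have f1 : ∑ w ∈ O, ∑ x ∈ O, u w * g w x = (N - 2) * S2 := by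
    rw [← hsu]
    refine Finset.sum_congr rfl fun w _ => ?_
    rw [← Finset.mul_sum, mul_comm]
  have f2 : ∑ w ∈ O, ∑ x ∈ O, u x * g w x = (N - 2) * S2 := by
    rw [Finset.sum_comm, ← f1]
    refine Finset.sum_congr rfl fun w _ => Finset.sum_congr rfl fun x _ => ?_
    rw [gs x w]
  have f0 : ∑ w ∈ O, ∑ x ∈ O, c * g w x = c * T := by
    rw [hT, Finset.mul_sum]
    exact Finset.sum_congr rfl fun w _ => by rw [Finset.mul_sum]
  have f3 : ∑ w ∈ O, ∑ x ∈ O, (c + u w + u x) ^ 2 = N * N * c ^ 2 + 2 * N * S2 := by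
    have h : ∀ w ∈ O, ∑ x ∈ O, (c + u w + u x) ^ 2 = N * (c + u w) ^ 2 + S2 := by
      intro w _
      have h1 : ∀ x ∈ O, (c + u w + u x) ^ 2 = (c + u w) ^ 2 + 2 * (c + u w) * u x + u x ^ 2 := by
        intro x _; ring
      rw [Finset.sum_congr rfl h1, Finset.sum_add_distrib, Finset.sum_add_distrib, hcard,
        ← Finset.mul_sum, hU]
      ring
    rw [Finset.sum_congr rfl h, Finset.sum_add_distrib, hcard, ← Finset.mul_sum]
    have h2 : ∀ w ∈ O, (c + u w) ^ 2 = c ^ 2 + 2 * c * u w + u w ^ 2 := by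
      intro w _; ring
    rw [Finset.sum_congr rfl h2, Finset.sum_add_distrib, Finset.sum_add_distrib, hcard,
      ← Finset.mul_sum, hU]
    ring
  have f4 : ∑ w ∈ O, (c + 2 * u w) ^ 2 = N * c ^ 2 + 4 * S2 := by
    have h2 : ∀ w ∈ O, (c + 2 * u w) ^ 2 = c ^ 2 + 4 * c * u w + 4 * u w ^ 2 := by
      intro w _; ring
    rw [Finset.sum_congr rfl h2, Finset.sum_add_distrib, Finset.sum_add_distrib, hcard,
      ← Finset.mul_sum, ← Finset.mul_sum, hU]
    ring
  have hexp : ∑ w ∈ O, ∑ x ∈ O, (g w x - (c + u w + u x)) ^ 2 =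
      A2 - 2 * (c * T + (N - 2) * S2 + (N - 2) * S2) + (N * N * c ^ 2 + 2 * N * S2) := by
    rw [← f3, ← f0]
    nth_rw 1 [← f1]
    rw [← f2, hA2]
    simp only [Finset.mul_sum, ← Finset.sum_add_distrib, ← Finset.sum_sub_distrib]
    refine Finset.sum_congr rfl fun w _ => Finset.sum_congr rfl fun x _ => ?_
    ring
  have hge : ∑ w ∈ O, (c + 2 * u w) ^ 2 ≤ ∑ w ∈ O, ∑ x ∈ O, (g w x - (c + u w + u x)) ^ 2 := by
    refine Finset.sum_le_sum fun w hw => ?_
    have h := Finset.single_le_sum (f := fun x => (g w x - (c + u w + u x)) ^ 2)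
      (fun x _ => sq_nonneg _) hw
    simp only [g0 w] at h
    refine le_trans (le_of_eq ?_) h
    ring
  rw [f4, hexp] at hge
  have hlhs : ∑ w ∈ O, (s w - T / N) ^ 2 = (N - 2) ^ 2 * S2 := by
    rw [hS2, Finset.mul_sum]
    refine Finset.sum_congr rfl fun w _ => ?_
    rw [hu]; field_simp
  change ∑ w ∈ O, (s w - T / N) ^ 2 ≤ _
  rw [hlhs]
  have hcT : c * T = T ^ 2 / (N * (N - 1)) := by rw [hc]; ring
  have hcc : N * (N - 1) * c ^ 2 = T ^ 2 / (N * (N - 1)) := by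
    rw [hc]; field_simp
  have hmain : 2 * (N - 2) * S2 ≤ A2 - T ^ 2 / (N * (N - 1)) := by
    nlinarith [hge, hcT, hcc]
  have := mul_le_mul_of_nonneg_left hmain (by linarith : 0 ≤ (N - 2) / 2)
  nlinarith [this]

end

end VP335
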