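import Vale.Agent.P335.G.SliceMoment
import Vale.Agent.P335.G.SliceBinom
import Vale.Agent.P335.G.SliceScheme

/-! P335, general graphs: variance bound for quadratic functions on a slice -/

namespace VP335

open Finset

noncomputable section

open Classical

variable {ι : Type*} [Fintype ι]

/-- the numerical part of the variance bound -/
theorem sliceVar_num {N a b Y Y4 W V A2 : ℝ} (hN : N = a + b) (ha : 1 ≤ a) (hb : 1 ≤ b)
    (hY : 0 ≤ Y) (hY4 : 0 ≤ Y4) (hW : 0 ≤ W) (hV : 0 ≤ V) (hVA : V ≤ A2)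
    (hR2 : Y4 * ((N - 2) * (N - 3)) = (a - 1) * (b - 1) * Y)
    (hWV : W ≤ (N - 2) / 2 * V) (h3 : N = 3 → Y4 = 0) (hint : N = 3 ∨ 4 ≤ N) :
    (Y - 4 * Y4) * W + 2 * Y4 * V ≤ N / 2 * Y * A2 := by
  have hNV : N / 2 * Y * V ≤ N / 2 * Y * A2 := by
    refine mul_le_mul_of_nonneg_left hVA (mul_nonneg (by linarith) hY)
  refine le_trans ?_ hNV
  rcases le_or_gt (Y - 4 * Y4) 0 with hc | hc
  · have h1 : (Y - 4 * Y4) * W ≤ 0 := mul_nonpos_of_nonpos_of_nonneg hc hW
    have h2 : 2 * Y4 ≤ N / 2 * Y := by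
      rcases hint with h | h
      · rw [h3 h]
        have : 0 ≤ N / 2 * Y := mul_nonneg (by linarith) hY
        linarith
      · have hq : 4 * ((a - 1) * (b - 1)) ≤ (N - 2) ^ 2 := by
          rw [hN]; nlinarith [sq_nonneg (a - b)]
        have h4 : 4 * (Y4 * ((N - 2) * (N - 3))) ≤ (N - 2) ^ 2 * Y := by
          rw [hR2]
          nlinarith [mul_le_mul_of_nonneg_right hq hY]
        have hN2 : 0 < N - 2 := by linarith
        have h5 : 4 * (Y4 * (N - 3)) ≤ (N - 2) * Y := by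
          have : (N - 2) * (4 * (Y4 * (N - 3))) ≤ (N - 2) * ((N - 2) * Y) := by nlinarith [h4]
          exact le_of_mul_le_mul_left this hN2
        have hN3 : 0 < N - 3 := by linarith
        have h6 : (N - 3) * (2 * Y4) ≤ (N - 3) * (N / 2 * Y) := by
          have h7 : (N - 2) * Y ≤ N * (N - 3) * Y := by
            refine mul_le_mul_of_nonneg_right ?_ hY
            nlinarith
          nlinarith [h5, h7]
        exact le_of_mul_le_mul_left h6 hN3
    have h8 := mul_le_mul_of_nonneg_right h2 hV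
    linarith
  · have h1 : (Y - 4 * Y4) * W ≤ (Y - 4 * Y4) * ((N - 2) / 2 * V) :=
      mul_le_mul_of_nonneg_left hWV hc.le
    have h2 : 0 ≤ (N - 3) * (Y4 * V) := by
      refine mul_nonneg ?_ (mul_nonneg hY4 hV)
      rcases hint with h | h <;> linarith
    have h3' : 0 ≤ Y * V := mul_nonneg hY hV
    nlinarith [h1, h2, h3']

/-- variance bound: `∑ (G - mean G)² ≤ (N/2) Y ∑ g²` (ordered sum of `g²`) -/
theorem sepSum_var (O : Finset ι) (a b : ℕ) (ha : 1 ≤ a) (hb : 1 ≤ b) (hab : O.card = a + b)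
    (g : ι → ι → ℝ) (g0 : ∀ w, g w w = 0) (gs : ∀ w x, g w x = g x w) :
    ∑ σ ∈ powersetCard a O, (sepSum O g σ - smean (powersetCard a O) (sepSum O g)) ^ 2 ≤
      ((O.card : ℝ) / 2) * ((a + b - 2).choose (a - 1) : ℝ) * ∑ w ∈ O, ∑ x ∈ O, g w x ^ 2 := by
  set Y : ℝ := ((a + b - 2).choose (a - 1) : ℝ) with hY
  set Y4 : ℝ := if 2 ≤ a ∧ 2 ≤ b then ((a + b - 4).choose (a - 2) : ℝ) else 0 with hY4
  set M : ℝ := ((a + b).choose a : ℝ) with hM
  obtain ⟨R1, R2⟩ := slice_binom a b ha hb M Y Y4 hM hY hY4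
  have hfirst := sepSum_first O a b ha hb hab g g0
  have hsecond := sepSum_second O a b ha hb hab g g0 gs Y Y4 hY hY4
  set T : ℝ := ∑ w ∈ O, ∑ x ∈ O, g w x with hT
  set A2 : ℝ := ∑ w ∈ O, ∑ x ∈ O, g w x ^ 2 with hA2
  set SS : ℝ := ∑ w ∈ O, (∑ x ∈ O, g w x) ^ 2 with hSS
  have hNR : (O.card : ℝ) = ((a + b : ℕ) : ℝ) := by rw [hab]
  set N : ℝ := ((a + b : ℕ) : ℝ) with hN
  have hNab : N = (a : ℝ) + b := by rw [hN]; push_cast; ring
  have haR : (1 : ℝ) ≤ a := by exact_mod_cast ha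
  have hbR : (1 : ℝ) ≤ b := by exact_mod_cast hb
  have hN2 : 2 ≤ N := by rw [hNab]; linarith
  have hN0 : 0 < N := by linarith
  have hN1 : 0 < N - 1 := by linarith
  have hMpos : 0 < M := by
    rw [hM]; exact_mod_cast Nat.choose_pos (by omega)
  have hYn : 0 ≤ Y := by rw [hY]; exact Nat.cast_nonneg _
  have hY4n : 0 ≤ Y4 := by
    rw [hY4]; split_ifs
    · exact Nat.cast_nonneg _
    · exact le_rfl
  have hA2n : 0 ≤ A2 := Finset.sum_nonneg fun w _ => Finset.sum_nonneg fun x _ => sq_nonneg _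
  have hcardM : ((powersetCard a O).card : ℝ) = M := by
    rw [Finset.card_powersetCard, hab]
  -- variance identity
  have hvar : ∑ σ ∈ powersetCard a O, (sepSum O g σ - smean (powersetCard a O) (sepSum O g)) ^ 2 =
      ∑ σ ∈ powersetCard a O, (sepSum O g σ) ^ 2 - (Y * T) ^ 2 / M := by
    have hm : smean (powersetCard a O) (sepSum O g) = Y * T / M := by
      unfold smean
      rw [hfirst, hcardM]
    rw [hm]
    have h1 : ∀ σ ∈ powersetCard a O, (sepSum O g σ - Y * T / M) ^ 2 =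
        (sepSum O g σ) ^ 2 - 2 * (Y * T / M) * sepSum O g σ + (Y * T / M) ^ 2 := by
      intro σ _; ring
    rw [Finset.sum_congr rfl h1, Finset.sum_add_distrib, Finset.sum_sub_distrib, ← Finset.mul_sum,
      hfirst, Finset.sum_const, nsmul_eq_mul, hcardM]
    field_simp
    ring
  set W : ℝ := ∑ w ∈ O, (∑ x ∈ O, g w x - T / N) ^ 2 with hW
  have hWeq : SS = W + T ^ 2 / N := by
    have h1 : ∀ w ∈ O, (∑ x ∈ O, g w x - T / N) ^ 2 =
        (∑ x ∈ O, g w x) ^ 2 - 2 * (T / N) * (∑ x ∈ O, g w x) + (T / N) ^ 2 := by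
      intro w _; ring
    rw [hW, Finset.sum_congr rfl h1, Finset.sum_add_distrib, Finset.sum_sub_distrib,
      ← Finset.mul_sum, Finset.sum_const, nsmul_eq_mul, hNR, ← hT, ← hSS]
    field_simp
    ring
  have hWn : 0 ≤ W := Finset.sum_nonneg fun w _ => sq_nonneg _
  set V : ℝ := A2 - T ^ 2 / (N * (N - 1)) with hV
  have hVA : V ≤ A2 := by
    have : 0 ≤ T ^ 2 / (N * (N - 1)) := by positivity
    linarith
  have hX : ∑ σ ∈ powersetCard a O, (sepSum O g σ) ^ 2 - (Y * T) ^ 2 / M =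
      (Y - 4 * Y4) * W + 2 * Y4 * V := by
    rw [hsecond, hWeq]
    have hYM : (Y * T) ^ 2 / M = Y * (a * b) * T ^ 2 / (N * (N - 1)) := by
      rw [div_eq_div_iff hMpos.ne' (by positivity)]
      linear_combination (Y * T ^ 2) * R1
    rw [hYM, hV]
    have hz : (Y - 4 * Y4) * (T ^ 2 / N) + 2 * Y4 * (T ^ 2 / (N * (N - 1))) + Y4 * T ^ 2
        - Y * (a * b) * T ^ 2 / (N * (N - 1)) = 0 := by
      have hk : (Y - 4 * Y4) * (N - 1) + 2 * Y4 + Y4 * (N * (N - 1)) - Y * (a * b) = 0 := by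
        have hbb : (b : ℝ) = N - a := by linarith
        rw [hbb] at R2 ⊢
        linear_combination R2
      have e : (Y - 4 * Y4) * (T ^ 2 / N) + 2 * Y4 * (T ^ 2 / (N * (N - 1))) + Y4 * T ^ 2
        - Y * (a * b) * T ^ 2 / (N * (N - 1)) =
        ((Y - 4 * Y4) * (N - 1) + 2 * Y4 + Y4 * (N * (N - 1)) - Y * (a * b)) *
          (T ^ 2 / (N * (N - 1))) := by
        field_simp
      rw [e, hk, zero_mul]
    linear_combination hz
  rw [hvar, hX, hNR]
  by_cases hN2' : a + b = 2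
  · -- N = 2
    have ha1 : a = 1 := by omega
    have hb1 : b = 1 := by omega
    have hY41 : Y4 = 0 := by rw [hY4, if_neg (by omega)]
    have hY1 : Y = 1 := by rw [hY, ha1, hb1]; norm_num
    have hNe : N = 2 := by rw [hN, hN2']; norm_num
    rw [hY41, hY1, hNe]
    have hSSle : SS ≤ A2 := by
      rw [hSS, hA2]
      refine Finset.sum_le_sum fun w hw => ?_
      have h1 : ∑ x ∈ O, g w x = ∑ x ∈ O.erase w, g w x := by
        rw [← Finset.add_sum_erase O _ hw, g0 w, zero_add]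
      have hc : (O.erase w).card = 1 := by
        rw [Finset.card_erase_of_mem hw]; omega
      obtain ⟨x, hx⟩ := Finset.card_eq_one.1 hc
      have hxO : x ∈ O := Finset.mem_of_mem_erase (a := w) (by rw [hx]; exact Finset.mem_singleton_self x)
      rw [h1, hx, Finset.sum_singleton]
      exact Finset.single_le_sum (f := fun x => g w x ^ 2) (fun x _ => sq_nonneg _) hxO
    have : 0 ≤ T ^ 2 / N := by positivity
    nlinarith [hSSle, hWeq]
  · have hN3 : 3 ≤ O.card := by omega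
    have hsch := scheme_ineq O hN3 g g0 gs
    rw [hNR] at hsch
    change W ≤ (N - 2) / 2 * V at hsch
    have hN3' : (3 : ℝ) ≤ N := by rw [hN]; exact_mod_cast (by omega : 3 ≤ a + b)
    have hVn : 0 ≤ V := by
      by_contra hneg
      push Not at hneg
      have : (N - 2) / 2 * V < 0 := mul_neg_of_pos_of_neg (by linarith) hneg
      linarith
    refine sliceVar_num hNab haR hbR hYn hY4n hWn hVn hVA R2 hsch ?_ ?_
    · intro h
      have h' : a + b = 3 := by
        rw [hN] at h; exact_mod_cast h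
      rw [hY4, if_neg (by omega)]
    · have : a + b = 3 ∨ 4 ≤ a + b := by omega
      rcases this with h | h
      · left; rw [hN, h]; norm_num
      · right; rw [hN]; exact_mod_cast h

end

end VP335
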