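import Vale.Agent.P335.G.TripleParam

/-! P335, general graphs: the three-vertex inequality -/

namespace VP335

open Finset

noncomputable section

open Classical

variable {n : ℕ} {d : Fin n → ℕ}

theorem gtriple_ineq (u v w : Fin n) (huv : u ≠ v) (huw : u ≠ w) (hvw : v ≠ w)
    (F : Rlz n d → ℝ) :
    ∑ X, (F X - gE {u, v, w} F X) ^ 2 ≤
      ∑ X, (F X - gE {u, v} F X) ^ 2 + ∑ X, (F X - gE {u, w} F X) ^ 2 +
        ∑ X, (F X - gE {v, w} F X) ^ 2 := by
  rw [← sum_add_distrib, ← sum_add_distrib]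
  refine sum_le_of_fib (gkey ({u, v, w} : Finset (Fin n))) _ _ (fun X0 => ?_)
  obtain ⟨r, c, e, he, him, k2, k1, k0⟩ := gtriple_param u v w huv huw hvw X0
  rw [sum_fib_eq he him, sum_fib_eq he him]
  set F' : Tab r c → ℝ := fun Z => F (e Z) with hF'
  have hfine : ∀ a : Finset (Fin n), a ⊆ ({u, v, w} : Finset (Fin n)) → ∀ X Y : Rlz n d,
      gkey a X = gkey a Y → gkey ({u, v, w} : Finset (Fin n)) X = gkey {u, v, w} Y :=
    fun a ha X Y h => gkey_mono ha h
  have e0 : ∀ Z, gE ({u, v, w} : Finset (Fin n)) F (e Z) = mean F' := fun Z =>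
    avg_eq_mean he him F Z
  have e1 : ∀ Z, gE ({u, v} : Finset (Fin n)) F (e Z) =
      avg (fun Z : Tab r c => Z.1 2) F' Z := fun Z =>
    avg_transfer he him (hfine _ (by intro k hk; simp at hk ⊢; tauto)) k2 F Z
  have e2 : ∀ Z, gE ({u, w} : Finset (Fin n)) F (e Z) =
      avg (fun Z : Tab r c => Z.1 1) F' Z := fun Z =>
    avg_transfer he him (hfine _ (by intro k hk; simp at hk ⊢; tauto)) k1 F Z
  have e3 : ∀ Z, gE ({v, w} : Finset (Fin n)) F (e Z) =
      avg (fun Z : Tab r c => Z.1 0) F' Z := fun Z =>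
    avg_transfer he him (hfine _ (by intro k hk; simp at hk ⊢; tauto)) k0 F Z
  simp only [e0, e1, e2, e3]
  have h3 := three_row F'
  rw [Fin.sum_univ_three] at h3
  refine h3.trans (le_of_eq ?_)
  rw [← sum_add_distrib, ← sum_add_distrib]
  exact sum_congr rfl (fun Z _ => by ring)

end

end VP335
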