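import Vale.Agent.P335.ThreeRow
import Vale.Agent.P335.Triple
import Vale.Agent.P335.G.Base

/-! P335, general graphs: parametrisation of the class of a triple -/

namespace VP335

open Finset

noncomputable section

open Classical

variable {n : ℕ} {d : Fin n → ℕ}

/-- the common part of the inner degrees -/
def gtp_b (I : ℕ) : ℕ := I - 1

/-- the size of the extra column -/
def gtp_q (I : ℕ) : ℕ := if I = 1 then 2 else if I = 2 then 1 else 0

/-- the inner edges in terms of the extra column -/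
def gtp_ins (I : ℕ) (a b : Prop) : Prop := (I = 1 ∧ a ∧ b) ∨ (I = 2 ∧ (a ∨ b)) ∨ I = 3

theorem gtp_ins_comm (I : ℕ) (a b : Prop) : gtp_ins I a b ↔ gtp_ins I b a := by
  unfold gtp_ins; tauto

theorem gtp_A (I : ℕ) (hI : I ≤ 3) (a b c : Prop) [Decidable a] [Decidable b] [Decidable c]
    [Decidable (gtp_ins I a b)] [Decidable (gtp_ins I a c)]
    (h : (if a then 1 else 0) + (if b then 1 else 0) + (if c then 1 else 0) = gtp_q I) :
    (if gtp_ins I a b then 1 else 0) + (if gtp_ins I a c then 1 else 0) =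
      gtp_b I + (if a then 1 else 0) := by
  interval_cases I <;> by_cases ha : a <;> by_cases hb : b <;> by_cases hc : c <;>
    simp_all [gtp_q, gtp_b, gtp_ins]

theorem gtp_B (I : ℕ) (a b c : Prop)
    (hI : I = (if a then 1 else 0) + (if b then 1 else 0) + (if c then 1 else 0)) :
    (gtp_ins I ((if a then 1 else 0) + (if b then 1 else 0) = gtp_b I + 1)
      ((if a then 1 else 0) + (if c then 1 else 0) = gtp_b I + 1) ↔ a) ∧
    (gtp_ins I ((if a then 1 else 0) + (if b then 1 else 0) = gtp_b I + 1)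
      ((if b then 1 else 0) + (if c then 1 else 0) = gtp_b I + 1) ↔ b) ∧
    (gtp_ins I ((if a then 1 else 0) + (if c then 1 else 0) = gtp_b I + 1)
      ((if b then 1 else 0) + (if c then 1 else 0) = gtp_b I + 1) ↔ c) ∧
    (if (if a then 1 else 0) + (if b then 1 else 0) = gtp_b I + 1 then 1 else 0) +
      (if (if a then 1 else 0) + (if c then 1 else 0) = gtp_b I + 1 then 1 else 0) +
      (if (if b then 1 else 0) + (if c then 1 else 0) = gtp_b I + 1 then 1 else 0) = gtp_q I ∧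
    (if a then 1 else 0) + (if b then 1 else 0) = gtp_b I +
      (if (if a then 1 else 0) + (if b then 1 else 0) = gtp_b I + 1 then 1 else 0) ∧
    (if a then 1 else 0) + (if c then 1 else 0) = gtp_b I +
      (if (if a then 1 else 0) + (if c then 1 else 0) = gtp_b I + 1 then 1 else 0) ∧
    (if b then 1 else 0) + (if c then 1 else 0) = gtp_b I +
      (if (if b then 1 else 0) + (if c then 1 else 0) = gtp_b I + 1 then 1 else 0) := by
  subst hI
  by_cases ha : a <;> by_cases hb : b <;> by_cases hc : c <;>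
    simp [ha, hb, hc, gtp_q, gtp_b, gtp_ins]

theorem gtp_card3 (P : Fin 3 → Prop) [DecidablePred P] : (univ.filter P).card =
    (if P 0 then 1 else 0) + (if P 1 then 1 else 0) + (if P 2 then 1 else 0) := by
  rw [card_filter, Fin.sum_univ_three]

theorem gtp_mem3 {u v w k : Fin n} : k ∈ ({u, v, w} : Finset (Fin n)) ↔
    ∃ m, trho u v w m = k := by
  simp only [mem_insert, mem_singleton, trho]
  constructor
  · rintro (rfl | rfl | rfl)
    · exact ⟨0, rfl⟩
    · exact ⟨1, rfl⟩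
    · exact ⟨2, rfl⟩
  · rintro ⟨m, hm⟩
    fin_cases m <;> simp at hm <;> simp [hm]

/-- the filter does not depend on the decidability instance -/
theorem gtp_card_filter_inst {α : Type*} (s : Finset α) (P : α → Prop) (i1 i2 : DecidablePred P) :
    (@filter α P i1 s).card = (@filter α P i2 s).card := by
  have h : i1 = i2 := Subsingleton.elim _ _
  rw [h]

theorem gtp_col {κ ι : Type*} [Fintype κ] [Fintype ι] {r : κ → ℕ} {c : ι → ℕ} (Z : Tab r c)
    (j : ι) [∀ k, Decidable (j ∈ Z.1 k)] : (univ.filter (fun k => j ∈ Z.1 k)).card = c j := by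
  exact (gtp_card_filter_inst _ _ _ _).trans (Z.2.2 j)

theorem gtp_three {ι : Type*} [Fintype ι] {r : Fin 3 → ℕ} {c : ι → ℕ} (Z : Tab r c)
    (j : ι) [∀ k, Decidable (j ∈ Z.1 k)] : (if j ∈ Z.1 0 then 1 else 0) +
      (if j ∈ Z.1 1 then 1 else 0) + (if j ∈ Z.1 2 then 1 else 0) = c j := by
  rw [← gtp_col Z j, card_filter, Fin.sum_univ_three]

theorem gtp_T {u v w : Fin n} (huv : u ≠ v) (huw : u ≠ w) (hvw : v ≠ w) (P : Fin n → Prop) :
    (univ.filter (fun m : Fin 3 => P (trho u v w m))).card =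
      (({u, v, w} : Finset (Fin n)).filter P).card := by
  rw [← card_map ⟨trho u v w, trho_inj huv huw hvw⟩]
  refine congrArg card ?_
  ext k
  rw [mem_filter, gtp_mem3]
  simp only [mem_map, mem_filter, mem_univ, true_and, Function.Embedding.coeFn_mk]
  constructor
  · rintro ⟨m, hm, rfl⟩
    exact ⟨⟨m, rfl⟩, hm⟩
  · rintro ⟨⟨m, rfl⟩, hm⟩
    exact ⟨m, hm, rfl⟩

theorem gtp_split {u v w : Fin n} (huv : u ≠ v) (huw : u ≠ w) (hvw : v ≠ w) (P : Fin n → Prop) :
    (univ.filter P).card = (univ.filter (fun m : Fin 3 => P (trho u v w m))).card +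
      (univ.filter (fun k => k ∉ ({u, v, w} : Finset (Fin n)) ∧ P k)).card := by
  rw [gtp_T huv huw hvw, ← card_union_of_disjoint]
  · refine congrArg card ?_
    ext k
    simp only [mem_filter, mem_univ, true_and, mem_union]
    tauto
  · rw [disjoint_left]
    intro k h1 h2
    rw [mem_filter] at h1 h2
    exact h2.2.1 h1.1

theorem gtp_opt (S : Finset (Option (Fin n))) :
    S.card = (univ.filter (fun j => some j ∈ S)).card + (if none ∈ S then 1 else 0) := by
  have h : S = univ.filter (fun o => o ∈ S) := by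
    ext o; simp
  conv_lhs => rw [h]
  rw [card_filter, Fintype.sum_option, card_filter, add_comm]

/-- the column sums of the three-row table -/
def gtp_c (u v w : Fin n) (X0 : Rlz n d) (I : ℕ) : Option (Fin n) → ℕ
  | none => gtp_q I
  | some j => if j ∈ ({u, v, w} : Finset (Fin n)) then 0 else
      (univ.filter (fun m : Fin 3 => X0.1.Adj (trho u v w m) j)).card

/-- the number of inner edges -/
def gtp_I (u v w : Fin n) (X : Rlz n d) : ℕ :=
  (if X.1.Adj u v then 1 else 0) + (if X.1.Adj u w then 1 else 0) +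
    (if X.1.Adj v w then 1 else 0)

/-- the row sums of the three-row table -/
def gtp_r (d : Fin n → ℕ) (u v w : Fin n) (I : ℕ) : Fin 3 → ℕ :=
  fun m => d (trho u v w m) - gtp_b I

theorem gtp_some_notMem {u v w : Fin n} {X0 : Rlz n d} {I : ℕ} {r : Fin 3 → ℕ}
    (Z : Tab r (gtp_c u v w X0 I)) {m : Fin 3} {j : Fin n} (h : some j ∈ Z.1 m) :
    j ∉ ({u, v, w} : Finset (Fin n)) := by
  intro hj
  have h1 := gtp_col Z (some j)
  rw [gtp_c, if_pos hj, card_eq_zero, filter_eq_empty_iff] at h1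
  exact h1 (mem_univ m) h

/-- the adjacency of the glued graph -/
def gtp_adj (u v w : Fin n) (X0 : Rlz n d) (I : ℕ) (Z : Fin 3 → Finset (Option (Fin n)))
    (p q : Fin n) : Prop :=
  (p ∉ ({u, v, w} : Finset (Fin n)) ∧ q ∉ ({u, v, w} : Finset (Fin n)) ∧ X0.1.Adj p q) ∨
    (∃ m, p = trho u v w m ∧ q ∉ ({u, v, w} : Finset (Fin n)) ∧ some q ∈ Z m) ∨
    (∃ m, q = trho u v w m ∧ p ∉ ({u, v, w} : Finset (Fin n)) ∧ some p ∈ Z m) ∨
    (∃ m m', m ≠ m' ∧ p = trho u v w m ∧ q = trho u v w m' ∧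
      gtp_ins I (none ∈ Z m) (none ∈ Z m'))

theorem trho_mem (u v w : Fin n) (m : Fin 3) : trho u v w m ∈ ({u, v, w} : Finset (Fin n)) :=
  gtp_mem3.mpr ⟨m, rfl⟩

theorem gtp_adj_out {u v w : Fin n} {X0 : Rlz n d} {I : ℕ} {Z : Fin 3 → Finset (Option (Fin n))}
    {p q : Fin n} (hp : p ∉ ({u, v, w} : Finset (Fin n)))
    (hq : q ∉ ({u, v, w} : Finset (Fin n))) :
    gtp_adj u v w X0 I Z p q ↔ X0.1.Adj p q := by
  unfold gtp_adj
  constructor
  · rintro (h | ⟨m, rfl, _⟩ | ⟨m, rfl, _⟩ | ⟨m, m', _, rfl, _⟩)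
    · exact h.2.2
    · exact absurd (trho_mem u v w m) hp
    · exact absurd (trho_mem u v w m) hq
    · exact absurd (trho_mem u v w m) hp
  · intro h
    exact Or.inl ⟨hp, hq, h⟩

theorem gtp_adj_row {u v w : Fin n} (huv : u ≠ v) (huw : u ≠ w) (hvw : v ≠ w) {X0 : Rlz n d}
    {I : ℕ} {Z : Fin 3 → Finset (Option (Fin n))}
    {q : Fin n} (m : Fin 3) (hq : q ∉ ({u, v, w} : Finset (Fin n))) :
    gtp_adj u v w X0 I Z (trho u v w m) q ↔ some q ∈ Z m := by
  unfold gtp_adj
  constructor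
  · rintro (h | ⟨m', h, _, h2⟩ | ⟨m', rfl, _⟩ | ⟨m', m'', _, _, rfl, _⟩)
    · exact absurd (trho_mem u v w m) h.1
    · rw [trho_inj huv huw hvw h]
      exact h2
    · exact absurd (trho_mem u v w m') hq
    · exact absurd (trho_mem u v w m'') hq
  · intro h
    exact Or.inr (Or.inl ⟨m, rfl, hq, h⟩)

theorem gtp_adj_symm {u v w : Fin n} {X0 : Rlz n d}
    {I : ℕ} {Z : Fin 3 → Finset (Option (Fin n))} {p q : Fin n}
    (h : gtp_adj u v w X0 I Z p q) : gtp_adj u v w X0 I Z q p := by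
  unfold gtp_adj at h ⊢
  rcases h with h | ⟨m, h1, h2, h3⟩ | ⟨m, h1, h2, h3⟩ | ⟨m, m', h0, h1, h2, h3⟩
  · exact Or.inl ⟨h.2.1, h.1, h.2.2.symm⟩
  · exact Or.inr (Or.inr (Or.inl ⟨m, h1, h2, h3⟩))
  · exact Or.inr (Or.inl ⟨m, h1, h2, h3⟩)
  · exact Or.inr (Or.inr (Or.inr ⟨m', m, h0.symm, h2, h1, (gtp_ins_comm _ _ _).mp h3⟩))

theorem gtp_adj_in {u v w : Fin n} (huv : u ≠ v) (huw : u ≠ w) (hvw : v ≠ w) {X0 : Rlz n d}
    {I : ℕ} {Z : Fin 3 → Finset (Option (Fin n))} (m m' : Fin 3) :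
    gtp_adj u v w X0 I Z (trho u v w m) (trho u v w m') ↔
      (m ≠ m' ∧ gtp_ins I (none ∈ Z m) (none ∈ Z m')) := by
  unfold gtp_adj
  constructor
  · rintro (h | ⟨m1, h, h1, _⟩ | ⟨m1, h, h1, _⟩ | ⟨m1, m2, h0, h1, h2, h3⟩)
    · exact absurd (trho_mem u v w m) h.1
    · exact absurd (trho_mem u v w m') h1
    · exact absurd (trho_mem u v w m) h1
    · rw [trho_inj huv huw hvw h1, trho_inj huv huw hvw h2]
      exact ⟨h0, h3⟩
  · rintro ⟨h0, h1⟩
    exact Or.inr (Or.inr (Or.inr ⟨m, m', h0, rfl, rfl, h1⟩))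

theorem gtp_adj_irrefl {u v w : Fin n} (huv : u ≠ v) (huw : u ≠ w) (hvw : v ≠ w) {X0 : Rlz n d}
    {I : ℕ} {Z : Fin 3 → Finset (Option (Fin n))} (p : Fin n) :
    ¬ gtp_adj u v w X0 I Z p p := by
  by_cases hp : p ∈ ({u, v, w} : Finset (Fin n))
  · obtain ⟨m, rfl⟩ := gtp_mem3.mp hp
    rw [gtp_adj_in huv huw hvw]
    exact fun h => h.1 rfl
  · rw [gtp_adj_out hp hp]
    exact X0.1.irrefl

theorem gtp_I_le (u v w : Fin n) (X : Rlz n d) : gtp_I u v w X ≤ 3 := by
  unfold gtp_I
  split_ifs <;> simp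

/-- inner degrees -/
theorem gtp_inner {u v w : Fin n} (X : Rlz n d) :
    (univ.filter (fun m : Fin 3 => X.1.Adj (trho u v w 0) (trho u v w m))).card =
      (if X.1.Adj u v then 1 else 0) + (if X.1.Adj u w then 1 else 0) ∧
    (univ.filter (fun m : Fin 3 => X.1.Adj (trho u v w 1) (trho u v w m))).card =
      (if X.1.Adj u v then 1 else 0) + (if X.1.Adj v w then 1 else 0) ∧
    (univ.filter (fun m : Fin 3 => X.1.Adj (trho u v w 2) (trho u v w m))).card =
      (if X.1.Adj u w then 1 else 0) + (if X.1.Adj v w then 1 else 0) := by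
  have e0 : trho u v w 0 = u := rfl
  have e1 : trho u v w 1 = v := rfl
  have e2 : trho u v w 2 = w := rfl
  refine ⟨?_, ?_, ?_⟩
  · rw [gtp_card3, e0, e1, e2]
    simp
  · rw [gtp_card3, e0, e1, e2, X.1.adj_comm v u]
    simp
  · rw [gtp_card3, e0, e1, e2, X.1.adj_comm w u, X.1.adj_comm w v]
    simp

/-- degrees of the three vertices -/
theorem gtp_deg {u v w : Fin n} (huv : u ≠ v) (huw : u ≠ w) (hvw : v ≠ w) (X : Rlz n d)
    (m : Fin 3) : d (trho u v w m) =
      (univ.filter (fun m' : Fin 3 => X.1.Adj (trho u v w m) (trho u v w m'))).card +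
        (univ.filter (fun k => k ∉ ({u, v, w} : Finset (Fin n)) ∧
          X.1.Adj (trho u v w m) k)).card := by
  rw [← X.2 (trho u v w m), gtp_split huv huw hvw]

theorem gtp_b_le {u v w : Fin n} (huv : u ≠ v) (huw : u ≠ w) (hvw : v ≠ w) (X : Rlz n d)
    (m : Fin 3) : gtp_b (gtp_I u v w X) ≤ d (trho u v w m) := by
  have h := gtp_deg huv huw hvw X m
  obtain ⟨h0, h1, h2⟩ := gtp_inner (u := u) (v := v) (w := w) X
  obtain ⟨_, _, _, _, k0, k1, k2⟩ := gtp_B (gtp_I u v w X) (X.1.Adj u v) (X.1.Adj u w)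
    (X.1.Adj v w) rfl
  fin_cases m
  · simp only [Fin.zero_eta] at h ⊢
    rw [h0] at h; omega
  · simp only [Fin.mk_one] at h ⊢
    rw [h1] at h; omega
  · simp only [Fin.reduceFinMk] at h ⊢
    rw [h2] at h; omega

/-- the glued graph -/
def gtp_e {u v w : Fin n} (huv : u ≠ v) (huw : u ≠ w) (hvw : v ≠ w) (X0 : Rlz n d)
    (Z : Tab (gtp_r d u v w (gtp_I u v w X0)) (gtp_c u v w X0 (gtp_I u v w X0))) : Rlz n d :=
  ⟨{ Adj := gtp_adj u v w X0 (gtp_I u v w X0) Z.1
     symm := ⟨fun _ _ h => gtp_adj_symm h⟩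
     loopless := ⟨fun p => gtp_adj_irrefl huv huw hvw p⟩ }, by
    intro p
    show (univ.filter (fun q => gtp_adj u v w X0 (gtp_I u v w X0) Z.1 p q)).card = d p
    by_cases hp : p ∈ ({u, v, w} : Finset (Fin n))
    · obtain ⟨m, rfl⟩ := gtp_mem3.mp hp
      rw [gtp_split huv huw hvw]
      have h1 : (univ.filter (fun k => k ∉ ({u, v, w} : Finset (Fin n)) ∧
          gtp_adj u v w X0 (gtp_I u v w X0) Z.1 (trho u v w m) k)).card =
          (univ.filter (fun j => some j ∈ Z.1 m)).card := by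
        refine congrArg card (filter_congr (fun k _ => ?_))
        constructor
        · rintro ⟨h2, h3⟩
          exact (gtp_adj_row huv huw hvw m h2).mp h3
        · intro h
          have h2 := gtp_some_notMem Z h
          exact ⟨h2, (gtp_adj_row huv huw hvw m h2).mpr h⟩
      have h2 := gtp_opt (Z.1 m)
      have h3 : (Z.1 m).card = d (trho u v w m) - gtp_b (gtp_I u v w X0) := Z.2.1 m
      have h4 := gtp_b_le huv huw hvw X0 m
      have h5 := gtp_three Z none
      rw [gtp_c] at h5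
      have h6 : (univ.filter (fun m' : Fin 3 => gtp_adj u v w X0 (gtp_I u v w X0) Z.1
          (trho u v w m) (trho u v w m'))).card = gtp_b (gtp_I u v w X0) +
            (if none ∈ Z.1 m then 1 else 0) := by
        simp only [gtp_adj_in huv huw hvw]
        rw [gtp_card3]
        have hI := gtp_I_le u v w X0
        fin_cases m
        · have := gtp_A _ hI (none ∈ Z.1 0) (none ∈ Z.1 1) (none ∈ Z.1 2) h5
          simpa using this
        · have := gtp_A _ hI (none ∈ Z.1 1) (none ∈ Z.1 0) (none ∈ Z.1 2) (by omega)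
          simpa using this
        · have := gtp_A _ hI (none ∈ Z.1 2) (none ∈ Z.1 0) (none ∈ Z.1 1) (by omega)
          simpa using this
      rw [h1, h6]
      omega
    · rw [← X0.2 p, gtp_split huv huw hvw, gtp_split huv huw hvw (fun q => X0.1.Adj p q)]
      refine congrArg₂ (· + ·) ?_ ?_
      · have h1 : (univ.filter (fun m => some p ∈ Z.1 m)).card =
            (univ.filter (fun m : Fin 3 => X0.1.Adj (trho u v w m) p)).card := by
          have := gtp_col Z (some p)
          rw [gtp_c, if_neg hp] at this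
          exact this
        have h2 : (univ.filter (fun m : Fin 3 => gtp_adj u v w X0 (gtp_I u v w X0) Z.1 p
            (trho u v w m))).card = (univ.filter (fun m => some p ∈ Z.1 m)).card := by
          refine congrArg card (filter_congr (fun m _ => ?_))
          constructor
          · intro h
            exact (gtp_adj_row huv huw hvw m hp).mp (gtp_adj_symm h)
          · intro h
            exact gtp_adj_symm ((gtp_adj_row huv huw hvw m hp).mpr h)
        rw [h2, h1]
        refine congrArg card (filter_congr (fun m _ => ?_))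
        exact X0.1.adj_comm _ _
      · refine congrArg card (filter_congr (fun k _ => ?_))
        constructor
        · rintro ⟨h1, h2⟩
          exact ⟨h1, (gtp_adj_out hp h1).mp h2⟩
        · rintro ⟨h1, h2⟩
          exact ⟨h1, (gtp_adj_out hp h1).mpr h2⟩⟩

theorem gtp_e_adj {u v w : Fin n} (huv : u ≠ v) (huw : u ≠ w) (hvw : v ≠ w) (X0 : Rlz n d)
    (Z : Tab (gtp_r d u v w (gtp_I u v w X0)) (gtp_c u v w X0 (gtp_I u v w X0))) (p q : Fin n) :
    (gtp_e huv huw hvw X0 Z).1.Adj p q ↔ gtp_adj u v w X0 (gtp_I u v w X0) Z.1 p q := Iff.rfl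

theorem gtp_rowext {u v w : Fin n} {X0 : Rlz n d} {I : ℕ} {r : Fin 3 → ℕ}
    (Z Z' : Tab r (gtp_c u v w X0 I)) (m : Fin 3)
    (h : ∀ j, j ∉ ({u, v, w} : Finset (Fin n)) → (some j ∈ Z.1 m ↔ some j ∈ Z'.1 m)) :
    Z.1 m = Z'.1 m := by
  have h1 : ∀ j, some j ∈ Z.1 m ↔ some j ∈ Z'.1 m := by
    intro j
    by_cases hj : j ∈ ({u, v, w} : Finset (Fin n))
    · constructor
      · intro h2
        exact absurd hj (gtp_some_notMem Z h2)
      · intro h2
        exact absurd hj (gtp_some_notMem Z' h2)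
    · exact h j hj
  have h2 := gtp_opt (Z.1 m)
  have h3 := gtp_opt (Z'.1 m)
  have h4 : (Z.1 m).card = r m := Z.2.1 m
  have h5 : (Z'.1 m).card = r m := Z'.2.1 m
  have h6 : (univ.filter (fun j => some j ∈ Z.1 m)).card =
      (univ.filter (fun j => some j ∈ Z'.1 m)).card :=
    congrArg card (filter_congr (fun j _ => h1 j))
  have h7 : (none ∈ Z.1 m ↔ none ∈ Z'.1 m) := by
    by_cases a : none ∈ Z.1 m <;> by_cases b : none ∈ Z'.1 m <;> simp only [a, b]
    · rw [if_pos a] at h2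
      rw [if_neg b] at h3
      omega
    · rw [if_neg a] at h2
      rw [if_pos b] at h3
      omega
  ext o
  cases o with
  | none => exact h7
  | some j => exact h1 j

theorem gtp_inj {u v w : Fin n} (huv : u ≠ v) (huw : u ≠ w) (hvw : v ≠ w) (X0 : Rlz n d) :
    Function.Injective (gtp_e huv huw hvw X0) := by
  intro Z Z' h
  apply Subtype.ext
  funext m
  refine gtp_rowext Z Z' m (fun j hj => ?_)
  have h1 := gtp_e_adj huv huw hvw X0 Z (trho u v w m) j
  rw [gtp_adj_row huv huw hvw m hj, h, gtp_e_adj, gtp_adj_row huv huw hvw m hj] at h1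
  exact h1.symm

theorem gtp_keys {u v w : Fin n} (huv : u ≠ v) (huw : u ≠ w) (hvw : v ≠ w) (X0 : Rlz n d)
    (a : Finset (Fin n)) (m : Fin 3)
    (ha : ∀ k, k ∈ a ↔ (k ∈ ({u, v, w} : Finset (Fin n)) ∧ k ≠ trho u v w m))
    (Z Z' : Tab (gtp_r d u v w (gtp_I u v w X0)) (gtp_c u v w X0 (gtp_I u v w X0))) :
    Z.1 m = Z'.1 m ↔ gkey a (gtp_e huv huw hvw X0 Z) = gkey a (gtp_e huv huw hvw X0 Z') := by
  rw [gkey_eq_iff]
  constructor
  · intro h
    have key : ∀ p q, p ∉ a → q ∉ ({u, v, w} : Finset (Fin n)) →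
        ((gtp_e huv huw hvw X0 Z).1.Adj p q ↔ (gtp_e huv huw hvw X0 Z').1.Adj p q) := by
      intro p q hp hq
      rw [gtp_e_adj, gtp_e_adj]
      rw [ha, not_and_or, not_not] at hp
      rcases hp with hp | rfl
      · rw [gtp_adj_out hp hq, gtp_adj_out hp hq]
      · rw [gtp_adj_row huv huw hvw m hq, gtp_adj_row huv huw hvw m hq, h]
    intro p q hp hq
    by_cases hq' : q ∈ ({u, v, w} : Finset (Fin n))
    · by_cases hp' : p ∈ ({u, v, w} : Finset (Fin n))
      · rw [ha, not_and_or, not_not] at hp hq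
        have e1 := hp.resolve_left (not_not.mpr hp')
        have e2 := hq.resolve_left (not_not.mpr hq')
        rw [e1, e2]
        exact ⟨fun h' => absurd h' ((gtp_e huv huw hvw X0 Z).1.irrefl),
          fun h' => absurd h' ((gtp_e huv huw hvw X0 Z').1.irrefl)⟩
      · rw [SimpleGraph.adj_comm, (gtp_e huv huw hvw X0 Z').1.adj_comm]
        exact key q p hq hp'
    · exact key p q hp hq'
  · intro h
    refine gtp_rowext Z Z' m (fun j hj => ?_)
    have h1 := h (trho u v w m) j (by rw [ha]; exact fun h' => h'.2 rfl)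
      (by rw [ha]; exact fun h' => hj h'.1)
    rw [gtp_e_adj, gtp_e_adj, gtp_adj_row huv huw hvw m hj, gtp_adj_row huv huw hvw m hj] at h1
    exact h1

/-- the sum of the outer degrees -/
theorem gtp_outer {u v w : Fin n} (huv : u ≠ v) (huw : u ≠ w) (hvw : v ≠ w) {X Y : Rlz n d}
    (h : gkey ({u, v, w} : Finset (Fin n)) Y = gkey {u, v, w} X) :
    ∑ m : Fin 3, (univ.filter (fun k => k ∉ ({u, v, w} : Finset (Fin n)) ∧
        Y.1.Adj (trho u v w m) k)).card =
      ∑ m : Fin 3, (univ.filter (fun k => k ∉ ({u, v, w} : Finset (Fin n)) ∧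
        X.1.Adj (trho u v w m) k)).card := by
  have e : ∀ W : Rlz n d, ∑ m : Fin 3, (univ.filter (fun k => k ∉ ({u, v, w} : Finset (Fin n)) ∧
        W.1.Adj (trho u v w m) k)).card =
      ∑ k ∈ ({u, v, w} : Finset (Fin n))ᶜ,
        (({u, v, w} : Finset (Fin n)).filter (fun q => W.1.Adj k q)).card := by
    intro W
    have e1 : ∀ m : Fin 3, (univ.filter (fun k => k ∉ ({u, v, w} : Finset (Fin n)) ∧
        W.1.Adj (trho u v w m) k)).card =
        ∑ k ∈ ({u, v, w} : Finset (Fin n))ᶜ, if W.1.Adj k (trho u v w m) then 1 else 0 := by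
      intro m
      rw [← card_filter]
      refine congrArg card ?_
      ext k
      simp only [mem_filter, mem_univ, true_and, mem_compl, W.1.adj_comm k]
    simp only [e1]
    rw [sum_comm]
    refine sum_congr rfl (fun k _ => ?_)
    rw [← gtp_T huv huw hvw (fun q => W.1.Adj k q), card_filter]
  rw [e, e]
  refine sum_congr rfl (fun k hk => ?_)
  exact gkey_count h (mem_compl.mp hk)

theorem gtp_I_congr {u v w : Fin n} (huv : u ≠ v) (huw : u ≠ w) (hvw : v ≠ w) {X Y : Rlz n d}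
    (h : gkey ({u, v, w} : Finset (Fin n)) Y = gkey {u, v, w} X) :
    gtp_I u v w Y = gtp_I u v w X := by
  have h0 := gtp_outer huv huw hvw h
  rw [Fin.sum_univ_three, Fin.sum_univ_three] at h0
  have a0 := gtp_deg huv huw hvw X 0
  have a1 := gtp_deg huv huw hvw X 1
  have a2 := gtp_deg huv huw hvw X 2
  have b0 := gtp_deg huv huw hvw Y 0
  have b1 := gtp_deg huv huw hvw Y 1
  have b2 := gtp_deg huv huw hvw Y 2
  obtain ⟨x0, x1, x2⟩ := gtp_inner (u := u) (v := v) (w := w) X
  obtain ⟨y0, y1, y2⟩ := gtp_inner (u := u) (v := v) (w := w) Y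
  rw [x0] at a0
  rw [x1] at a1
  rw [x2] at a2
  rw [y0] at b0
  rw [y1] at b1
  rw [y2] at b2
  unfold gtp_I
  omega

/-- the table of a graph in the class -/
def gtp_tab (u v w : Fin n) (Y : Rlz n d) (m : Fin 3) : Finset (Option (Fin n)) :=
  univ.filter (fun o => match o with
    | none => (univ.filter (fun m' : Fin 3 => Y.1.Adj (trho u v w m) (trho u v w m'))).card =
        gtp_b (gtp_I u v w Y) + 1
    | some j => j ∉ ({u, v, w} : Finset (Fin n)) ∧ Y.1.Adj (trho u v w m) j)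

theorem gtp_tab_none {u v w : Fin n} {Y : Rlz n d} {m : Fin 3} : none ∈ gtp_tab u v w Y m ↔
    (univ.filter (fun m' : Fin 3 => Y.1.Adj (trho u v w m) (trho u v w m'))).card =
        gtp_b (gtp_I u v w Y) + 1 := by
  simp [gtp_tab]

theorem gtp_tab_some {u v w : Fin n} {Y : Rlz n d} {m : Fin 3} {j : Fin n} :
    some j ∈ gtp_tab u v w Y m ↔
      (j ∉ ({u, v, w} : Finset (Fin n)) ∧ Y.1.Adj (trho u v w m) j) := by
  unfold gtp_tab
  rw [mem_filter]
  exact ⟨fun h => h.2, fun h => ⟨mem_univ _, h⟩⟩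

theorem gtp_in_eq {u v w : Fin n} (Y : Rlz n d) (m : Fin 3) :
    (univ.filter (fun m' : Fin 3 => Y.1.Adj (trho u v w m) (trho u v w m'))).card =
      gtp_b (gtp_I u v w Y) + (if none ∈ gtp_tab u v w Y m then 1 else 0) := by
  obtain ⟨h0, h1, h2⟩ := gtp_inner (u := u) (v := v) (w := w) Y
  obtain ⟨_, _, _, _, k0, k1, k2⟩ := gtp_B (gtp_I u v w Y) (Y.1.Adj u v) (Y.1.Adj u w)
    (Y.1.Adj v w) rfl
  simp only [gtp_tab_none]
  fin_cases m
  · simp only [Fin.zero_eta]
    rw [h0]
    exact k0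
  · simp only [Fin.mk_one]
    rw [h1]
    exact k1
  · simp only [Fin.reduceFinMk]
    rw [h2]
    exact k2

theorem gtp_tab_row {u v w : Fin n} (huv : u ≠ v) (huw : u ≠ w) (hvw : v ≠ w) {X0 Y : Rlz n d}
    (h : gkey ({u, v, w} : Finset (Fin n)) Y = gkey {u, v, w} X0) (m : Fin 3) :
    (gtp_tab u v w Y m).card = gtp_r d u v w (gtp_I u v w X0) m := by
  have h1 := gtp_opt (gtp_tab u v w Y m)
  have h2 := gtp_in_eq (u := u) (v := v) (w := w) Y m
  have h3 := gtp_deg huv huw hvw Y m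
  have h4 := gtp_I_congr huv huw hvw h
  have h5 : (univ.filter (fun j => some j ∈ gtp_tab u v w Y m)).card =
      (univ.filter (fun k => k ∉ ({u, v, w} : Finset (Fin n)) ∧
          Y.1.Adj (trho u v w m) k)).card :=
    congrArg card (filter_congr (fun j _ => gtp_tab_some))
  unfold gtp_r
  rw [h4] at h2
  omega

theorem gtp_tab_none_col {u v w : Fin n} (huv : u ≠ v) (huw : u ≠ w) (hvw : v ≠ w)
    {X0 Y : Rlz n d} (h : gkey ({u, v, w} : Finset (Fin n)) Y = gkey {u, v, w} X0) :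
    (univ.filter (fun m : Fin 3 => none ∈ gtp_tab u v w Y m)).card =
      gtp_q (gtp_I u v w X0) := by
  rw [gtp_card3, ← gtp_I_congr huv huw hvw h]
  obtain ⟨h0, h1, h2⟩ := gtp_inner (u := u) (v := v) (w := w) Y
  obtain ⟨_, _, _, k, _, _, _⟩ := gtp_B (gtp_I u v w Y) (Y.1.Adj u v) (Y.1.Adj u w)
    (Y.1.Adj v w) rfl
  simp only [gtp_tab_none]
  rw [h0, h1, h2]
  exact k

theorem gtp_tab_some_col {u v w : Fin n} (huv : u ≠ v) (huw : u ≠ w) (hvw : v ≠ w)
    {X0 Y : Rlz n d} (h : gkey ({u, v, w} : Finset (Fin n)) Y = gkey {u, v, w} X0) (j : Fin n) :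
    (univ.filter (fun m : Fin 3 => some j ∈ gtp_tab u v w Y m)).card =
      gtp_c u v w X0 (gtp_I u v w X0) (some j) := by
  rw [gtp_c]
  split_ifs with hj
  · rw [card_eq_zero, filter_eq_empty_iff]
    intro m _ hm
    exact (gtp_tab_some.mp hm).1 hj
  · have h1 : (univ.filter (fun m : Fin 3 => some j ∈ gtp_tab u v w Y m)).card =
        (univ.filter (fun m : Fin 3 => Y.1.Adj j (trho u v w m))).card := by
      refine congrArg card (filter_congr (fun m _ => ?_))
      rw [gtp_tab_some, Y.1.adj_comm]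
      exact ⟨fun h => h.2, fun h => ⟨hj, h⟩⟩
    have h2 : (univ.filter (fun m : Fin 3 => X0.1.Adj (trho u v w m) j)).card =
        (univ.filter (fun m : Fin 3 => X0.1.Adj j (trho u v w m))).card := by
      refine congrArg card (filter_congr (fun m _ => ?_))
      rw [X0.1.adj_comm]
    rw [h1, h2, gtp_T huv huw hvw (fun q => Y.1.Adj j q),
      gtp_T huv huw hvw (fun q => X0.1.Adj j q)]
    exact gkey_count h hj

/-- the inner edges are determined by the table -/
theorem gtp_tab_ins {u v w : Fin n} (Y : Rlz n d) (m m' : Fin 3) (hm : m ≠ m') :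
    gtp_ins (gtp_I u v w Y) (none ∈ gtp_tab u v w Y m) (none ∈ gtp_tab u v w Y m') ↔
      Y.1.Adj (trho u v w m) (trho u v w m') := by
  obtain ⟨h0, h1, h2⟩ := gtp_inner (u := u) (v := v) (w := w) Y
  obtain ⟨k0, k1, k2, _, _, _, _⟩ := gtp_B (gtp_I u v w Y) (Y.1.Adj u v) (Y.1.Adj u w)
    (Y.1.Adj v w) rfl
  have g0 : none ∈ gtp_tab u v w Y 0 ↔ _ := gtp_tab_none
  have g1 : none ∈ gtp_tab u v w Y 1 ↔ _ := gtp_tab_none
  have g2 : none ∈ gtp_tab u v w Y 2 ↔ _ := gtp_tab_none
  rw [h0] at g0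
  rw [h1] at g1
  rw [h2] at g2
  have key : ∀ {a a' b b' c : Prop} {I : ℕ}, (a ↔ a') → (b ↔ b') → (gtp_ins I a' b' ↔ c) →
      (gtp_ins I a b ↔ c) := by
    intro a a' b b' c I ha hb hc
    rw [propext ha, propext hb]
    exact hc
  have r01 : gtp_ins (gtp_I u v w Y) (none ∈ gtp_tab u v w Y 0) (none ∈ gtp_tab u v w Y 1) ↔
      Y.1.Adj u v := key g0 g1 k0
  have r02 : gtp_ins (gtp_I u v w Y) (none ∈ gtp_tab u v w Y 0) (none ∈ gtp_tab u v w Y 2) ↔
      Y.1.Adj u w := key g0 g2 k1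
  have r12 : gtp_ins (gtp_I u v w Y) (none ∈ gtp_tab u v w Y 1) (none ∈ gtp_tab u v w Y 2) ↔
      Y.1.Adj v w := key g1 g2 k2
  fin_cases m <;> fin_cases m' <;> first
    | exact absurd rfl hm
    | exact r01
    | exact r02
    | exact r12
    | exact (gtp_ins_comm _ _ _).trans (r01.trans (Y.1.adj_comm _ _))
    | exact (gtp_ins_comm _ _ _).trans (r02.trans (Y.1.adj_comm _ _))
    | exact (gtp_ins_comm _ _ _).trans (r12.trans (Y.1.adj_comm _ _))

theorem gtp_im {u v w : Fin n} (huv : u ≠ v) (huw : u ≠ w) (hvw : v ≠ w) (X0 Y : Rlz n d) :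
    gkey ({u, v, w} : Finset (Fin n)) Y = gkey {u, v, w} X0 ↔
      ∃ Z, gtp_e huv huw hvw X0 Z = Y := by
  constructor
  · intro h
    refine ⟨⟨gtp_tab u v w Y, gtp_tab_row huv huw hvw h, fun o => ?_⟩, ?_⟩
    · cases o with
      | none =>
        have h9 : (univ.filter (fun m : Fin 3 => none ∈ gtp_tab u v w Y m)).card =
            gtp_c u v w X0 (gtp_I u v w X0) none := by
          rw [gtp_c]
          exact gtp_tab_none_col huv huw hvw h
        exact (gtp_card_filter_inst _ _ _ _).trans h9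
      | some j =>
        have := gtp_tab_some_col huv huw hvw h j
        exact (gtp_card_filter_inst _ _ _ _).trans this
    · apply Rlz_ext
      intro p q
      show gtp_adj u v w X0 (gtp_I u v w X0) (gtp_tab u v w Y) p q ↔ Y.1.Adj p q
      by_cases hp : p ∈ ({u, v, w} : Finset (Fin n))
      · obtain ⟨m, rfl⟩ := gtp_mem3.mp hp
        by_cases hq : q ∈ ({u, v, w} : Finset (Fin n))
        · obtain ⟨m', rfl⟩ := gtp_mem3.mp hq
          rw [gtp_adj_in huv huw hvw]
          by_cases hm : m = m'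
          · subst hm
            exact ⟨fun h' => absurd rfl h'.1, fun h' => absurd h' Y.1.irrefl⟩
          · have := gtp_tab_ins (u := u) (v := v) (w := w) Y m m' hm
            rw [gtp_I_congr huv huw hvw h] at this
            exact ⟨fun h' => this.mp h'.2, fun h' => ⟨hm, this.mpr h'⟩⟩
        · rw [gtp_adj_row huv huw hvw m hq]
          exact gtp_tab_some.trans ⟨fun h' => h'.2, fun h' => ⟨hq, h'⟩⟩
      · by_cases hq : q ∈ ({u, v, w} : Finset (Fin n))
        · obtain ⟨m', rfl⟩ := gtp_mem3.mp hq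
          have e1 : gtp_adj u v w X0 (gtp_I u v w X0) (gtp_tab u v w Y) p (trho u v w m') ↔
              gtp_adj u v w X0 (gtp_I u v w X0) (gtp_tab u v w Y) (trho u v w m') p :=
            ⟨gtp_adj_symm, gtp_adj_symm⟩
          refine e1.trans ?_
          rw [gtp_adj_row huv huw hvw m' hp, Y.1.adj_comm]
          exact gtp_tab_some.trans ⟨fun h' => h'.2, fun h' => ⟨hp, h'⟩⟩
        · rw [gtp_adj_out hp hq]
          exact ((gkey_eq_iff _ _ _).mp h p q hp hq).symm
  · rintro ⟨Z, rfl⟩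
    rw [gkey_eq_iff]
    intro p q hp hq
    rw [gtp_e_adj, gtp_adj_out hp hq]

/-- the class of `X0` for the triple `u, v, w` is parametrised by three-row tables (the outside
vertices as columns, and one extra column for the edges inside the triple) -/
theorem gtriple_param (u v w : Fin n) (huv : u ≠ v) (huw : u ≠ w) (hvw : v ≠ w) (X0 : Rlz n d) :
    ∃ (r : Fin 3 → ℕ) (c : Option (Fin n) → ℕ) (e : Tab r c → Rlz n d),
      Function.Injective e ∧
      (∀ Y, gkey ({u, v, w} : Finset (Fin n)) Y = gkey {u, v, w} X0 ↔ ∃ Z, e Z = Y) ∧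
      (∀ Z Z' : Tab r c, Z.1 2 = Z'.1 2 ↔
        gkey ({u, v} : Finset (Fin n)) (e Z) = gkey {u, v} (e Z')) ∧
      (∀ Z Z' : Tab r c, Z.1 1 = Z'.1 1 ↔
        gkey ({u, w} : Finset (Fin n)) (e Z) = gkey {u, w} (e Z')) ∧
      (∀ Z Z' : Tab r c, Z.1 0 = Z'.1 0 ↔
        gkey ({v, w} : Finset (Fin n)) (e Z) = gkey {v, w} (e Z')) := by
  refine ⟨gtp_r d u v w (gtp_I u v w X0), gtp_c u v w X0 (gtp_I u v w X0),
    gtp_e huv huw hvw X0, gtp_inj huv huw hvw X0, gtp_im huv huw hvw X0, ?_, ?_, ?_⟩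
  · refine gtp_keys huv huw hvw X0 _ 2 (fun k => ?_)
    simp only [mem_insert, mem_singleton, trho]
    constructor
    · rintro (rfl | rfl)
      · exact ⟨Or.inl rfl, huw⟩
      · exact ⟨Or.inr (Or.inl rfl), hvw⟩
    · rintro ⟨h1 | h1 | h1, h2⟩
      · exact Or.inl h1
      · exact Or.inr h1
      · exact absurd h1 h2
  · refine gtp_keys huv huw hvw X0 _ 1 (fun k => ?_)
    simp only [mem_insert, mem_singleton, trho]
    constructor
    · rintro (rfl | rfl)
      · exact ⟨Or.inl rfl, huv⟩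
      · exact ⟨Or.inr (Or.inr rfl), hvw.symm⟩
    · rintro ⟨h1 | h1 | h1, h2⟩
      · exact Or.inl h1
      · exact absurd h1 h2
      · exact Or.inr h1
  · refine gtp_keys huv huw hvw X0 _ 0 (fun k => ?_)
    simp only [mem_insert, mem_singleton, trho]
    constructor
    · rintro (rfl | rfl)
      · exact ⟨Or.inr (Or.inl rfl), huv.symm⟩
      · exact ⟨Or.inr (Or.inr rfl), huw.symm⟩
    · rintro ⟨h1 | h1 | h1, h2⟩
      · exact absurd h1 h2
      · exact Or.inl h1
      · exact Or.inr h1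

end

end VP335
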